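import Vale.Agent.P073.Prod

/-! P073: making a gradient map strongly monotone near a compact set. -/

open MeasureTheory Set Metric Filter
open scoped ContDiff RealInnerProductSpace Topology

namespace Vale.Agent.P073

variable {Ω O B : Set E} {f h : E → E} {G K : Fin 3 → E → E} {p : ENNReal} {U : E → ℝ}

/-- `F` is `κ`-monotone near `x` -/
def Loc (F : E → E) (x : E) (κ : ℝ) : Prop :=
  ∀ᶠ q : E × E in 𝓝 (x, x), κ * ‖q.1 - q.2‖ ^ 2 ≤ ⟪F q.1 - F q.2, q.1 - q.2⟫

/-- an admissible perturbation -/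
structure Good (p : ENNReal) (Ω O : Set E) (f h : E → E) (K : Fin 3 → E → E) : Prop where
  ct : Continuous h
  bd : ∃ M, ∀ x, ‖h x‖ ≤ M
  sob : Sob p Ω h K
  out : ∀ x ∉ O, h x = 0 ∧ ∀ i, K i x = 0
  loc : ∀ x ∈ Ω, Loc (f + h) x 0

theorem ev2 {x : E} {P : E → Prop} (h : ∀ᶠ y in 𝓝 x, P y) :
    ∀ᶠ q : E × E in 𝓝 (x, x), P q.1 ∧ P q.2 := h.prod_nhds h

theorem Loc.near {F : E → E} {x : E} {κ : ℝ} (h : Loc F x κ) : ∀ᶠ y in 𝓝 x, Loc F y κ :=
  (continuous_id.prodMk continuous_id).continuousAt.eventually h.eventually_nhds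

theorem subgrad (hU : ConvexOn ℝ B U) {y z w : E} (hy : y ∈ B) (hz : z ∈ B)
    (d : HasGradientAt U w y) : ⟪w, z - y⟫ ≤ U z - U y := by
  have a : HasDerivAt (fun t : ℝ => y + t • (z - y)) (z - y) 0 := by
    simpa using ((hasDerivAt_id (0 : ℝ)).smul_const (z - y)).const_add y
  have b : HasDerivAt (fun t : ℝ => U (y + t • (z - y))) ⟪w, z - y⟫ 0 := by
    have := (show HasFDerivAt U (InnerProductSpace.toDual ℝ E w) (y + (0 : ℝ) • (z - y)) by
      rw [zero_smul, add_zero]; exact d.hasFDerivAt).comp_hasDerivAt 0 a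
    exact this
  refine le_of_tendsto b.tendsto_slope_zero_right ?_
  filter_upwards [Ioo_mem_nhdsGT one_pos] with t ht
  have c := hU.2 hy hz (sub_pos.2 ht.2).le ht.1.le (sub_add_cancel _ _)
  rw [smul_eq_mul, inv_mul_le_iff₀ ht.1, zero_add, zero_smul, add_zero,
    show y + t • (z - y) = (1 - t) • y + t • z by module]
  simp only [smul_eq_mul] at c
  linarith

theorem loc_of {x : E} (hB : B ∈ 𝓝 x) (hU : ConvexOn ℝ B U) (d : ∀ y ∈ B, HasGradientAt U (f y) y) :
    Loc f x 0 := (ev2 hB).mono fun q hq => by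
  have a := subgrad hU hq.1 hq.2 (d _ hq.1)
  have b := subgrad hU hq.2 hq.1 (d _ hq.2)
  rw [← neg_sub, inner_neg_right] at a
  rw [inner_sub_left]
  linarith

theorem bump (hp : 1 ≤ p) (hΩ : IsOpen Ω) (hb : Bornology.IsBounded Ω) (hf : ContinuousOn f Ω)
    (hi : InjOn f B) (hs : Sob p Ω f G) (hl : ∀ x ∈ Ω, Loc f x 0) (hO : IsOpen O) {x0 : E}
    (h0 : x0 ∈ O) (hB : IsOpen B) (hB0 : x0 ∈ B) (hB1 : B ⊆ Ω) (hU : ConvexOn ℝ B U)
    (d : ∀ y ∈ B, HasGradientAt U (f y) y) :
    ∃ h K, Good p Ω O f h K ∧ ∃ κ > 0, Loc (f + h) x0 κ := by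
  obtain ⟨r, r0, hr⟩ := nhds_basis_closedBall.mem_iff.1 ((hO.inter hB).mem_nhds ⟨h0, hB0⟩)
  have cU : ∀ y ∈ B, ContDiffAt ℝ 1 U y := fun y hy => contDiffAt_one_iff.2
    ⟨fun y => InnerProductSpace.toDual ℝ E (f y), B, hB.mem_nhds hy,
      (InnerProductSpace.toDual ℝ E).continuous.comp_continuousOn (hf.mono hB1),
      fun z hz => (d z hz).hasFDerivAt⟩
  obtain ⟨m, m0, hm⟩ := ((isCompact_closedBall x0 r).diff (isOpen_ball (x := x0) (ε := r / 2))
    ).exists_forall_le' (f := fun y => U y - U x0 - ⟪f x0, y - x0⟫) (a := 0)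
    (fun y hy => (((cU y (hr hy.1).2).continuousAt.sub continuousAt_const).sub
      (by fun_prop)).continuousWithinAt) fun y hy => by
    by_contra n
    have y0 := (hr hy.1).2
    have a : IsLocalMin (fun y => U y - ⟪f x0, y⟫) y := mem_of_superset (hB.mem_nhds y0)
      fun z hz => by
        have := subgrad hU hB0 hz (d _ hB0)
        simp only [inner_sub_right, not_lt, mem_ofPred_eq] at this n ⊢
        linarith
    have b := congrArg (fun L : E →L[ℝ] ℝ => L (f y - f x0))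
      (a.hasFDerivAt_eq_zero ((d y y0).hasFDerivAt.sub (innerSL ℝ (f x0)).hasFDerivAt))
    have c : ⟪f y - f x0, f y - f x0⟫ = 0 := by rw [inner_sub_left]; simpa using b
    rw [hi y0 hB0 (sub_eq_zero.1 (inner_self_eq_zero.1 c))] at hy
    exact hy.2 (mem_ball_self (half_pos r0))
  obtain ⟨κ, k0, k1⟩ : ∃ κ : ℝ, 0 < κ ∧ κ * r ^ 2 = m := ⟨m / r ^ 2, by positivity, by field_simp⟩
  obtain ⟨Q, hQ⟩ : ∃ Q : E → ℝ, Q = fun y => ⟪f x0, y - x0⟫ + κ / 2 * ‖y - x0‖ ^ 2 := ⟨_, rfl⟩
  obtain ⟨a, ha⟩ : ∃ a : E → E, a = fun y => f x0 + κ • (y - x0) := ⟨_, rfl⟩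
  obtain ⟨t, ht⟩ : ∃ t : E → ℝ, t = fun y => 4 / m * (m / 2 + U x0 + (Q y - U y)) := ⟨_, rfl⟩
  obtain ⟨θ, hθ⟩ : ∃ θ : E → ℝ,
    θ = (closedBall x0 (r / 2)).indicator fun y => Real.smoothTransition (t y) := ⟨_, rfl⟩
  have cQ : ContDiff ℝ 1 Q := hQ ▸ (contDiff_const.inner ℝ (contDiff_id.sub contDiff_const)).add
    (contDiff_const.mul ((contDiff_id.sub contDiff_const).norm_sq ℝ))
  have ct : ∀ y ∈ B, ContDiffAt ℝ 1 t y := fun y hy =>
    ht ▸ contDiffAt_const.mul (contDiffAt_const.add (cQ.contDiffAt.sub (cU y hy)))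
  have e1 : ∀ y ∈ ball x0 r, θ y = Real.smoothTransition (t y) := fun y hy => by
    rw [hθ]
    refine indicator_apply_eq_self.2 fun n => Real.smoothTransition.zero_of_nonpos ?_
    have b := hm y ⟨ball_subset_closedBall hy, fun l => n (ball_subset_closedBall l)⟩
    have c : κ * ‖y - x0‖ ^ 2 ≤ κ * r ^ 2 := by
      have := mem_ball_iff_norm.1 hy
      gcongr
    rw [ht, hQ]
    exact mul_nonpos_of_nonneg_of_nonpos (by positivity) (by linarith)
  have s1 : tsupport θ ⊆ closedBall x0 (r / 2) :=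
    closure_minimal (hθ ▸ support_indicator_subset) isClosed_closedBall
  have s2 : closedBall x0 (r / 2) ⊆ ball x0 r := closedBall_subset_ball (half_lt_self r0)
  have s3 : ball x0 r ⊆ O ∩ B := ball_subset_closedBall.trans hr
  have c1 : ContDiff ℝ 1 θ := contDiff_iff_contDiffAt.2 fun y => by
    by_cases hy : y ∈ tsupport θ
    · exact (Real.smoothTransition.contDiffAt.comp y (ct y (s3 (s2 (s1 hy))).2)
        ).congr_of_eventuallyEq (mem_of_superset (isOpen_ball.mem_nhds (s2 (s1 hy))) e1)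
    · exact contDiffAt_const.congr_of_eventuallyEq (notMem_tsupport_iff_eventuallyEq.1 hy)
  have c2 : HasCompactSupport θ :=
    (isCompact_closedBall _ _).of_isClosed_subset (isClosed_tsupport _) s1
  have ca : ContDiff ℝ ∞ a :=
    ha ▸ contDiff_const.add ((contDiff_id.sub contDiff_const).const_smul κ)
  have S := ((sob_smooth hΩ hb ca).comb hp hb hs 1 (-1)).smul hp hΩ hb c1 c2
  have e2 : ∀ y, ((1 : ℝ) • a + (-1 : ℝ) • f) y = a y - f y := fun y => by simp [sub_eq_add_neg]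
  have ch : Continuous fun y => θ y • ((1 : ℝ) • a + (-1 : ℝ) • f) y := by
    simp only [e2]
    exact continuous_of_tsupport fun y hy => c1.continuous.continuousAt.smul
      (ca.continuous.continuousAt.sub (hf.continuousAt (hΩ.mem_nhds
        (hB1 (s3 (s2 (s1 (tsupport_smul_subset_left _ _ hy)))).2))))
  refine ⟨_, _, ⟨ch, ch.bounded_above_of_compact_support c2.smul_right, S, fun x hx => ?_,
    fun x hx => ?_⟩, κ, k0, ?_⟩
  · have n : x ∉ tsupport θ := fun l => hx (s3 (s2 (s1 l))).1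
    simp [image_eq_zero_of_notMem_tsupport n,
      image_eq_zero_of_notMem_tsupport fun l => n (tsupport_pd _ θ l)]
  · by_cases n : x ∈ tsupport θ
    · refine (ev2 (isOpen_ball.mem_nhds (s2 (s1 n)))).mono fun ⟨y, z⟩ ⟨hy, hz⟩ => ?_
      dsimp only at hy hz ⊢
      have a1 := subgrad hU (s3 hy).2 (s3 hz).2 (d _ (s3 hy).2)
      have a2 := subgrad hU (s3 hz).2 (s3 hy).2 (d _ (s3 hz).2)
      rw [← neg_sub, inner_neg_right] at a1
      have a3 : Q y - Q z ≤ ⟪a y, y - z⟫ ∧ ⟪a z, y - z⟫ ≤ Q y - Q z := by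
        have n1 := mul_nonneg k0.le (sq_nonneg ‖(y - x0) - (z - x0)‖)
        rw [norm_sub_sq_real] at n1
        rw [hQ, ha, show y - z = (y - x0) - (z - x0) by abel]
        dsimp only
        generalize y - x0 = u at n1 ⊢
        simp only [inner_add_left, real_inner_smul_left]
        generalize z - x0 = w at n1 ⊢
        simp only [inner_sub_right, real_inner_self_eq_norm_sq, real_inner_comm u w]
        constructor <;> linarith
      have a4 : 0 ≤ (θ y - θ z) * (Q y - U y - (Q z - U z)) := by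
        rw [e1 y hy, e1 z hz]
        refine mul_nonneg_iff_of_pos_left (show 0 < 4 / m by positivity) |>.1 ?_
        rw [mul_left_comm, show 4 / m * (Q y - U y - (Q z - U z)) = t y - t z by rw [ht]; ring]
        exact (le_total (t y) (t z)).elim
          (fun l => mul_nonneg_of_nonpos_of_nonpos
            (sub_nonpos.2 (Real.smoothTransition.monotone l)) (sub_nonpos.2 l))
          fun l => mul_nonneg (sub_nonneg.2 (Real.smoothTransition.monotone l)) (sub_nonneg.2 l)
      have b1 : 0 ≤ θ y ∧ θ y ≤ 1 :=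
        e1 y hy ▸ ⟨Real.smoothTransition.nonneg _, Real.smoothTransition.le_one _⟩
      have b2 : 0 ≤ θ z ∧ θ z ≤ 1 :=
        e1 z hz ▸ ⟨Real.smoothTransition.nonneg _, Real.smoothTransition.le_one _⟩
      simp only [Pi.add_apply (f := f), e2, inner_sub_left, inner_add_left, real_inner_smul_left]
      nlinarith [mul_nonneg b1.1 (sub_nonneg.2 a3.1), mul_nonneg b2.1 (sub_nonneg.2 a3.2),
        mul_nonneg (sub_nonneg.2 b1.2) (sub_nonneg.2 a1),
        mul_nonneg (sub_nonneg.2 b2.2) (sub_nonneg.2 a2)]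
    · refine ((ev2 (notMem_tsupport_iff_eventuallyEq.1 n)).and (hl x hx)).mono fun q hq => ?_
      simpa [hq.1.1, hq.1.2] using hq.2
  · have t0 : 1 < t x0 := by
      rw [ht, hQ]
      simp only [sub_self, inner_zero_right, norm_zero]
      field_simp
      linarith
    refine (ev2 (((ct x0 hB0).continuousAt.eventually (lt_mem_nhds t0)).and
      (ball_mem_nhds x0 r0))).mono fun ⟨y, z⟩ ⟨hy, hz⟩ => ?_
    dsimp only at hy hz ⊢
    simp only [Pi.add_apply (f := f), e2]
    rw [e1 y hy.2, e1 z hz.2, Real.smoothTransition.one_of_one_le hy.1.le,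
      Real.smoothTransition.one_of_one_le hz.1.le, one_smul, one_smul, add_sub_cancel,
      add_sub_cancel, ha]
    dsimp only
    rw [show f x0 + κ • (y - x0) - (f x0 + κ • (z - x0)) = κ • (y - z) by module,
      real_inner_smul_left, real_inner_self_eq_norm_sq]

end Vale.Agent.P073
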