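import Mathlib

/-! P073: Sobolev homeomorphisms of domains in three-space. -/

open MeasureTheory Set
open scoped ContDiff RealInnerProductSpace

namespace Vale.Agent.P073

/-- Euclidean three-space -/
abbrev E : Type := EuclideanSpace ℝ (Fin 3)

/-- the classical derivative of `f` along the `i`-th coordinate -/
noncomputable def pd {F : Type} [NormedAddCommGroup F] [NormedSpace ℝ F] (i : Fin 3) (f : E → F)
    (x : E) : F := fderiv ℝ f x (EuclideanSpace.single i 1)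

/-- `G i` is the weak derivative of `f` on `Ω` along the `i`-th coordinate -/
def WeakD (Ω : Set E) (f : E → E) (G : Fin 3 → E → E) : Prop :=
  ∀ (i : Fin 3) (ψ : E → ℝ), ContDiff ℝ ∞ ψ → HasCompactSupport ψ → tsupport ψ ⊆ Ω →
    ∫ x in Ω, pd i ψ x • f x = -∫ x in Ω, ψ x • G i x

/-- `f` lies in `W^{1,p}(Ω)`, with weak derivatives `G i` -/
def Sob (p : ENNReal) (Ω : Set E) (f : E → E) (G : Fin 3 → E → E) : Prop :=
  WeakD Ω f G ∧ MemLp f p (volume.restrict Ω) ∧ ∀ i, MemLp (G i) p (volume.restrict Ω)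

/-- `f` is a homeomorphism of `Ω` onto `Λ` -/
def Homeo (Ω Λ : Set E) (f : E → E) : Prop :=
  ContinuousOn f Ω ∧ BijOn f Ω Λ ∧ ∃ h : E → E, ContinuousOn h Λ ∧ InvOn h f Ω Λ

/-- `g` is a smooth bijection of `Ω` onto `Λ` with smooth inverse -/
def Diffeo (Ω Λ : Set E) (g : E → E) : Prop :=
  ContDiffOn ℝ ∞ g Ω ∧ BijOn g Ω Λ ∧ ∃ h : E → E, ContDiffOn ℝ ∞ h Λ ∧ InvOn h g Ω Λ

/-- `f` is a limit in `W^{1,p}(Ω)` of diffeomorphisms of `Ω` onto `Λ` -/
def Approx (p : ENNReal) (Ω Λ : Set E) (f : E → E) (G : Fin 3 → E → E) : Prop :=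
  ∀ ε : ENNReal, 0 < ε → ∃ g : E → E, Diffeo Ω Λ g ∧ Sob p Ω g (fun i => pd i g) ∧
    eLpNorm (g - f) p (volume.restrict Ω) ≤ ε ∧
    ∀ i, eLpNorm (pd i g - G i) p (volume.restrict Ω) ≤ ε

/-- for every direction `v` there is a direction `c` such that, inside `B`, the `c`-component of `f`
grows at rate at least `κ` along all lines parallel to `v` -/
def Grow (f : E → E) (B : Set E) (κ : ℝ) : Prop :=
  ∀ v : E, ‖v‖ = 1 → ∃ c : E, ‖c‖ = 1 ∧
    ∀ y ∈ B, ∀ t : ℝ, 0 ≤ t → y + t • v ∈ B → κ * t ≤ ⟪c, f (y + t • v) - f y⟫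

end Vale.Agent.P073
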