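import Vale.Agent.P073.Defs

/-! P073: two more classes of maps. -/

open Set Metric

namespace Vale.Agent.P073

/-- on every ball of radius `r` inside `B`, the map `f` is within `m r / 100` of an affine map
whose linear part stretches every vector by at least the factor `m` -/
def NearAff (f : E → E) (B : Set E) : Prop :=
  ∀ (y : E) (r : ℝ), 0 < r → ball y r ⊆ B → ∃ (A : E →L[ℝ] E) (b : E) (m : ℝ), 0 < m ∧
    (∀ v, m * ‖v‖ ≤ ‖A v‖) ∧ ∀ z ∈ ball y r, ‖f z - (b + A z)‖ ≤ m * r / 100

/-- inside `B`, the `i`-th component of `f` depends only on the coordinates `j ≤ i` -/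
def Tri (f : E → E) (B : Set E) : Prop :=
  ∀ i : Fin 3, ∀ y ∈ B, ∀ z ∈ B, (∀ j ≤ i, y j = z j) → f y i = f z i

end Vale.Agent.P073
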