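import Vale.Agent.P073.Defs2

/-! P073: compositions. -/

open Set Metric

namespace Vale.Agent.P073

/-- a bounded domain -/
def Dom (Ω : Set E) : Prop := IsOpen Ω ∧ IsConnected Ω ∧ Bornology.IsBounded Ω

/-- a homeomorphism that is, near every point, nearly affine at all scales and `L`-bi-Lipschitz,
with one constant `L` -/
def Tame (Ω Λ : Set E) (h : E → E) : Prop :=
  Homeo Ω Λ h ∧ ∃ L > (0 : ℝ), ∀ x ∈ Ω, ∃ r > 0, ball x r ⊆ Ω ∧ NearAff h (ball x r) ∧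
    ∀ y ∈ ball x r, ∀ z ∈ ball x r, ‖y - z‖ ≤ L * ‖h y - h z‖ ∧ ‖h y - h z‖ ≤ L * ‖y - z‖

/-- finite compositions of tame homeomorphisms between bounded domains -/
inductive Fac : Set E → Set E → (E → E) → Prop
  | base (Ω : Set E) : Dom Ω → Fac Ω Ω id
  | step (Ω Ω' Λ : Set E) (h f : E → E) : Dom Ω → Tame Ω Ω' h → Fac Ω' Λ f → Fac Ω Λ (f ∘ h)

end Vale.Agent.P073
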