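import Vale.Agent.P073.Bump

/-! P073: approximation of gradient homeomorphisms of locally convex potentials. -/

open MeasureTheory Set Metric Filter
open scoped ContDiff RealInnerProductSpace Topology

namespace Vale.Agent.P073

variable {Ω Λ O S : Set E} {f : E → E} {G : Fin 3 → E → E} {p : ENNReal}

theorem Loc.sum {x : E} {T : Finset ℕ} {h : ℕ → E → E} {s κ : ℕ → ℝ} (h0 : Loc f x 0)
    (h1 : ∀ k ∈ T, Loc (f + h k) x (κ k)) (s0 : ∀ k, 0 ≤ s k) (s1 : ∑ k ∈ T, s k ≤ 1) :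
    Loc (fun y => f y + ∑ k ∈ T, s k • h k y) x (∑ k ∈ T, s k * κ k) := by
  refine (h0.and ((eventually_all_finset T).2 h1)).mono fun ⟨y, z⟩ ⟨a, b⟩ => ?_
  dsimp only at a b ⊢
  rw [add_sub_add_comm, inner_add_left, ← Finset.sum_sub_distrib, sum_inner, Finset.sum_mul]
  refine (Finset.sum_le_sum (g := fun k => s k * ⟪f y - f z, y - z⟫ +
    ⟪s k • h k y - s k • h k z, y - z⟫) fun k hk => ?_).trans ?_
  · have c := b k hk
    rw [Pi.add_apply, Pi.add_apply, add_sub_add_comm, inner_add_left] at c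
    rw [← smul_sub, real_inner_smul_left, ← mul_add, mul_assoc]
    exact mul_le_mul_of_nonneg_left c (s0 k)
  · rw [Finset.sum_add_distrib, ← Finset.sum_mul]
    nlinarith

theorem Loc.avg {x : E} {h h' : E → E} {κ κ' : ℝ} (a : Loc (f + h) x κ) (b : Loc (f + h') x κ') :
    Loc (f + ((1 / 2 : ℝ) • h + (1 / 2 : ℝ) • h')) x ((κ + κ') / 2) :=
  (a.and b).mono fun ⟨y, z⟩ ⟨c, d⟩ => by
    simp only [Pi.add_apply, Pi.smul_apply, inner_sub_left, inner_add_left,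
      real_inner_smul_left] at c d ⊢
    linarith

theorem shell (hp : 1 ≤ p) (hΩ : IsOpen Ω) (hb : Bornology.IsBounded Ω) (hf : ContinuousOn f Ω)
    (hs : Sob p Ω f G) (hU : ∀ x ∈ Ω, ∃ r > 0, ∃ U : E → ℝ, ball x r ⊆ Ω ∧ InjOn f (ball x r) ∧
      ConvexOn ℝ (ball x r) U ∧ ∀ y ∈ ball x r, HasGradientAt U (f y) y)
    (hO : IsOpen O) (hS : IsCompact S) (h1 : S ⊆ O) (h2 : S ⊆ Ω) :
    ∃ h K, Good p Ω O f h K ∧ ∀ x ∈ S, x ∈ Ω → ∃ κ > 0, Loc (f + h) x κ := by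
  have hl : ∀ x ∈ Ω, Loc f x 0 := fun x hx =>
    let ⟨_, r0, _, _, _, a, b⟩ := hU x hx
    loc_of (ball_mem_nhds x r0) a b
  refine hS.induction_on (p := fun S => ∃ h K, Good p Ω O f h K ∧
    ∀ x ∈ S, x ∈ Ω → ∃ κ > 0, Loc (f + h) x κ) ⟨0, 0, ⟨continuous_const, ⟨0, by simp⟩,
      ⟨fun i ψ _ _ _ => by simp, MemLp.zero, fun _ => MemLp.zero⟩, by simp, by simpa using hl⟩,
      by simp⟩ (fun s t h ⟨a, b, c, d⟩ => ⟨a, b, c, fun x hx => d x (h hx)⟩)
    (fun s t ⟨a, b, c, d⟩ ⟨a', b', c', d'⟩ => ?_) fun x hx => ?_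
  · obtain ⟨M, hM⟩ := c.bd
    obtain ⟨M', hM'⟩ := c'.bd
    refine ⟨_, _, ⟨(c.ct.const_smul _).add (c'.ct.const_smul _), ⟨M / 2 + M' / 2, fun x => ?_⟩,
      c.sob.comb hp hb c'.sob (1 / 2) (1 / 2), fun x hx => by simp [c.out x hx, c'.out x hx],
      fun x hx => by simpa using (c.loc x hx).avg (c'.loc x hx)⟩, fun x hx h0 => hx.elim
      (fun l => ?_) fun l => ?_⟩
    · refine norm_add_le_of_le ?_ ?_ <;> rw [Pi.smul_apply, norm_smul, Real.norm_of_nonneg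
        (by norm_num)] <;> linarith [hM x, hM' x]
    · obtain ⟨κ, k0, k⟩ := d x l h0
      exact ⟨_, by linarith, k.avg (c'.loc x h0)⟩
    · obtain ⟨κ, k0, k⟩ := d' x l h0
      exact ⟨_, by linarith, (c.loc x h0).avg k⟩
  · obtain ⟨r, r0, U, a, hi, b, c⟩ := hU x (h2 hx)
    obtain ⟨h, K, d, κ, k0, k⟩ := bump hp hΩ hb hf hi hs hl hO (h1 hx) isOpen_ball
      (mem_ball_self r0) a b c
    exact ⟨_, mem_nhdsWithin_of_mem_nhds k.near, h, K, d, fun y hy _ => ⟨κ, k0, hy⟩⟩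

theorem small {B : E → E} {μ : Measure E} (hB : MemLp B p μ) {ε : ENNReal} (hε : 0 < ε) :
    ∀ᶠ s in 𝓝[>] (0 : ℝ), eLpNorm (fun x => s • B x) p μ ≤ ε := by
  have t := ENNReal.Tendsto.mul_const ((continuous_enorm (E := ℝ)).tendsto' 0 0 (by simp))
    (Or.inr hB.2.ne)
  rw [zero_mul] at t
  exact (eventually_nhdsWithin_of_eventually_nhds (t.eventually (eventually_le_nhds hε))).mono
    fun s hs => (eLpNorm_const_smul s B p μ).trans_le hs

theorem geo {a : ℕ → ℝ} {d : ℝ} (hd : 0 ≤ d) (n : ℕ) (h : ∀ k, a k ≤ d / 2 / 2 ^ k) :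
    ∑ k ∈ Finset.range n, a k ≤ d :=
  (Finset.sum_le_sum fun k _ => h k).trans (((summable_geometric_two' d).sum_le_tsum _
    fun k _ => by positivity).trans (tsum_geometric_two' d).le)

theorem patch (hp : 1 ≤ p) (hΩ : IsOpen Ω) (hb : Bornology.IsBounded Ω) (hf : ContinuousOn f Ω)
    (hs : Sob p Ω f G) (hU : ∀ x ∈ Ω, ∃ r > 0, ∃ U : E → ℝ, ball x r ⊆ Ω ∧ InjOn f (ball x r) ∧
      ConvexOn ℝ (ball x r) U ∧ ∀ y ∈ ball x r, HasGradientAt U (f y) y) {δ : E → ℝ}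
    (hδ : ∀ K, IsCompact K → K ⊆ Ω → ∃ c > 0, ∀ x ∈ K, c ≤ δ x) {ε : ENNReal} (hε : ε ≠ 0) :
    ∃ F H, ContinuousOn F Ω ∧ Sob p Ω F H ∧ (∀ x ∈ Ω, ‖F x - f x‖ ≤ δ x) ∧
      (∀ x ∈ Ω, ∃ κ > 0, Loc F x κ) ∧ eLpNorm (F - f) p (volume.restrict Ω) ≤ ε ∧
      ∀ i, eLpNorm (H i - G i) p (volume.restrict Ω) ≤ ε := by
  have m := hΩ.measurableSet
  obtain ⟨χ, hχ, hm⟩ := pou hΩ hb
  obtain ⟨b, b0, b1⟩ := ENNReal.exists_pos_sum_of_countable (lt_min hε.bot_lt one_pos).ne' ℕ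
  choose c c0 c1 using fun k => hδ _ (hχ k).2.1 (hχ k).2.2.1
  have t0 : ∀ k : ℕ, {x | 1 / 2 / 2 / 2 ^ k ≤ χ k x} ⊆ Function.support (χ k) :=
    fun k x hx => (lt_of_lt_of_le (by positivity) hx).ne'
  choose h K g1 g2 using fun k => shell hp hΩ hb hf hs hU (hχ k).1.continuous.isOpen_support
    ((hχ k).2.1.of_isClosed_subset (isClosed_le continuous_const (hχ k).1.continuous)
      ((t0 k).trans (subset_tsupport _))) (t0 k)
    ((t0 k).trans ((subset_tsupport _).trans (hχ k).2.2.1))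
  have o : ∀ k y, χ k y = 0 → h k y = 0 ∧ ∀ i, K k i y = 0 := fun k y hy =>
    (g1 k).out y (not_not.2 hy)
  have hs' : ∀ k, ∃ s : ℝ, (0 < s ∧ s ≤ 1 / 2 / 2 ^ k ∧ ∀ x, ‖s • h k x‖ ≤ c k / 2 / 2 ^ k) ∧
      eLpNorm (fun x => s • h k x) p (volume.restrict Ω) ≤ b k ∧
      ∀ i, eLpNorm (fun x => s • K k i x) p (volume.restrict Ω) ≤ b k := fun k => by
    obtain ⟨M, hM⟩ := (g1 k).bd
    have M0 : 0 < M + 1 := by linarith [(norm_nonneg _).trans (hM 0)]
    have c2 := c0 k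
    have b2 : (0 : ENNReal) < b k := by simpa using b0 k
    refine (Eventually.and (mem_of_superset (Ioc_mem_nhdsGT (show (0 : ℝ) < min (1 / 2 / 2 ^ k)
      (c k / 2 / 2 ^ k / (M + 1)) by positivity)) fun s hs => ?_) ((small (g1 k).sob.2.1 b2).and
      (eventually_all.2 fun i => small ((g1 k).sob.2.2 i) b2))).exists
    refine ⟨hs.1, hs.2.trans (min_le_left _ _), fun x => ?_⟩
    have := (le_div_iff₀ M0).1 (hs.2.trans (min_le_right _ _))
    rw [norm_smul, Real.norm_of_nonneg hs.1.le]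
    nlinarith [hM x, hs.1]
  choose s s1 s2 s3 using hs'
  have fs : ∀ (a : ℕ → E → E) (y : E) (n0 n : ℕ), (∀ k, χ k y = 0 → a k y = 0) →
      (∀ k ≥ n0, χ k y = 0) → n0 ≤ n → ∑' k, s k • a k y = ∑ k ∈ Finset.range n, s k • a k y :=
    fun a y n0 n h1 h2 h3 => tsum_eq_sum fun k hk => by
      rw [h1 k (h2 k (h3.trans (not_lt.1 fun l => hk (Finset.mem_range.2 l)))), smul_zero]
  have sP : ∀ n, Sob p Ω (fun y => f y + ∑ k ∈ Finset.range n, s k • h k y)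
      fun i y => G i y + ∑ k ∈ Finset.range n, s k • K k i y := fun n => by
    induction n with
    | zero => simpa using hs
    | succ n ih =>
      convert ih.comb hp hb (g1 n).sob 1 (s n) using 2 <;> ext1 <;>
        simp [Finset.sum_range_succ, add_assoc]
  have lp : ∀ a : ℕ → E → E, (∀ k y, χ k y = 0 → a k y = 0) →
      (∀ k, MemLp (a k) p (volume.restrict Ω)) →
      (∀ k, eLpNorm (fun x => s k • a k x) p (volume.restrict Ω) ≤ b k) →
      MemLp (fun y => ∑' k, s k • a k y) p (volume.restrict Ω) ∧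
      eLpNorm (fun y => ∑' k, s k • a k y) p (volume.restrict Ω) ≤ ε := fun a h1 h2 h3 => by
    have e : ∀ x ∈ Ω, ∀ᶠ n in atTop, ∑' k, s k • a k x = ∑ k ∈ Finset.range n, s k • a k x :=
      fun x hx =>
      let ⟨n0, k⟩ := hm x hx
      (eventually_ge_atTop n0).mono fun n hn => fs a x n0 n (h1 · x) k.self_of_nhds.1 hn
    have l := (sum_Lp hp m e (fun k => (h2 k).1.const_smul (s k)) h3).trans b1.le
    exact ⟨⟨aestronglyMeasurable_of_tendsto_ae atTop (f := fun n x => ∑ k ∈ Finset.range n,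
      s k • a k x) (fun n => Finset.aestronglyMeasurable_fun_sum _ fun k _ =>
        (h2 k).1.const_smul (s k)) ((ae_restrict_mem m).mono fun x hx =>
        tendsto_const_nhds.congr' (e x hx)), (l.trans (min_le_right _ _)).trans_lt
      ENNReal.one_lt_top⟩, l.trans (min_le_left _ _)⟩
  obtain ⟨l1, l2⟩ := lp h (fun k y hy => (o k y hy).1) (fun k => (g1 k).sob.2.1) s2
  have l3 := fun i => lp (K · i) (fun k y hy => (o k y hy).2 i) (fun k => (g1 k).sob.2.2 i)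
    (s3 · i)
  have loc : ∀ x ∈ Ω, ∃ n, ∑ k ∈ Finset.range n, χ k x = 1 ∧ ∀ᶠ y in 𝓝 x,
      f y + ∑' k, s k • h k y = f y + ∑ k ∈ Finset.range n, s k • h k y := fun x hx =>
    let ⟨n, k⟩ := hm x hx
    ⟨n, k.self_of_nhds.2, k.mono fun y hy => by
      rw [fs h y n n (fun k l => (o k y l).1) hy.1 le_rfl]⟩
  refine ⟨fun y => f y + ∑' k, s k • h k y, fun i y => G i y + ∑' k, s k • K k i y,
    fun x hx => ?_, ⟨fun i ψ h1 h2 h3 => ?_, hs.2.1.add l1, fun i => (hs.2.2 i).add (l3 i).1⟩,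
    fun x hx => ?_, fun x hx => ?_, by simpa [Pi.sub_def] using l2,
    fun i => by simpa [Pi.sub_def] using (l3 i).2⟩
  · obtain ⟨n, -, k⟩ := loc x hx
    exact (((hf.continuousAt (hΩ.mem_nhds hx)).add (continuous_finsetSum _ fun k _ =>
      (g1 k).ct.const_smul (s k)).continuousAt).congr (EventuallyEq.symm k)).continuousWithinAt
  · obtain ⟨n, hn⟩ := IsCompact.induction_on h2
      (p := fun C => ∃ n, ∀ y ∈ C, ∀ k ≥ n, χ k y = 0) ⟨0, by simp⟩
      (fun s t h ⟨n, a⟩ => ⟨n, fun y hy => a y (h hy)⟩)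
      (fun s t ⟨n, a⟩ ⟨n', a'⟩ => ⟨max n n', fun y hy k hk => hy.elim
        (fun l => a y l k (le_of_max_le_left hk)) fun l => a' y l k (le_of_max_le_right hk)⟩)
      fun x hx =>
        let ⟨n, k⟩ := hm x (h3 hx)
        ⟨_, mem_nhdsWithin_of_mem_nhds k, n, fun y hy => hy.1⟩
    have e : ∀ (θ : E → ℝ) (B : E → E) (a : ℕ → E → E), tsupport θ ⊆ tsupport ψ →
        (∀ k y, χ k y = 0 → a k y = 0) → ∫ y in Ω, θ y • (B y + ∑' k, s k • a k y) =
          ∫ y in Ω, θ y • (B y + ∑ k ∈ Finset.range n, s k • a k y) := fun θ B a t u =>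
      integral_congr_ae (.of_forall fun y => by
        by_cases hy : y ∈ tsupport ψ
        · simp only [fs a y n n (u · y) (hn y hy) le_rfl]
        · simp only [image_eq_zero_of_notMem_tsupport fun l => hy (t l), zero_smul])
    rw [e _ f h (tsupport_pd i ψ) fun k y l => (o k y l).1,
      e _ (G i) (K · i) subset_rfl fun k y l => (o k y l).2 i]
    exact (sP n).1 i ψ h1 h2 h3
  · obtain ⟨n, -, k⟩ := loc x hx
    obtain ⟨a, a0, a1⟩ := hδ {x} isCompact_singleton (singleton_subset_iff.2 hx)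
    have d0 := a0.trans_le (a1 x rfl)
    dsimp only
    rw [k.self_of_nhds, add_sub_cancel_left]
    refine (norm_sum_le _ _).trans (geo d0.le n fun j => ?_)
    by_cases hj : χ j x = 0
    · rw [(o j x hj).1, smul_zero, norm_zero]
      positivity
    · exact ((s1 j).2.2 x).trans (by gcongr; exact c1 j x (subset_tsupport _ hj))
  · obtain ⟨n, u, k⟩ := loc x hx
    obtain ⟨j, j0, j1⟩ : ∃ j ∈ Finset.range n, 1 / 2 / 2 / 2 ^ j ≤ χ j x := by
      by_contra! l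
      have := (Finset.sum_le_sum fun j hj => (l j hj).le).trans
        (geo (d := 1 / 2) (by norm_num) n fun _ => le_rfl)
      linarith
    obtain ⟨κ, k0, k1⟩ := g2 j x j1 hx
    obtain ⟨r, r0, U, -, -, a1, a2⟩ := hU x hx
    refine ⟨∑ i ∈ Finset.range n, s i * if i = j then κ else 0, ?_, ((ev2 k).and
      (Loc.sum (h := h) (κ := fun i => if i = j then κ else 0) (loc_of (ball_mem_nhds x r0) a1 a2)
      (fun i _ => ?_) (fun i => (s1 i).1.le) (geo one_pos.le n fun i => (s1 i).2.1))).mono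
      fun q hq => ?_⟩
    · simpa [Finset.mem_range.1 j0] using mul_pos (s1 j).1 k0
    · split_ifs with l
      · exact l ▸ k1
      · exact (g1 i).loc x hx
    · dsimp only
      rw [hq.1.1, hq.1.2]
      exact hq.2

theorem stable0 (hΩ : IsOpen Ω) (hΛ : IsOpen Λ) (hb : Bornology.IsBounded Λ) (hc : IsConnected Λ)
    (hf : Homeo Ω Λ f) :
    ∃ δ : E → ℝ, (∀ K, IsCompact K → K ⊆ Ω → ∃ c > 0, ∀ x ∈ K, c ≤ δ x) ∧ ∀ g : E → E,
      ContDiffOn ℝ ∞ g Ω → (∀ x ∈ Ω, ‖g x - f x‖ ≤ δ x) →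
      (∀ x ∈ Ω, ∀ v ≠ 0, 0 < ⟪v, fderiv ℝ g x v⟫) → Diffeo Ω Λ g := by
  obtain ⟨cf, bf, k, hk, ik⟩ := id hf
  obtain ⟨δ, d1, d2⟩ := gauge (Ω := Ω) (fun x r => x ∈ Ω → r ≤ infDist (f x) Λᶜ / 2 ∧
      ∀ y ∈ Ω, dist (f x) (f y) ≤ 2 * r → segment ℝ x y ⊆ Ω)
    (fun x r r' _ l a hx => ⟨l.trans (a hx).1, fun y hy b => (a hx).2 y hy (by linarith)⟩)
    fun x hx => by
    obtain ⟨R, r0, hR⟩ := Metric.isOpen_iff.1 hΩ x hx
    have p := (hΛ.isClosed_compl.notMem_iff_infDist_pos (ne_compl hb)).1 (not_not.2 (bf.mapsTo hx))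
    have c := cf.continuousAt (hΩ.mem_nhds hx)
    obtain ⟨s, s0, hs⟩ := Metric.continuousWithinAt_iff.1 (hk _ (bf.mapsTo hx)) R r0
    refine ⟨min (infDist (f x) Λᶜ / 4) (s / 4), by positivity, ?_⟩
    filter_upwards [ball_mem_nhds x r0, c.eventually (ball_mem_nhds _ (half_pos s0)),
      ((continuous_infDist_pt Λᶜ).continuousAt.comp c).eventually (lt_mem_nhds (half_lt_self p))]
      with z h1 h2 h3 hz
    have e' : infDist (f x) Λᶜ / 2 < infDist (f z) Λᶜ := h3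
    refine ⟨by linarith [min_le_left (infDist (f x) Λᶜ / 4) (s / 4)], fun y hy l => ?_⟩
    have e2 := min_le_right (infDist (f x) Λᶜ / 4) (s / 4)
    have t := hs (bf.mapsTo hy) (by linarith [dist_triangle_left (f y) (f x) (f z)])
    rw [ik.1 hy, ik.1 hx] at t
    exact ((convex_ball x R).segment_subset h1 t).trans hR
  refine ⟨δ, d2, fun g h1 h2 h3 => ?_⟩
  have inj : ∀ x ∈ Ω, ∀ y ∈ Ω, δ y ≤ δ x → g x = g y → x = y := fun x hx y hy l e => by
    by_contra n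
    have s := ((d1 x hx).2 hx).2 y hy (by
      have t := dist_triangle_left (f x) (f y) (g x)
      rw [dist_eq_norm (g x), e, dist_eq_norm (g y), ← e] at t
      have := h2 y hy
      rw [← e] at this
      linarith [h2 x hx])
    exact ne_of_pos (fun z hz => (h1.contDiffAt (hΩ.mem_nhds (s hz))).differentiableAt (by simp))
      (fun z hz => h3 z (s hz) _ (sub_ne_zero.2 (Ne.symm n))) e
  obtain ⟨o, d⟩ := diffeo_of hΩ h1 (fun x hx y hy e => (le_total (δ y) (δ x)).elim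
    (fun l => inj x hx y hy l e) fun l => (inj y hy x hx l e.symm).symm) fun x hx =>
    (injective_iff_map_eq_zero _).2 fun v e => by
      by_contra n
      simpa [e] using h3 x hx v n
  rwa [onto hΛ hb hc hf h1.continuousOn o fun x hx => (h2 x hx).trans ((d1 x hx).2 hx).1] at d

theorem approxC (hp : 1 ≤ p) (hp' : p ≠ ⊤) (hΩ : IsOpen Ω) (hb : Bornology.IsBounded Ω)
    (hΛ : IsOpen Λ) (hb' : Bornology.IsBounded Λ) (hc : IsConnected Λ) (hf : Homeo Ω Λ f)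
    (hs : Sob p Ω f G) {u : E → E} {W : Fin 3 → E → E} (cu : ContinuousOn u Ω) (su : Sob p Ω u W)
    (hU : ∀ x ∈ Ω, ∃ r > 0, ∃ U : E → ℝ, ball x r ⊆ Ω ∧ InjOn u (ball x r) ∧
      ConvexOn ℝ (ball x r) U ∧ (∀ y ∈ ball x r, HasGradientAt U (u y) y) ∧
      ∀ y ∈ ball x r, ∀ z ∈ ball x r, 0 ≤ ⟪(f y - u y) - (f z - u z), y - z⟫) :
    Approx p Ω Λ f G := by
  intro ε hε
  have e2 : 0 < ε / 2 := ENNReal.half_pos hε.ne'
  obtain ⟨δ, d1, d2⟩ := stable0 hΩ hΛ hb' hc hf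
  obtain ⟨F, H, f1, f2, f3, f4, f5, f6⟩ : ∃ F H, ContinuousOn F Ω ∧ Sob p Ω F H ∧
      (∀ x ∈ Ω, ‖F x - f x‖ ≤ δ x / 2) ∧ (∀ x ∈ Ω, ∃ κ > 0, Loc F x κ) ∧
      eLpNorm (F - f) p (volume.restrict Ω) ≤ ε / 2 ∧
      ∀ i, eLpNorm (H i - G i) p (volume.restrict Ω) ≤ ε / 2 := by
    obtain ⟨F, H, f1, f2, f3, f4, f5, f6⟩ := patch hp hΩ hb cu su (fun x hx =>
      let ⟨r, r0, U, a, b, c, d, _⟩ := hU x hx
      ⟨r, r0, U, a, b, c, d⟩) (δ := fun x => δ x / 2) (fun K h1 h2 =>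
        let ⟨c, c0, k⟩ := d1 K h1 h2
        ⟨c / 2, half_pos c0, fun x hx => by linarith [k x hx]⟩) e2.ne'
    refine ⟨f + (F - u), fun i => G i + (H i - W i), hf.1.add (f1.sub cu), ?_,
      fun x hx => by simpa using f3 x hx, fun x hx => ?_, by simpa using f5,
      fun i => by simpa using f6 i⟩
    · simpa [sub_eq_add_neg] using hs.comb hp hb (f2.comb hp hb su 1 (-1)) 1 1
    · obtain ⟨κ, k0, k⟩ := f4 x hx
      obtain ⟨r, r0, -, -, -, -, -, a⟩ := hU x hx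
      refine ⟨κ, k0, ((ev2 (ball_mem_nhds x r0)).and k).mono fun q hq => ?_⟩
      have b := a _ hq.1.1 _ hq.1.2
      have c := hq.2
      simp only [Pi.add_apply, Pi.sub_apply, inner_sub_left, inner_add_left] at b c ⊢
      linarith
  obtain ⟨η, n1, n2⟩ := gauge (Ω := Ω) (fun x r => r ≤ δ x / 2 ∧ ball x r ⊆ Ω ∧
      ∀ y ∈ ball x r, ∀ z ∈ ball x r, 2 * r * ‖y - z‖ ^ 2 ≤ ⟪F y - F z, y - z⟫)
    (fun x r r' _ l a => ⟨l.trans a.1, (ball_subset_ball l).trans a.2.1, fun y hy z hz =>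
      le_trans (by gcongr) (a.2.2 y (ball_subset_ball l hy) z (ball_subset_ball l hz))⟩)
    fun x hx => by
    obtain ⟨κ, k0, k⟩ := f4 x hx
    obtain ⟨ρ, r0, hρ⟩ := nhds_basis_closedBall.eventually_iff.1 ((ev2 (hΩ.mem_nhds hx)).and k)
    rw [← closedBall_prod_same] at hρ
    have s : closedBall x ρ ⊆ Ω := fun y hy => (hρ (mk_mem_prod hy hy)).1.1
    obtain ⟨c, c0, hc⟩ := d1 _ (isCompact_closedBall x ρ) s
    refine ⟨min (ρ / 2) (min (c / 2) (κ / 2)), by positivity, ?_⟩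
    filter_upwards [ball_mem_nhds x (half_pos r0)] with y hy
    have a := min_le_left (ρ / 2) (min (c / 2) (κ / 2))
    have b := le_min_iff.1 (min_le_right (ρ / 2) (min (c / 2) (κ / 2)))
    have t : ball y (min (ρ / 2) (min (c / 2) (κ / 2))) ⊆ closedBall x ρ :=
      (ball_subset_ball' (by linarith [mem_ball.1 hy])).trans ball_subset_closedBall
    exact ⟨by linarith [hc y (t (mem_ball_self (by positivity)))], t.trans s, fun z hz w hw =>
      le_trans (by gcongr; linarith) (hρ (mk_mem_prod (t hz) (t hw))).2⟩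
  obtain ⟨g, g1, g2, g3, g4, g5⟩ := whitney hp hp' hΩ hb f1 f2.1 f2.2.1 f2.2.2 n2
    (lt_min e2 one_pos).ne'
  have a : ∀ B C D : E → E, ContinuousOn B Ω → MemLp C p (volume.restrict Ω) →
      MemLp D p (volume.restrict Ω) → eLpNorm (B - C) p (volume.restrict Ω) ≤ min (ε / 2) 1 →
      eLpNorm (C - D) p (volume.restrict Ω) ≤ ε / 2 →
      MemLp B p (volume.restrict Ω) ∧ eLpNorm (B - D) p (volume.restrict Ω) ≤ ε :=
    fun B C D h1 h2 h3 h4 h5 => by
    have m := (h1.aestronglyMeasurable (μ := volume) hΩ.measurableSet).sub h2.1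
    refine ⟨by simpa using (show MemLp (B - C) p _ from ⟨m,
      (h4.trans (min_le_right _ _)).trans_lt ENNReal.one_lt_top⟩).add h2, ?_⟩
    rw [← sub_add_sub_cancel B C D]
    exact (eLpNorm_add_le m (h2.sub h3).1 hp).trans
      ((add_le_add (h4.trans (min_le_left _ _)) h5).trans (ENNReal.add_halves ε).le)
  have a1 := a _ _ _ g1.continuousOn f2.2.1 hs.2.1 g4 f5
  have a2 := fun i => a _ _ _ (contOn_pd hΩ g1 i) (f2.2.2 i) (hs.2.2 i) (g5 i) (f6 i)
  refine ⟨g, d2 g g1 (fun x hx => ?_) fun x hx v hv => ?_,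
    ⟨weakD_smooth hΩ g1, a1.1, fun i => (a2 i).1⟩, a1.2, fun i => (a2 i).2⟩
  · linarith [norm_sub_le_norm_sub_add_norm_sub (g x) (F x) (f x), g2 x hx, f3 x hx,
      (n1 x hx).2.1]
  · have u := norm_smul_inv_norm (𝕜 := ℝ) hv
    have b := g3 x hx _ _ (2 * η x) u u (n1 x hx).2.2.1 fun y hy t ht hy' => by
      have c := (n1 x hx).2.2.2 _ hy' y hy
      rw [add_sub_cancel_left, real_inner_smul_right, norm_smul, u, mul_one, Real.norm_eq_abs,
        sq_abs, real_inner_comm] at c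
      rcases ht.eq_or_lt with rfl | ht
      · simp
      · exact le_of_mul_le_mul_left (by linarith) ht
    rw [map_smul, real_inner_smul_right, real_inner_smul_left] at b
    have n := inv_pos.2 (norm_pos_iff.2 hv)
    exact (mul_pos_iff_of_pos_left n).1 ((mul_pos_iff_of_pos_left n).1
      (lt_of_lt_of_le (by linarith [(n1 x hx).1]) b))

end Vale.Agent.P073
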