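import Vale.Agent.P073.Top

/-! P073: the two approximation theorems. -/

open MeasureTheory Set Metric Filter
open scoped ContDiff RealInnerProductSpace Topology

namespace Vale.Agent.P073

variable {Ω Λ : Set E} {f g A F : E → E} {G H : Fin 3 → E → E} {p : ENNReal} {κ : ℝ}

theorem tsupport_pd (i : Fin 3) (ψ : E → ℝ) : tsupport (pd i ψ) ⊆ tsupport ψ :=
  closure_minimal (fun x hx => by
    by_contra h
    exact hx (by rw [pd, image_eq_zero_of_notMem_tsupport (f := fderiv ℝ ψ)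
      fun l => h (tsupport_fderiv_subset ℝ l)]; rfl)) (isClosed_tsupport _)

theorem cont_pd {ψ : E → ℝ} (h : ContDiff ℝ ∞ ψ) (i : Fin 3) : Continuous (pd i ψ) :=
  (h.continuous_fderiv (by simp)).clm_apply continuous_const

theorem contOn_pd (hΩ : IsOpen Ω) (hg : ContDiffOn ℝ ∞ g Ω) (i : Fin 3) :
    ContinuousOn (pd i g) Ω :=
  (hg.continuousOn_fderiv_of_isOpen hΩ (by simp)).clm_apply continuousOn_const

theorem weakD_smooth (hΩ : IsOpen Ω) (hg : ContDiffOn ℝ ∞ g Ω) : WeakD Ω g fun i => pd i g := by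
  intro i ψ h1 h2 h3
  have a : ∀ (θ : E → ℝ) (B : E → E), Continuous θ → tsupport θ ⊆ tsupport ψ → ContinuousOn B Ω →
      Integrable (fun x => θ x • B x) ∧ ∫ x in Ω, θ x • B x = ∫ x, θ x • B x :=
    fun θ B c s hB => ⟨(continuous_of_tsupport fun x hx => c.continuousAt.smul (hB.continuousAt
      (hΩ.mem_nhds (h3 (s (tsupport_smul_subset_left _ _ hx)))))).integrable_of_hasCompactSupport
        (HasCompactSupport.smul_right (h2.of_isClosed_subset (isClosed_tsupport _) s)),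
      setIntegral_eq_integral_of_forall_compl_eq_zero fun x hx => by
        rw [image_eq_zero_of_notMem_tsupport fun l => hx (h3 (s l)), zero_smul]⟩
  obtain ⟨a1, b1⟩ := a _ g (cont_pd h1 i) (tsupport_pd i ψ) hg.continuousOn
  obtain ⟨a2, b2⟩ := a _ _ h1.continuous subset_rfl (contOn_pd hΩ hg i)
  rw [b1, b2, ← neg_eq_iff_eq_neg]
  exact (integral_smul_fderiv_eq_neg_fderiv_smul_of_integrable a1 a2
    (a _ g h1.continuous subset_rfl hg.continuousOn).1 (fun x _ => h1.differentiable (by simp) x)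
    fun x hx => (hg.contDiffAt (hΩ.mem_nhds (h3 hx))).differentiableAt (by simp)).symm

theorem approxA (hp : 1 ≤ p) (hp' : p ≠ ⊤) (hΩ : IsOpen Ω) (hb : Bornology.IsBounded Ω)
    (hΛ : IsOpen Λ) (hb' : Bornology.IsBounded Λ) (hc : IsConnected Λ) (hf : Homeo Ω Λ f)
    (hs : Sob p Ω f G) (h : ∀ x ∈ Ω, ∃ r > 0, ∃ κ > 0, ball x r ⊆ Ω ∧ Grow f (ball x r) κ) :
    Approx p Ω Λ f G := by
  intro ε hε
  obtain ⟨δ, d1, d2⟩ := stable hΩ hΛ hb' hc hf h
  obtain ⟨g, g1, g2, g3, g4, g5⟩ := whitney hp hp' hΩ hb hf.1 hs.1 hs.2.1 hs.2.2 d1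
    (lt_min hε one_pos).ne'
  have a : ∀ B C : E → E, ContinuousOn B Ω → MemLp C p (volume.restrict Ω) →
      eLpNorm (B - C) p (volume.restrict Ω) ≤ min ε 1 → MemLp B p (volume.restrict Ω) :=
    fun B C h1 h2 h3 => by
    simpa using (show MemLp (B - C) p _ from ⟨(h1.aestronglyMeasurable hΩ.measurableSet).sub h2.1,
      (h3.trans (min_le_right _ _)).trans_lt ENNReal.one_lt_top⟩).add h2
  exact ⟨g, d2 g g1 g2 g3, ⟨weakD_smooth hΩ g1, a _ _ g1.continuousOn hs.2.1 g4,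
    fun i => a _ _ (contOn_pd hΩ g1 i) (hs.2.2 i) (g5 i)⟩, g4.trans (min_le_left _ _),
    fun i => (g5 i).trans (min_le_left _ _)⟩

theorem Grow.le (h : Grow F univ κ) (x y : E) : κ * ‖x - y‖ ≤ ‖F x - F y‖ := by
  rcases eq_or_ne x y with rfl | n
  · simp
  obtain ⟨c, hc, a⟩ := h _ (norm_smul_inv_norm (𝕜 := ℝ) (sub_ne_zero.2 n))
  have b := a y trivial ‖x - y‖ (norm_nonneg _) trivial
  rw [smul_smul, RCLike.ofReal_real_eq_id, id,
    mul_inv_cancel₀ (norm_ne_zero_iff.2 (sub_ne_zero.2 n)), one_smul, add_sub_cancel] at b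
  simpa [hc] using b.trans (real_inner_le_norm _ _)

theorem Grow.anti (h : Grow F univ κ) (hκ : 0 < κ) : AntilipschitzWith (κ⁻¹).toNNReal F :=
  AntilipschitzWith.of_le_mul_dist fun x y => by
    rw [Real.coe_toNNReal _ (inv_pos.2 hκ).le, dist_eq_norm, dist_eq_norm, le_inv_mul_iff₀ hκ]
    exact h.le x y

theorem Grow.closed (h : Grow F univ κ) (hκ : 0 < κ) (hF : Continuous F) : IsClosed (range F) :=
  (isProperMap_iff_tendsto_cocompact.2 ⟨hF, by
    simpa only [cobounded_eq_cocompact] using (h.anti hκ).tendsto_cobounded⟩).isClosed_range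

theorem Grow.mol (h : Grow F univ κ) (hκ : 0 < κ) (hF : Continuous F) (φ : ContDiffBump (0 : E)) :
    Grow (mol φ F) univ κ ∧ Function.Surjective (mol φ F) := by
  have sm := mol_smooth (φ := φ) hF.locallyIntegrable
  have a : ∀ v : E, ‖v‖ = 1 → ∃ c : E, ‖c‖ = 1 ∧ ∀ y, κ ≤ ⟪c, fderiv ℝ (P073.mol φ F) y v⟫ :=
    fun v hv =>
    let ⟨c, hc, k⟩ := h v hv
    ⟨c, hc, fun y => mol_mono hF.locallyIntegrable hv (lt_add_one _)
      fun z _ t ht _ => k z trivial t ht trivial⟩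
  have b : Grow (P073.mol φ F) univ κ := fun v hv => by
    obtain ⟨c, hc, k⟩ := a v hv
    refine ⟨c, hc, fun y _ t ht _ => ?_⟩
    have d : ∀ t : ℝ, HasDerivAt (fun t : ℝ => ⟪c, P073.mol φ F (y + t • v)⟫)
        ⟪c, fderiv ℝ (P073.mol φ F) (y + t • v) v⟫ t := fun t => by
      have e : HasDerivAt (fun t : ℝ => y + t • v) v t := by
        simpa using ((hasDerivAt_id t).smul_const v).const_add y
      exact (innerSL ℝ c).hasFDerivAt.comp_hasDerivAt t
        ((sm.differentiable (by simp) _).hasFDerivAt.comp_hasDerivAt t e)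
    simpa [inner_sub_right] using mul_sub_le_image_sub_of_le_deriv
      (fun t => (d t).differentiableAt) (fun t => (d t).deriv ▸ k _) ht
  have o := (diffeo_of isOpen_univ sm.contDiffOn (b.anti hκ).injective.injOn fun x _ =>
    (injective_iff_map_eq_zero _).2 fun v e => by
      by_contra n
      obtain ⟨c, -, k⟩ := a _ (norm_smul_inv_norm (𝕜 := ℝ) n)
      simpa [e, hκ.not_ge] using k x).1
  rw [image_univ] at o
  exact ⟨b, range_eq_univ.1 (IsClopen.eq_univ ⟨b.closed hκ sm.continuous, o⟩ (range_nonempty _))⟩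

theorem Grow.bij (h : Grow F univ κ) (hκ : 0 < κ) (hF : Continuous F) : Function.Bijective F := by
  refine ⟨(h.anti hκ).injective, fun w => ?_⟩
  refine (h.closed hκ hF).closure_subset_iff.2 subset_rfl (Metric.mem_closure_iff.2 fun ε hε => ?_)
  obtain ⟨ρ, hρ⟩ : ∃ ρ, ρ = (‖w - F 0‖ + 1) / κ := ⟨_, rfl⟩
  have r0 : 0 ≤ ρ := by rw [hρ]; positivity
  obtain ⟨σ, σ0, hσ⟩ := Metric.uniformContinuousOn_iff_le.1 ((isCompact_closedBall (0 : E)
    (ρ + 1)).uniformContinuousOn_of_continuous hF.continuousOn) _ (lt_min (half_pos hε) one_pos)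
  have m0 := lt_min σ0 one_pos
  obtain ⟨φ, hφ⟩ : ∃ φ : ContDiffBump (0 : E), φ.rOut = min σ 1 :=
    ⟨⟨min σ 1 / 2, min σ 1, half_pos m0, half_lt_self m0⟩, rfl⟩
  have d : ∀ x : E, ‖x‖ ≤ ρ → dist (P073.mol φ F x) (F x) ≤ min (ε / 2) 1 := fun x hx =>
    φ.dist_normed_convolution_le hF.aestronglyMeasurable fun y hy => by
      have a := mem_ball.1 (hφ ▸ hy)
      have b := norm_le_norm_add_const_of_dist_le (a.le.trans (min_le_right _ _))
      exact hσ y (mem_closedBall_zero_iff.2 (by linarith)) x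
        (mem_closedBall_zero_iff.2 (by linarith)) (a.le.trans (min_le_left _ _))
  obtain ⟨b, s⟩ := h.mol hκ hF φ
  obtain ⟨x, rfl⟩ := s w
  refine ⟨F x, ⟨x, rfl⟩, ((d x ?_).trans (min_le_left _ _)).trans_lt (half_lt_self hε)⟩
  have a := b.le x 0
  have c := (d 0 (by simpa using r0)).trans (min_le_right _ _)
  rw [sub_zero, ← dist_eq_norm] at a
  rw [hρ, le_div_iff₀ hκ, ← dist_eq_norm]
  linarith [dist_triangle_right (P073.mol φ F x) (P073.mol φ F 0) (F 0)]

theorem Grow.homeo (h : Grow F univ κ) (hκ : 0 < κ) (hF : Continuous F) (hΩ : IsOpen Ω) :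
    IsOpen (F '' Ω) ∧ Homeo Ω (F '' Ω) F := by
  obtain ⟨k, k1, k2⟩ := Function.bijective_iff_has_inverse.1 (h.bij hκ hF)
  have c := ((h.anti hκ).to_rightInverse k2).continuous
  exact ⟨by rw [image_eq_preimage_of_inverse k1 k2]; exact hΩ.preimage c, hF.continuousOn,
    (h.anti hκ).injective.injOn.bijOn_image, k, c.continuousOn, fun x _ => k1 x, fun x _ => k2 x⟩

theorem Sob.comb (hp : 1 ≤ p) (hb : Bornology.IsBounded Ω) (h : Sob p Ω f G) (h' : Sob p Ω A H)
    (a b : ℝ) : Sob p Ω (a • f + b • A) fun i => a • G i + b • H i := by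
  refine ⟨fun i ψ h1 h2 h3 => ?_, (h.2.1.const_smul a).add (h'.2.1.const_smul b),
    fun i => ((h.2.2 i).const_smul a).add ((h'.2.2 i).const_smul b)⟩
  have : IsFiniteMeasure (volume.restrict Ω) := isFiniteMeasure_restrict.2 hb.measure_lt_top.ne
  have k : ∀ (θ : E → ℝ) (B C : E → E), Continuous θ → HasCompactSupport θ →
      MemLp B p (volume.restrict Ω) → MemLp C p (volume.restrict Ω) →
      ∫ x in Ω, θ x • (a • B + b • C) x = a • (∫ x in Ω, θ x • B x) + b • ∫ x in Ω, θ x • C x :=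
    fun θ B C c s hB hC => by
    obtain ⟨M, hM⟩ := c.bounded_above_of_compact_support s
    have i1 := (hB.integrable hp).bdd_smul M c.aestronglyMeasurable (.of_forall hM)
    have i2 := (hC.integrable hp).bdd_smul M c.aestronglyMeasurable (.of_forall hM)
    rw [← integral_smul, ← integral_smul]
    exact (integral_congr_ae (.of_forall fun x => by simp [smul_comm (θ x)])).trans
      (integral_add (i1.smul a) (i2.smul b))
  rw [k _ _ _ (cont_pd h1 i) (h2.of_isClosed_subset (isClosed_tsupport _) (tsupport_pd i ψ))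
    h.2.1 h'.2.1, k _ _ _ h1.continuous h2 (h.2.2 i) (h'.2.2 i), h.1 i ψ h1 h2 h3,
    h'.1 i ψ h1 h2 h3]
  module

theorem approxB (hp : 1 ≤ p) (hp' : p ≠ ⊤) (hΩ : IsOpen Ω) (hb : Bornology.IsBounded Ω)
    (hc : IsConnected Ω) (hf : Continuous f) (hA : Continuous A) (hs : Sob p Ω f G)
    (hs' : Sob p Ω A H) (he : EqOn f A Ωᶜ) (hκ : 0 < κ)
    (h : ∀ v : E, ‖v‖ = 1 → ∃ c : E, ‖c‖ = 1 ∧ ∀ (y : E) (t : ℝ), 0 ≤ t →
      0 ≤ ⟪c, f (y + t • v) - f y⟫ ∧ κ * t ≤ ⟪c, A (y + t • v) - A y⟫) :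
    Approx p Ω (A '' Ω) f G := by
  intro ε hε
  have e2 : 0 < ε / 2 := ENNReal.half_pos hε.ne'
  have sm : ∀ B : E → E, MemLp B p (volume.restrict Ω) →
      ∀ᶠ s in 𝓝[>] (0 : ℝ), eLpNorm (s • B) p (volume.restrict Ω) ≤ ε / 2 := fun B hB => by
    have t := ENNReal.Tendsto.mul_const ((continuous_enorm (E := ℝ)).tendsto' 0 0 (by simp))
      (Or.inr hB.2.ne)
    rw [zero_mul] at t
    simp only [eLpNorm_const_smul]
    exact eventually_nhdsWithin_of_eventually_nhds (t.eventually (eventually_le_nhds e2))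
  obtain ⟨s, s0, s1, s2⟩ := (Eventually.and (p := fun s => s ∈ Ioo 0 1) (Ioo_mem_nhdsGT one_pos)
    ((sm _ (hs'.2.1.sub hs.2.1)).and
      (eventually_all.2 fun i => sm _ ((hs'.2.2 i).sub (hs.2.2 i))))).exists
  have gA : Grow A univ κ := fun v hv =>
    let ⟨c, h1, h2⟩ := h v hv
    ⟨c, h1, fun y _ t ht _ => (h2 y t ht).2⟩
  have gF : Grow ((1 - s) • f + s • A) univ (s * κ) := fun v hv => by
    obtain ⟨c, h1, h2⟩ := h v hv
    refine ⟨c, h1, fun y _ t ht _ => ?_⟩
    rw [show ((1 - s) • f + s • A) (y + t • v) - ((1 - s) • f + s • A) y =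
      (1 - s) • (f (y + t • v) - f y) + s • (A (y + t • v) - A y) by
        simp only [Pi.add_apply, Pi.smul_apply]; module,
      inner_add_right, real_inner_smul_right, real_inner_smul_right]
    nlinarith [mul_nonneg (sub_pos.2 s0.2).le (h2 y t ht).1,
      mul_le_mul_of_nonneg_left (h2 y t ht).2 s0.1.le]
  have k0 := mul_pos s0.1 hκ
  have cF : Continuous ((1 - s) • f + s • A) := (hf.const_smul _).add (hA.const_smul _)
  have im : ((1 - s) • f + s • A) '' Ω = A '' Ω := compl_injective (by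
    rw [← image_compl_eq (gF.bij k0 cF), ← image_compl_eq (gA.bij hκ hA)]
    exact image_congr fun x hx => by simp only [Pi.add_apply, Pi.smul_apply, he hx]; module)
  obtain ⟨o, hF⟩ := gF.homeo k0 cF hΩ
  rw [im] at o hF
  have sF := hs.comb hp hb hs' (1 - s) s
  obtain ⟨g, g1, g2, g3, g4⟩ := approxA hp hp' hΩ hb o
    ((hb.isCompact_closure.image hA).isBounded.subset (image_mono subset_closure)) (hc.image _ hA.continuousOn) hF sF (fun x hx =>
      let ⟨r, r0, k⟩ := Metric.isOpen_iff.1 hΩ x hx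
      ⟨r, r0, _, k0, k, gF.mono (subset_univ _) le_rfl⟩) _ e2
  have tri : ∀ B C D : E → E, MemLp B p (volume.restrict Ω) → MemLp C p (volume.restrict Ω) →
      MemLp D p (volume.restrict Ω) →
      eLpNorm (B - ((1 - s) • C + s • D)) p (volume.restrict Ω) ≤ ε / 2 →
      eLpNorm (s • (D - C)) p (volume.restrict Ω) ≤ ε / 2 →
      eLpNorm (B - C) p (volume.restrict Ω) ≤ ε := fun B C D hB hC hD a b => by
    rw [show B - C = (B - ((1 - s) • C + s • D)) + s • (D - C) by module]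
    exact (eLpNorm_add_le (hB.sub ((hC.const_smul _).add (hD.const_smul _))).1
      ((hD.sub hC).const_smul s).1 hp).trans ((add_le_add a b).trans (ENNReal.add_halves ε).le)
  exact ⟨g, g1, g2, tri _ _ _ g2.2.1 hs.2.1 hs'.2.1 g3 s1,
    fun i => tri _ _ _ (g2.2.2 i) (hs.2.2 i) (hs'.2.2 i) (g4 i) (s2 i)⟩

end Vale.Agent.P073
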