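import Vale.Agent.P073.Defs

/-! P073: mollification. -/

open MeasureTheory Set Metric Filter ContinuousLinearMap
open scoped ContDiff RealInnerProductSpace Convolution Topology ENNReal

namespace Vale.Agent.P073

/-- mollification -/
noncomputable def mol (φ : ContDiffBump (0 : E)) (F : E → E) : E → E :=
  φ.normed volume ⋆[lsmul ℝ ℝ, volume] F

variable {φ : ContDiffBump (0 : E)} {F : E → E} {p : ℝ≥0∞}

theorem mol_eq (y : E) : mol φ F y = ∫ t, φ.normed volume t • F (y - t) := rfl

theorem mol_smooth (hF : LocallyIntegrable F) : ContDiff ℝ ∞ (mol φ F) :=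
  φ.hasCompactSupport_normed.contDiff_convolution_left _ φ.contDiff_normed hF

theorem mol_int (hF : LocallyIntegrable F) (y : E) :
    Integrable fun t => φ.normed volume t • F (y - t) :=
  φ.hasCompactSupport_normed.convolutionExists_left (lsmul ℝ ℝ) φ.continuous_normed hF y

theorem mol_out {t : E} (h : t ∉ ball (0 : E) φ.rOut) : φ.normed volume t = 0 := by
  rwa [← φ.support_normed_eq (μ := volume), Function.notMem_support] at h

theorem mol_mono (hF : LocallyIntegrable F) {y v c : E} {κ ρ : ℝ} (hv : ‖v‖ = 1) (hρ : φ.rOut < ρ)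
    (h : ∀ z ∈ ball y ρ, ∀ t : ℝ, 0 ≤ t → z + t • v ∈ ball y ρ → κ * t ≤ ⟪c, F (z + t • v) - F z⟫) :
    κ ≤ ⟪c, fderiv ℝ (mol φ F) y v⟫ := by
  have d : HasDerivAt (fun t : ℝ => ⟪c, mol φ F (y + t • v)⟫) ⟪c, fderiv ℝ (mol φ F) y v⟫ 0 := by
    have a : HasDerivAt (fun t : ℝ => y + t • v) v 0 := by
      simpa using ((hasDerivAt_id (0 : ℝ)).smul_const v).const_add y
    have b := ((mol_smooth (φ := φ) hF).differentiable (by simp) (y + (0 : ℝ) • v)).hasFDerivAt
    have e := (innerSL ℝ c).hasFDerivAt.comp_hasDerivAt 0 (b.comp_hasDerivAt 0 a)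
    rw [zero_smul, add_zero] at e
    exact e
  refine ge_of_tendsto d.tendsto_slope_zero_right ?_
  filter_upwards [Ioo_mem_nhdsGT (sub_pos.2 hρ)] with t ht
  rw [smul_eq_mul, le_inv_mul_iff₀ ht.1, zero_add, zero_smul, add_zero, ← inner_sub_right, mol_eq,
    mol_eq, ← integral_sub (mol_int hF _) (mol_int hF _),
    ← integral_inner ((mol_int hF _).sub' (mol_int hF _)),
    ← one_mul (t * κ), ← φ.integral_normed (μ := volume), ← integral_mul_const]
  refine integral_mono (φ.integrable_normed.mul_const _)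
    (((mol_int hF _).sub' (mol_int hF _)).const_inner c) fun w => ?_
  by_cases hw : w ∈ ball (0 : E) φ.rOut
  · have n := mem_ball_zero_iff.1 hw
    have a := h (y - w) (by rw [mem_ball, dist_eq_norm]; simp; linarith [ht.1, ht.2]) t ht.1.le (by
      rw [mem_ball, dist_eq_norm, show y - w + t • v - y = t • v - w by abel]
      refine (norm_sub_le _ _).trans_lt ?_
      rw [norm_smul, hv, Real.norm_eq_abs, abs_of_pos ht.1]
      linarith [ht.2])
    simp only [← smul_sub, real_inner_smul_right]
    rw [show y + t • v - w = y - w + t • v by abel, mul_comm t]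
    exact mul_le_mul_of_nonneg_left a (φ.nonneg_normed w)
  · simp [mol_out hw]

theorem mol_pd {Ω : Set E} (hΩ : MeasurableSet Ω) {f : E → E} {G : Fin 3 → E → E} (h : WeakD Ω f G)
    (hF : LocallyIntegrable (Ω.indicator f)) {y : E} (hy : closedBall y φ.rOut ⊆ Ω) (i : Fin 3) :
    pd i (mol φ (Ω.indicator f)) y = mol φ (Ω.indicator (G i)) y := by
  have c1 : ContDiff ℝ ∞ (φ.normed volume) := φ.contDiff_normed
  have d := (φ.hasCompactSupport_normed (μ := volume)).hasFDerivAt_convolution_right
    (lsmul ℝ ℝ : ℝ →L[ℝ] E →L[ℝ] E).flip hF (c1.of_le (by simp)) y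
  rw [convolution_flip] at d
  have s : tsupport (fun t => φ.normed volume (y - t)) ⊆ closedBall y φ.rOut :=
    closure_minimal (fun t ht => by
      by_contra k
      refine ht (mol_out fun k' => k ?_)
      rw [mem_closedBall, dist_comm, dist_eq_norm]
      exact (mem_ball_zero_iff.1 k').le) isClosed_closedBall
  have a := h i (fun t => φ.normed volume (y - t)) (c1.comp (contDiff_const.sub contDiff_id))
    ((isCompact_closedBall y φ.rOut).of_isClosed_subset (isClosed_tsupport _) s) (s.trans hy)
  have e : ∀ t, pd i (fun t => φ.normed volume (y - t)) t = -pd i (φ.normed volume) (y - t) :=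
    fun t => by
    have b := ((c1.differentiable (by simp) (y - t)).hasFDerivAt.comp t
      ((hasFDerivAt_id t).const_sub y)).fderiv
    rw [pd, show fderiv ℝ (fun t => φ.normed volume (y - t)) t = _ from b, pd]
    simp
  simp only [e, neg_smul, integral_neg, neg_inj] at a
  simp only [← integral_indicator hΩ] at a
  rw [pd, mol, d.fderiv, convolution_precompR_apply _ hF
    (φ.hasCompactSupport_normed.fderiv ℝ) (c1.continuous_fderiv (by simp)), mol,
    convolution_def, convolution_eq_swap]
  refine Eq.trans (integral_congr_ae (.of_forall fun t => ?_))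
    (a.trans (integral_congr_ae (.of_forall fun t => ?_))) <;>
  by_cases ht : t ∈ Ω <;> simp [ht, pd]

theorem trans_Lp (hp : 1 ≤ p) (hp' : p ≠ ⊤) (hF : MemLp F p) {ε : ℝ≥0∞} (hε : ε ≠ 0) :
    ∃ ρ > 0, ∀ t ∈ ball (0 : E) ρ, eLpNorm (fun y => F (y - t) - F y) p volume ≤ ε := by
  have : Fact (1 ≤ p) := ⟨hp⟩
  let g : E → C(E, E) := fun t => ContinuousMap.curry ⟨fun z : E × E => z.2 - z.1, by fun_prop⟩ t
  have hg : ∀ t, MeasurePreserving (g t) volume volume := fun t => measurePreserving_sub_right _ t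
  have c := (continuous_const (y := hF.toLp F)).compMeasurePreservingLp
    (ContinuousMap.curry _).continuous hg hp'
  have e : ∀ t, edist (Lp.compMeasurePreserving (g t) (hg t) (hF.toLp F)) (hF.toLp F) =
      eLpNorm (fun y => F (y - t) - F y) p volume := fun t => by
    rw [Lp.edist_def]
    refine eLpNorm_congr_ae ?_
    filter_upwards [Lp.coeFn_compMeasurePreserving (hF.toLp F) (hg t), hF.coeFn_toLp,
      (hg t).quasiMeasurePreserving.ae hF.coeFn_toLp] with y h1 h2 h3
    rw [Pi.sub_apply, h1, h2, Function.comp_apply, h3]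
    rfl
  have t : Tendsto (fun t => eLpNorm (fun y => F (y - t) - F y) p volume) (𝓝 0) (𝓝 0) := by
    have k : Continuous fun t => eLpNorm (fun y => F (y - t) - F y) p volume :=
      (c.edist (continuous_const (y := hF.toLp F))).congr e
    simpa using k.tendsto 0
  exact Metric.eventually_nhds_iff_ball.1 (t.eventually (eventually_le_nhds (pos_iff_ne_zero.2 hε)))

theorem mol_Lp (hp : 1 ≤ p) (hp' : p ≠ ⊤) (hF : MemLp F p) {ε : ℝ≥0∞} (hε : ε ≠ 0) :
    ∃ ρ > 0, ∀ φ : ContDiffBump (0 : E), φ.rOut ≤ ρ →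
      eLpNorm (fun y => mol φ F y - F y) p volume ≤ ε := by
  obtain ⟨ρ, h0, h⟩ := trans_Lp hp hp' hF hε
  refine ⟨ρ, h0, fun φ hφ => ?_⟩
  have p0 : p ≠ 0 := (zero_lt_one.trans_le hp).ne'
  have q0 : 0 < p.toReal := ENNReal.toReal_pos p0 hp'
  have hL := hF.locallyIntegrable hp
  have m : Measurable fun t => ENNReal.ofReal (φ.normed volume t) :=
    φ.continuous_normed.measurable.ennreal_ofReal
  obtain ⟨ν, hν⟩ : ∃ ν : Measure E,
    ν = volume.withDensity fun t => ENNReal.ofReal (φ.normed volume t) := ⟨_, rfl⟩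
  have : IsProbabilityMeasure ν := ⟨by
    rw [hν, withDensity_apply _ MeasurableSet.univ, Measure.restrict_univ,
      ← ofReal_integral_eq_lintegral_ofReal φ.integrable_normed (.of_forall φ.nonneg_normed),
      φ.integral_normed, ENNReal.ofReal_one]⟩
  have a : ∀ y, ‖mol φ F y - F y‖ₑ ^ p.toReal ≤ ∫⁻ t, ‖F (y - t) - F y‖ₑ ^ p.toReal ∂ν := fun y => by
    have m1 : AEStronglyMeasurable (fun t => F (y - t) - F y) volume :=
      (hF.1.comp_quasiMeasurePreserving (quasiMeasurePreserving_sub_left _ y)).sub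
        aestronglyMeasurable_const
    have e : mol φ F y - F y = ∫ t, φ.normed volume t • (F (y - t) - F y) := by
      simp only [smul_sub]
      rw [integral_sub (mol_int hL y) (φ.integrable_normed.smul_const _), integral_smul_const,
        φ.integral_normed, one_smul, mol_eq]
    have b := eLpNorm_le_eLpNorm_of_exponent_le hp
      (m1.mono_ac (hν ▸ withDensity_absolutelyContinuous _ _) : AEStronglyMeasurable _ ν)
    rw [eLpNorm_one_eq_lintegral_enorm, eLpNorm_eq_lintegral_rpow_enorm_toReal p0 hp', one_div,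
      ENNReal.le_rpow_inv_iff q0] at b
    refine le_trans (ENNReal.rpow_le_rpow ?_ q0.le) b
    rw [e, hν, lintegral_withDensity_eq_lintegral_mul₀ m.aemeasurable m1.enorm]
    refine (enorm_integral_le_lintegral_enorm _).trans (le_of_eq (lintegral_congr fun t => ?_))
    rw [enorm_smul, Real.enorm_eq_ofReal (φ.nonneg_normed t)]
    rfl
  have m2 : AEStronglyMeasurable (fun z : E × E => F (z.1 - z.2) - F z.1) (volume.prod ν) :=
    (hF.1.comp_quasiMeasurePreserving (quasiMeasurePreserving_sub_of_right_invariant _ ν)).sub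
      hF.1.comp_fst
  rw [eLpNorm_eq_lintegral_rpow_enorm_toReal p0 hp', one_div, ENNReal.rpow_inv_le_iff q0]
  refine (lintegral_mono a).trans ?_
  rw [lintegral_lintegral_swap (m2.enorm.pow_const _)]
  refine (lintegral_mono_ae (g := fun _ => ε ^ p.toReal) ?_).trans (by simp)
  rw [hν, ae_withDensity_iff m]
  refine .of_forall fun t ht => ?_
  have b := h t (ball_subset_ball hφ (by_contra fun k => ht (by simp [mol_out k])))
  rwa [eLpNorm_eq_lintegral_rpow_enorm_toReal p0 hp', one_div, ENNReal.rpow_inv_le_iff q0] at b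

end Vale.Agent.P073
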