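import Vale.Agent.P073.Mol

/-! P073: partition of unity, the pieces of the approximation. -/

open MeasureTheory Set Metric Filter
open scoped ContDiff RealInnerProductSpace Topology Manifold

namespace Vale.Agent.P073

variable {Ω : Set E}

theorem ne_compl (hb : Bornology.IsBounded Ω) : Ωᶜ.Nonempty :=
  nonempty_compl.2 fun h => NormedSpace.unbounded_univ ℝ E (h ▸ hb)

theorem cpt (hb : Bornology.IsBounded Ω) {a : ℝ} (ha : 0 < a) :
    IsCompact {x | a ≤ infDist x Ωᶜ} ∧ {x | a ≤ infDist x Ωᶜ} ⊆ Ω := by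
  have s : {x | a ≤ infDist x Ωᶜ} ⊆ Ω := fun x hx => by
    by_contra h
    exact (ha.trans_le hx).ne' (infDist_zero_of_mem h)
  exact ⟨isCompact_of_isClosed_isBounded
    (isClosed_le continuous_const (continuous_infDist_pt _)) (hb.subset s), s⟩

theorem pou (hΩ : IsOpen Ω) (hb : Bornology.IsBounded Ω) : ∃ χ : ℕ → E → ℝ,
    (∀ k, ContDiff ℝ ∞ (χ k) ∧ HasCompactSupport (χ k) ∧ tsupport (χ k) ⊆ Ω ∧ ∀ x, 0 ≤ χ k x) ∧
    ∀ x ∈ Ω, ∃ m, ∀ᶠ y in 𝓝 x, (∀ k ≥ m, χ k y = 0) ∧ ∑ k ∈ Finset.range m, χ k y = 1 := by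
  have lt : ∀ k : ℕ, 1 / (((k + 1 : ℕ) : ℝ) + 1) < 1 / ((k : ℝ) + 1) := fun k =>
    Nat.one_div_lt_one_div k.lt_succ_self
  have a : ∀ k : ℕ, ∃ ψ : E → ℝ, ContDiff ℝ ∞ ψ ∧ (∀ x, ψ x ∈ Icc (0 : ℝ) 1) ∧
      (∀ x, infDist x Ωᶜ ≤ 1 / (((k + 1 : ℕ) : ℝ) + 1) → ψ x = 0) ∧
      ∀ x, 1 / ((k : ℝ) + 1) ≤ infDist x Ωᶜ → ψ x = 1 := fun k => by
    obtain ⟨ψ, h0, h1, h2⟩ := exists_contMDiffMap_zero_one_of_isClosed (n := ⊤) 𝓘(ℝ, E)
      (isClosed_le (continuous_infDist_pt Ωᶜ) (continuous_const (y := 1 / (((k + 1 : ℕ) : ℝ) + 1))))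
      (isClosed_le (continuous_const (y := 1 / ((k : ℝ) + 1))) (continuous_infDist_pt Ωᶜ))
      (disjoint_left.2 fun x h h' => (lt k).not_ge (le_trans h' h))
    exact ⟨ψ, ψ.contMDiff.contDiff, h2, h0, h1⟩
  choose ψ h0 h1 h2 h3 using a
  obtain ⟨θ, t0, t1⟩ : ∃ θ : ℕ → E → ℝ, θ 0 = (fun _ => 0) ∧ ∀ k, θ (k + 1) = ψ k :=
    ⟨fun k => Nat.casesOn k (fun _ => 0) ψ, rfl, fun _ => rfl⟩
  have z : ∀ (k : ℕ) x, infDist x Ωᶜ ≤ 1 / ((k : ℝ) + 1) → θ k x = 0 := fun k x h => by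
    cases k with
    | zero => rw [t0]
    | succ k => rw [t1]; exact h2 k x h
  have sm : ∀ k, ContDiff ℝ ∞ (θ k) := fun k => by
    cases k with
    | zero => rw [t0]; exact contDiff_const
    | succ k => rw [t1]; exact h0 k
  have le : ∀ k x, θ k x ≤ 1 := fun k x => by
    cases k with
    | zero => rw [t0]; exact zero_le_one
    | succ k => rw [t1]; exact (h1 k x).2
  refine ⟨fun k x => θ (k + 1) x - θ k x, fun k => ?_, fun x hx => ?_⟩
  · obtain ⟨c1, c2⟩ := cpt hb (Nat.one_div_pos_of_nat (n := k + 1))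
    have s : tsupport (fun x => θ (k + 1) x - θ k x) ⊆ _ := closure_minimal (fun x hx => by
      by_contra h
      replace h := (not_le.1 (show ¬_ ≤ infDist x Ωᶜ from h)).le
      exact hx (by simp only [z _ x h, z _ x (h.trans (lt k).le), sub_zero])) c1.isClosed
    refine ⟨(sm _).sub (sm _), c1.of_isClosed_subset (isClosed_tsupport _) s, s.trans c2,
      fun x => sub_nonneg.2 ?_⟩
    rw [t1]
    rcases le_total (infDist x Ωᶜ) (1 / ((k : ℝ) + 1)) with h | h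
    · rw [z k x h]; exact (h1 k x).1
    · rw [h3 k x h]; exact le k x
  · obtain ⟨m, hm⟩ := exists_nat_one_div_lt
      ((hΩ.isClosed_compl.notMem_iff_infDist_pos (ne_compl hb)).1 (not_not.2 hx))
    refine ⟨m + 1, ((continuous_infDist_pt Ωᶜ).continuousAt.eventually
      (lt_mem_nhds hm)).mono fun y hy => ?_⟩
    have o : ∀ k ≥ m + 1, θ k y = 1 := fun k hk => by
      obtain ⟨j, rfl⟩ : ∃ j, k = j + 1 := ⟨k - 1, by omega⟩
      rw [t1]
      exact h3 j y ((Nat.one_div_le_one_div (by omega)).trans hy.le)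
    refine ⟨fun k hk => by simp only [o k hk, o (k + 1) (by omega), sub_self], ?_⟩
    rw [Finset.sum_range_sub fun k => θ k y, o _ le_rfl, t0, sub_zero]

theorem mul_Lp {p : ENNReal} {χ : E → ℝ} {M : ℝ} (h : ∀ x, |χ x| ≤ M) (A : E → E) :
    eLpNorm (fun x => χ x • A x) p (volume.restrict Ω) ≤ ENNReal.ofReal M * eLpNorm A p volume :=
  (eLpNorm_le_mul_eLpNorm_of_ae_le_mul (.of_forall fun x => by
    rw [norm_smul]; exact mul_le_mul_of_nonneg_right (h x) (norm_nonneg _)) p).trans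
    (mul_le_mul_right (eLpNorm_mono_measure _ Measure.restrict_le_self) _)

theorem piece {p : ENNReal} (hp : 1 ≤ p) (hp' : p ≠ ⊤) (hΩ : IsOpen Ω) {f : E → E}
    {G : Fin 3 → E → E} (hf : ContinuousOn f Ω) (hw : WeakD Ω f G)
    (h1 : MemLp f p (volume.restrict Ω)) (h2 : ∀ i, MemLp (G i) p (volume.restrict Ω)) {χ : E → ℝ}
    (c1 : ContDiff ℝ ∞ χ) (c2 : HasCompactSupport χ) (c3 : tsupport χ ⊆ Ω) {a : ℝ} (ha : 0 < a)
    {b : ENNReal} (hb : b ≠ 0) : ∃ φ : ContDiffBump (0 : E), φ.rOut < a ∧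
      (∀ x ∈ tsupport χ, (1 + ‖fderiv ℝ χ x‖) * ‖mol φ (Ω.indicator f) x - f x‖ ≤ a) ∧
      eLpNorm (fun x => χ x • (mol φ (Ω.indicator f) x - f x)) p (volume.restrict Ω) ≤ b ∧
      ∀ i, eLpNorm (fun x => χ x • (pd i (mol φ (Ω.indicator f)) x - G i x) +
        pd i χ x • (mol φ (Ω.indicator f) x - f x)) p (volume.restrict Ω) ≤ b := by
  have m := hΩ.measurableSet
  have k1 := (memLp_indicator_iff_restrict m).2 h1
  have k2 := fun i => (memLp_indicator_iff_restrict m).2 (h2 i)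
  have hL := k1.locallyIntegrable hp
  obtain ⟨M1, m1⟩ := c1.continuous.bounded_above_of_compact_support c2
  obtain ⟨M2, m2⟩ := (c1.continuous_fderiv (by simp)).bounded_above_of_compact_support (c2.fderiv ℝ)
  obtain ⟨M, M0, n1, n2⟩ : ∃ M : ℝ, 0 < M ∧ (∀ x, |χ x| ≤ M) ∧ ∀ x, 1 + ‖fderiv ℝ χ x‖ ≤ M :=
    ⟨1 + M1 + M2, by linarith [(norm_nonneg _).trans (m1 0), (norm_nonneg _).trans (m2 0)],
      fun x => by linarith [(norm_nonneg _).trans (m2 0), show |χ x| ≤ M1 from m1 x],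
      fun x => by linarith [(norm_nonneg _).trans (m1 0), m2 x]⟩
  have n3 : ∀ i x, |pd i χ x| ≤ M := fun i x =>
    ((fderiv ℝ χ x).le_opNorm _).trans (by simp; linarith [n2 x])
  obtain ⟨e, e0, he⟩ : ∃ e : ENNReal, e ≠ 0 ∧ ENNReal.ofReal M * e ≤ b / 2 :=
    ⟨b / 2 / ENNReal.ofReal M, by simp [hb], ENNReal.mul_div_le⟩
  obtain ⟨ρ0, r0, s0⟩ := mol_Lp hp hp' k1 e0
  choose ρ r1 s1 using fun i => mol_Lp hp hp' (k2 i) e0
  obtain ⟨τ, τ0, hτ⟩ := IsCompact.exists_cthickening_subset_open c2 hΩ c3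
  obtain ⟨σ, σ0, hσ⟩ := Metric.uniformContinuousOn_iff_le.1
    ((IsCompact.cthickening c2 (r := τ)).uniformContinuousOn_of_continuous (hf.mono hτ)) _
    (div_pos ha M0)
  obtain ⟨r, q0, q1, q2, q3, q4, q5⟩ : ∃ r : ℝ, 0 < r ∧ r < a ∧ r ≤ τ ∧ r ≤ σ ∧ r ≤ ρ0 ∧
      ∀ i, r ≤ ρ i :=
    (eventually_mem_nhdsWithin.and (eventually_nhdsWithin_of_eventually_nhds
      ((eventually_lt_nhds ha).and ((eventually_le_nhds τ0).and ((eventually_le_nhds σ0).and
        ((eventually_le_nhds r0).and (eventually_all.2 fun i => eventually_le_nhds (r1 i))))))) :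
      ∀ᶠ r in 𝓝[>] (0 : ℝ), _).exists
  obtain ⟨φ, hφ⟩ : ∃ φ : ContDiffBump (0 : E), φ.rOut = r :=
    ⟨⟨r / 2, r, half_pos q0, half_lt_self q0⟩, rfl⟩
  have bs : ∀ x ∈ tsupport χ, closedBall x r ⊆ cthickening τ (tsupport χ) := fun x hx =>
    (closedBall_subset_closedBall q2).trans (closedBall_subset_cthickening hx τ)
  have l : ∀ θ : E → ℝ, (∀ x, |θ x| ≤ M) →
      eLpNorm (fun x => θ x • (mol φ (Ω.indicator f) x - f x)) p (volume.restrict Ω) ≤ b / 2 :=
    fun θ hθ => by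
    rw [eLpNorm_congr_ae (g := fun x => θ x • (mol φ (Ω.indicator f) x - Ω.indicator f x))
      ((ae_restrict_mem m).mono fun x hx => by simp only [indicator_of_mem hx])]
    exact (mul_Lp hθ _).trans ((mul_le_mul_right (s0 φ (hφ.trans_le q4)) _).trans he)
  refine ⟨φ, hφ.trans_lt q1, fun x hx => ?_, (l χ n1).trans ENNReal.half_le_self, fun i => ?_⟩
  · have d := φ.dist_normed_convolution_le (μ := volume) (x₀ := x) (ε := a / M) k1.1 fun y hy => by
      rw [hφ] at hy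
      have y1 := bs x hx (ball_subset_closedBall hy)
      rw [indicator_of_mem (hτ y1), indicator_of_mem (c3 hx)]
      exact hσ y y1 x (bs x hx (mem_closedBall_self q0.le)) ((mem_ball.1 hy).le.trans q3)
    rw [indicator_of_mem (c3 hx), dist_eq_norm] at d
    exact (mul_le_mul (n2 x) d (norm_nonneg _) M0.le).trans (mul_div_cancel₀ _ M0.ne').le
  · have sm := mol_smooth (φ := φ) hL
    have a1 : AEStronglyMeasurable (fun x => χ x • (pd i (mol φ (Ω.indicator f)) x - G i x))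
        (volume.restrict Ω) := c1.continuous.aestronglyMeasurable.smul
      (((sm.continuous_fderiv (by simp)).clm_apply continuous_const).aestronglyMeasurable.sub
        (h2 i).1)
    have a2 : AEStronglyMeasurable (fun x => pd i χ x • (mol φ (Ω.indicator f) x - f x))
        (volume.restrict Ω) :=
      ((c1.continuous_fderiv (by simp)).clm_apply continuous_const).aestronglyMeasurable.smul
        (sm.continuous.aestronglyMeasurable.sub h1.1)
    refine (eLpNorm_add_le a1 a2 hp).trans ((add_le_add ?_ (l _ (n3 i))).trans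
      (ENNReal.add_halves b).le)
    rw [eLpNorm_congr_ae (g := fun x => χ x • (mol φ (Ω.indicator (G i)) x - Ω.indicator (G i) x))
      ((ae_restrict_mem m).mono fun x hx => by
        by_cases h : x ∈ tsupport χ
        · simp only [indicator_of_mem hx, mol_pd m hw hL (hφ ▸ (bs x h).trans hτ)]
        · simp only [image_eq_zero_of_notMem_tsupport h, zero_smul])]
    exact (mul_Lp n1 _).trans ((mul_le_mul_right (s1 i φ (hφ.trans_le (q5 i))) _).trans he)

end Vale.Agent.P073
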