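import Vale.Agent.P073.Main

/-! P073: product rule for weak derivatives. -/

open MeasureTheory Set Metric Filter
open scoped ContDiff RealInnerProductSpace Topology

namespace Vale.Agent.P073

variable {Ω : Set E} {f : E → E} {G : Fin 3 → E → E} {p : ENNReal}

theorem Sob.one (hp : 1 ≤ p) (hb : Bornology.IsBounded Ω) (h : Sob p Ω f G) : Sob 1 Ω f G :=
  have : IsFiniteMeasure (volume.restrict Ω) := isFiniteMeasure_restrict.2 hb.measure_lt_top.ne
  ⟨h.1, h.2.1.mono_exponent hp, fun i => (h.2.2 i).mono_exponent hp⟩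

theorem cont_pd1 {ψ : E → ℝ} (h : ContDiff ℝ 1 ψ) (i : Fin 3) : Continuous (pd i ψ) :=
  (h.continuous_fderiv (by simp)).clm_apply continuous_const

theorem cs_pd {ψ : E → ℝ} (h : HasCompactSupport ψ) (i : Fin 3) : HasCompactSupport (pd i ψ) :=
  h.of_isClosed_subset (isClosed_tsupport _) (tsupport_pd i ψ)

theorem memLp_smul {θ : E → ℝ} (c : Continuous θ) (s : HasCompactSupport θ) {μ : Measure E}
    (h : MemLp f p μ) : MemLp (fun x => θ x • f x) p μ := by
  obtain ⟨M, hM⟩ := c.bounded_above_of_compact_support s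
  exact h.of_le_mul (c := M) (c.aestronglyMeasurable.smul h.1) (.of_forall fun x => by
    rw [norm_smul]; exact mul_le_mul_of_nonneg_right (hM x) (norm_nonneg _))

/-- test functions of class `C¹` -/
theorem weakD_c1 (hΩ : IsOpen Ω) (h : Sob 1 Ω f G) (i : Fin 3) {ψ : E → ℝ} (h1 : ContDiff ℝ 1 ψ)
    (h2 : HasCompactSupport ψ) (h3 : tsupport ψ ⊆ Ω) :
    ∫ x in Ω, pd i ψ x • f x = -∫ x in Ω, ψ x • G i x := by
  have m := hΩ.measurableSet
  have k1 := (memLp_indicator_iff_restrict m).2 h.2.1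
  have k2 := (memLp_indicator_iff_restrict m).2 (h.2.2 i)
  have hL := k1.locallyIntegrable le_rfl
  have ind : ∀ (θ : E → ℝ) (B : E → E), ∫ x in Ω, θ x • B x = ∫ x, θ x • Ω.indicator B x :=
    fun θ B => by
    rw [← integral_indicator m]
    exact integral_congr_ae (.of_forall fun x => by by_cases hx : x ∈ Ω <;> simp [hx])
  have lim : ∀ (θ : E → ℝ) (B : E → E), Continuous θ → HasCompactSupport θ → MemLp B 1 →
      ∀ ε > 0, ∃ ρ > 0, ∀ φ : ContDiffBump (0 : E), φ.rOut ≤ ρ →
        ‖(∫ x, θ x • mol φ B x) - ∫ x, θ x • B x‖ ≤ ε := fun θ B c s hB ε hε => by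
    obtain ⟨M, hM⟩ := c.bounded_above_of_compact_support s
    have M0 : 0 < M + 1 := by linarith [(norm_nonneg _).trans (hM 0)]
    obtain ⟨ρ, r0, r1⟩ := mol_Lp le_rfl ENNReal.one_ne_top hB
      (ENNReal.ofReal_pos.2 (div_pos hε M0)).ne'
    refine ⟨ρ, r0, fun φ hφ => ?_⟩
    have a := (mul_Lp (Ω := univ) (χ := θ) (M := M + 1) (p := 1)
      (fun x => (hM x).trans (by linarith)) _).trans (mul_le_mul_right (r1 φ hφ) _)
    rw [← ENNReal.ofReal_mul M0.le, mul_div_cancel₀ _ M0.ne', Measure.restrict_univ,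
      eLpNorm_one_eq_lintegral_enorm] at a
    have i1 : Integrable fun x => θ x • mol φ B x := (c.smul (mol_smooth
      (hB.locallyIntegrable le_rfl)).continuous).integrable_of_hasCompactSupport s.smul_right
    rw [← integral_sub i1 (memLp_one_iff_integrable.1 (memLp_smul c s hB)),
      ← ENNReal.ofReal_le_ofReal_iff hε.le, ofReal_norm]
    simp only [← smul_sub]
    exact (enorm_integral_le_lintegral_enorm _).trans a
  rw [ind, ind, ← add_eq_zero_iff_eq_neg, ← norm_le_zero_iff]
  refine le_of_forall_pos_le_add fun ε hε => ?_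
  obtain ⟨ρ1, r1, s1⟩ := lim _ _ (cont_pd1 h1 i) (cs_pd h2 i) k1 _ (half_pos hε)
  obtain ⟨ρ2, r2, s2⟩ := lim _ _ h1.continuous h2 k2 _ (half_pos hε)
  obtain ⟨τ, τ0, hτ⟩ := IsCompact.exists_cthickening_subset_open h2 hΩ h3
  have m0 : 0 < min τ (min ρ1 ρ2) := by positivity
  obtain ⟨φ, hφ⟩ : ∃ φ : ContDiffBump (0 : E), φ.rOut = min τ (min ρ1 ρ2) :=
    ⟨⟨_, _, half_pos m0, half_lt_self m0⟩, rfl⟩
  have sm := mol_smooth (φ := φ) hL
  have e := integral_smul_fderiv_eq_neg_fderiv_smul_of_integrable (μ := volume) (f := ψ)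
    (g := mol φ (Ω.indicator f)) (v := EuclideanSpace.single i 1)
    (((cont_pd1 h1 i).smul sm.continuous).integrable_of_hasCompactSupport (cs_pd h2 i).smul_right)
    ((h1.continuous.smul ((sm.continuous_fderiv (by simp)).clm_apply continuous_const)
      ).integrable_of_hasCompactSupport h2.smul_right)
    ((h1.continuous.smul sm.continuous).integrable_of_hasCompactSupport h2.smul_right)
    (fun x _ => h1.differentiable one_ne_zero x) fun x _ => sm.differentiable (by simp) x
  have e' : ∫ x, ψ x • mol φ (Ω.indicator (G i)) x = -∫ x, pd i ψ x • mol φ (Ω.indicator f) x :=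
    Eq.trans (integral_congr_ae (.of_forall fun x => by
      by_cases hx : x ∈ tsupport ψ
      · exact congrArg (ψ x • ·) (mol_pd m h.1 hL (((closedBall_subset_closedBall
          (hφ.trans_le (min_le_left _ _))).trans (closedBall_subset_cthickening hx τ)).trans hτ)
          i).symm
      · simp only [image_eq_zero_of_notMem_tsupport hx, zero_smul])) e
  have a1 := s1 φ (hφ.trans_le ((min_le_right _ _).trans (min_le_left _ _)))
  have a2 := s2 φ (hφ.trans_le ((min_le_right _ _).trans (min_le_right _ _)))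
  rw [e', ← neg_add', norm_neg] at a2
  rw [norm_sub_rev] at a1
  refine le_trans (le_of_eq (congrArg norm ?_)) ((norm_add_le_of_le a1 a2).trans (by linarith))
  abel

theorem Sob.smul (hp : 1 ≤ p) (hΩ : IsOpen Ω) (hb : Bornology.IsBounded Ω) (h : Sob p Ω f G)
    {θ : E → ℝ} (c1 : ContDiff ℝ 1 θ) (c2 : HasCompactSupport θ) :
    Sob p Ω (fun x => θ x • f x) fun i x => θ x • G i x + pd i θ x • f x := by
  refine ⟨fun i ψ h1 h2 h3 => ?_, memLp_smul c1.continuous c2 h.2.1, fun i =>
    (memLp_smul c1.continuous c2 (h.2.2 i)).add (memLp_smul (cont_pd1 c1 i) (cs_pd c2 i) h.2.1)⟩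
  have h' := h.one hp hb
  have a := weakD_c1 hΩ h' i (ψ := fun x => ψ x * θ x) ((h1.of_le (by simp)).mul c1) h2.mul_right
    ((tsupport_mul_subset_left (f := ψ) (g := θ)).trans h3)
  have e : ∀ x, pd i (fun x => ψ x * θ x) x = pd i ψ x * θ x + ψ x * pd i θ x := fun x => by
    rw [pd, fderiv_fun_mul (h1.differentiable (by simp) x) (c1.differentiable one_ne_zero x)]
    simp [pd, mul_comm, add_comm]
  have k : ∀ (α β : E → ℝ) (B : E → E), Continuous α → Continuous β → HasCompactSupport α →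
      MemLp B 1 (volume.restrict Ω) → IntegrableOn (fun x => (α x * β x) • B x) Ω :=
    fun α β B c c' s hB => memLp_one_iff_integrable.1 (memLp_smul (c.mul c') s.mul_right hB)
  simp only [e, add_smul] at a
  simp only [smul_add, smul_smul]
  rw [integral_add (k _ _ _ (cont_pd h1 i) c1.continuous (cs_pd h2 i) h'.2.1)
    (k _ _ _ h1.continuous (cont_pd1 c1 i) h2 h'.2.1)] at a
  rw [integral_add (k _ _ _ h1.continuous c1.continuous h2 (h'.2.2 i))
    (k _ _ _ h1.continuous (cont_pd1 c1 i) h2 h'.2.1), neg_add', ← a, add_sub_cancel_right]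

theorem sob_smooth (hΩ : IsOpen Ω) (hb : Bornology.IsBounded Ω) (hf : ContDiff ℝ ∞ f) :
    Sob p Ω f fun i => pd i f := by
  have : IsFiniteMeasure (volume.restrict Ω) := isFiniteMeasure_restrict.2 hb.measure_lt_top.ne
  have a : ∀ B : E → E, Continuous B → MemLp B p (volume.restrict Ω) := fun B hB => by
    obtain ⟨M, hM⟩ := hb.isCompact_closure.exists_bound_of_continuousOn hB.continuousOn
    exact MemLp.of_bound hB.aestronglyMeasurable M
      ((ae_restrict_mem hΩ.measurableSet).mono fun x hx => hM x (subset_closure hx))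
  exact ⟨weakD_smooth hΩ hf.contDiffOn, a _ hf.continuous,
    fun i => a _ ((hf.continuous_fderiv (by simp)).clm_apply continuous_const)⟩

end Vale.Agent.P073
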