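import Vale.Agent.P073.TStm

/-! P073: averages at a variable scale converge in the Lebesgue norm. -/

open MeasureTheory Set Metric Filter
open scoped ContDiff RealInnerProductSpace Topology ENNReal

namespace Vale.Agent.P073

theorem t_av0 (h1 : S_Joint) (h2 : S_Mink) (h3 : S_Trans) : S_Av0 := by
  intro p Ω ν _ f ε hp hp' hΩ hb hν hf hε
  have hε' : min ε 1 ≠ 0 := by
    intro h
    rcases min_eq_iff.1 h with h | h
    · exact hε h.1
    · exact one_ne_zero h.1
  obtain ⟨ρ, hρ, H⟩ := h3 p Ω f (min ε 1) hp hp' hΩ hb hf hε'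
  refine ⟨ρ, hρ, fun β L hA hL => ?_⟩
  have hfin : IsFiniteMeasure (volume.restrict Ω) :=
    isFiniteMeasure_restrict.2 hb.measure_lt_top.ne
  have hint : IntegrableOn f Ω := hf.integrable hp
  obtain ⟨hm, hi⟩ := h1 Ω β L ν f hΩ hA hν
  have hm' := hm hf.1
  have hi' := hi hint
  have hk : AEStronglyMeasurable (fun q : E × E => f (q.1 + β q.1 • q.2) - f q.1)
      ((volume.restrict Ω).prod ν) := hm'.sub hf.1.comp_fst
  have hbd := h2 p (volume.restrict Ω) ν (fun x z => f (x + β x • z) - f x) (min ε 1) hp hp' hk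
    (hν.mono fun z hz => H β L z hA hL hz)
  have hae : (Av ν β f - f) =ᵐ[volume.restrict Ω] fun x => ∫ z, (f (x + β x • z) - f x) ∂ν := by
    filter_upwards [hi'.prod_right_ae] with x hx
    rw [integral_sub hx (integrable_const _), integral_const]
    simp [Av]
  have hle : eLpNorm (Av ν β f - f) p (volume.restrict Ω) ≤ min ε 1 := by
    rw [eLpNorm_congr_ae hae]
    exact hbd
  have hAv : AEStronglyMeasurable (Av ν β f) (volume.restrict Ω) := hm'.integral_prod_right'
  have hd : MemLp (Av ν β f - f) p (volume.restrict Ω) :=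
    ⟨hAv.sub hf.1, lt_of_le_of_lt (hle.trans (min_le_right _ _)) ENNReal.one_lt_top⟩
  refine ⟨?_, hle.trans (min_le_left _ _)⟩
  have h := hd.add hf
  rwa [sub_add_cancel] at h

end Vale.Agent.P073
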