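import Vale.Agent.P073.TStm

/-! P073: the averaged derivatives are close to the derivatives. -/

open MeasureTheory Set Metric Filter
open scoped ContDiff RealInnerProductSpace Topology ENNReal

namespace Vale.Agent.P073

namespace TAv1Aux

theorem pt {a L : ℝ} {z u w : E} {g : Fin 3 → E} (ha : |a| ≤ L) (hz : ‖z‖ ≤ 1) :
    ‖u + a • ∑ j, z j • g j - w‖ ≤ ‖u - w‖ + L * ∑ j, ‖g j‖ := by
  have e : u + a • ∑ j, z j • g j - w = (u - w) + a • ∑ j, z j • g j := by abel
  rw [e]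
  refine (norm_add_le _ _).trans (add_le_add le_rfl ?_)
  rw [norm_smul]
  refine mul_le_mul ha ((norm_sum_le _ _).trans (Finset.sum_le_sum fun j _ => ?_)) (norm_nonneg _)
    ((abs_nonneg a).trans ha)
  rw [norm_smul]
  exact mul_le_of_le_one_left (norm_nonneg _) ((PiLp.norm_apply_le z j).trans hz)

theorem bound {p : ℝ≥0∞} {μ : Measure E} {A : E → E} {g : Fin 3 → E → E} {L : ℝ} (hp : 1 ≤ p)
    (hL : 0 ≤ L) (hA : AEStronglyMeasurable A μ) (hg : ∀ j, AEStronglyMeasurable (g j) μ) :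
    eLpNorm (fun x => ‖A x‖ + L * ∑ j, ‖g j x‖) p μ ≤
      eLpNorm A p μ + ENNReal.ofReal L * ∑ j, eLpNorm (g j) p μ := by
  have e : (fun x => ‖A x‖ + L * ∑ j, ‖g j x‖) =
      (fun x => ‖A x‖) + L • ∑ j, fun x => ‖g j x‖ := by
    funext x
    simp
  have m : AEStronglyMeasurable (∑ j, fun x => ‖g j x‖) μ :=
    Finset.aestronglyMeasurable_sum _ fun j _ => (hg j).norm
  rw [e]
  refine (eLpNorm_add_le hA.norm (m.const_smul L) hp).trans (add_le_add (eLpNorm_norm A).le ?_)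
  rw [eLpNorm_const_smul, Real.enorm_eq_ofReal hL]
  refine mul_le_mul_right ((eLpNorm_sum_le (fun j _ => (hg j).norm) hp).trans ?_) _
  exact Finset.sum_le_sum fun j _ => (eLpNorm_norm (g j)).le

end TAv1Aux

open TAv1Aux

theorem t_av1 (h1 : S_JointD) (h2 : S_Mink) (h3 : S_Trans) (h4 : S_CovLp) : S_Av1 := by
  intro p Ω ν _ G ε hp hp' hΩ hb hν hG hε
  haveI : IsFiniteMeasure (volume.restrict Ω) := isFiniteMeasure_restrict.mpr hb.measure_lt_top.ne
  have he : min ε 1 / 2 ≠ 0 := (ENNReal.half_pos (lt_min hε.bot_lt one_pos).ne').ne'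
  choose r r0 hr using fun i => h3 p Ω (G i) _ hp hp' hΩ hb (hG i) he
  have hS : ∑ j, 2 * eLpNorm (G j) p (volume.restrict Ω) ≠ ⊤ :=
    ENNReal.sum_ne_top.mpr fun j _ => ENNReal.mul_ne_top (by simp) (hG j).2.ne
  obtain ⟨s, s0, hs⟩ := ENNReal.exists_nnreal_pos_mul_lt hS he
  refine ⟨min (s : ℝ) (min (r 0) (min (r 1) (r 2))),
    lt_min s0 (lt_min (r0 0) (lt_min (r0 1) (r0 2))), fun β L hA hL i => ?_⟩
  simp only [le_min_iff] at hL
  have hLi : L ≤ r i := by
    fin_cases i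
    exacts [hL.2.1, hL.2.2.1, hL.2.2.2]
  obtain ⟨j1, j2⟩ := h1 Ω β L ν G hΩ hA hν fun j => (hG j).integrable hp
  have key : ∀ᵐ z ∂ν, eLpNorm (fun x => Dv β G i x z - G i x) p (volume.restrict Ω) ≤ min ε 1 := by
    filter_upwards [hν] with z hz
    have c := fun j => h4 p Ω β L z hp hp' hΩ hA hz (G j)
    have b1 : eLpNorm (fun x => Dv β G i x z - G i x) p (volume.restrict Ω) ≤
        eLpNorm (fun x => ‖G i (x + β x • z) - G i x‖ + L * ∑ j, ‖G j (x + β x • z)‖) p
          (volume.restrict Ω) := by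
      refine eLpNorm_mono_ae ?_
      filter_upwards [ae_restrict_mem hΩ.measurableSet] with x hx
      exact (pt (j1 i x hx) hz).trans (le_abs_self _)
    refine b1.trans ((bound hp hA.L0.le (((c i).2 (hG i).1).sub (hG i).1)
      fun j => (c j).2 (hG j).1).trans ?_)
    rw [← ENNReal.add_halves (min ε 1)]
    refine add_le_add (hr i β L z hA hLi hz) (le_trans ?_ hs.le)
    refine mul_le_mul' ?_ (Finset.sum_le_sum fun j _ => (c j).1)
    exact (ENNReal.ofReal_le_ofReal hL.1).trans_eq ENNReal.ofReal_coe_nnreal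
  have k1 := h2 p (volume.restrict Ω) ν (fun x z => Dv β G i x z - G i x) _ hp hp'
    ((j2 i).1.sub (hG i).1.comp_fst) key
  have k2 : (fun x => ∫ z, Dv β G i x z ∂ν) - G i =ᵐ[volume.restrict Ω]
      fun x => ∫ z, (Dv β G i x z - G i x) ∂ν := by
    filter_upwards [(j2 i).prod_right_ae] with x hx
    rw [integral_sub hx (integrable_const _)]
    simp
  have k3 := (eLpNorm_congr_ae (p := p) k2).trans_le k1
  have k4 : MemLp ((fun x => ∫ z, Dv β G i x z ∂ν) - G i) p (volume.restrict Ω) :=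
    ⟨(j2 i).1.integral_prod_right'.sub (hG i).1,
      k3.trans_lt ((min_le_right _ _).trans_lt ENNReal.one_lt_top)⟩
  refine ⟨?_, k3.trans (min_le_left _ _)⟩
  have k5 := k4.add (hG i)
  rwa [sub_add_cancel] at k5

end Vale.Agent.P073
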