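import Vale.Agent.P073.TStm

open MeasureTheory Set Metric Filter
open scoped ContDiff RealInnerProductSpace Topology ENNReal

namespace Vale.Agent.P073

namespace TAvCAux

theorem cont {Ω : Set E} {β : E → ℝ} {L : ℝ} (h : Adm Ω β L) : Continuous β :=
  (LipschitzWith.of_dist_le' (K := L) fun x y => by
    rw [Real.dist_eq, dist_eq_norm]; exact h.lip x y).continuous

theorem mem {Ω : Set E} {β : E → ℝ} {L : ℝ} (h : Adm Ω β L) {x z : E} (hx : x ∈ Ω)
    (hz : ‖z‖ ≤ 1) : x + β x • z ∈ closedBall x (β x) := by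
  rw [mem_closedBall, dist_eq_norm, add_sub_cancel_left, norm_smul,
    Real.norm_of_nonneg (h.pos x hx).le]
  exact mul_le_of_le_one_right (h.pos x hx).le hz

end TAvCAux

open TAvCAux in
theorem t_avC : S_AvC := by
  intro Ω β L ν _ f hΩ h hν hf
  have hβ := cont h
  have hint : ∀ x ∈ Ω, Integrable (fun z => f (x + β x • z)) ν := by
    intro x hx
    have h1 : ContinuousOn (fun z => f (x + β x • z)) (closedBall (0 : E) 1) :=
      hf.comp (by fun_prop) fun z hz => h.sub x hx (mem h hx (mem_closedBall_zero_iff.mp hz))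
    have h2 : IntegrableOn (fun z => f (x + β x • z)) (closedBall (0 : E) 1) ν :=
      h1.integrableOn_compact (isCompact_closedBall 0 1)
    rwa [IntegrableOn, Measure.restrict_eq_self_of_ae_mem
      (hν.mono fun z hz => mem_closedBall_zero_iff.mpr hz)] at h2
  refine ⟨fun x₀ hx₀ => ContinuousAt.continuousWithinAt ?_, hint, fun x hx a M hM => ?_⟩
  · obtain ⟨r, hr, hsub⟩ := nhds_basis_closedBall.mem_iff.mp (hΩ.mem_nhds hx₀)
    have hK : IsCompact ((fun q : E × E => q.1 + β q.1 • q.2) ''
        (closedBall x₀ r ×ˢ closedBall (0 : E) 1)) :=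
      ((isCompact_closedBall x₀ r).prod (isCompact_closedBall 0 1)).image (by fun_prop)
    have hKΩ : (fun q : E × E => q.1 + β q.1 • q.2) ''
        (closedBall x₀ r ×ˢ closedBall (0 : E) 1) ⊆ Ω := by
      rintro _ ⟨q, hq, rfl⟩
      exact h.sub _ (hsub hq.1) (mem h (hsub hq.1) (mem_closedBall_zero_iff.mp hq.2))
    obtain ⟨C, hC⟩ := hK.exists_bound_of_continuousOn (hf.mono hKΩ)
    refine continuousAt_of_dominated (bound := fun _ => C) ?_ ?_ (integrable_const C) ?_
    · filter_upwards [hΩ.mem_nhds hx₀] with x hx using (hint x hx).aestronglyMeasurable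
    · filter_upwards [closedBall_mem_nhds x₀ hr] with x hx
      filter_upwards [hν] with z hz
      exact hC _ ⟨(x, z), ⟨hx, mem_closedBall_zero_iff.mpr hz⟩, rfl⟩
    · filter_upwards [hν] with z hz
      have h1 : ContinuousAt f (x₀ + β x₀ • z) :=
        hf.continuousAt (hΩ.mem_nhds (h.sub _ hx₀ (mem h hx₀ hz)))
      exact ContinuousAt.comp (f := fun x => x + β x • z) h1 (by fun_prop)
  · have e : Av ν β f x - a = ∫ z, (f (x + β x • z) - a) ∂ν := by
      rw [integral_sub (hint x hx) (integrable_const a)]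
      simp [Av]
    rw [e]
    have h1 := norm_integral_le_of_norm_le_const (μ := ν) (C := M)
      (f := fun z => f (x + β x • z) - a) (hν.mono fun z hz => hM _ (mem h hx hz))
    simpa using h1

end Vale.Agent.P073
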