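import Vale.Agent.P073.TStm

/-! P073: the weak derivative of the average at a variable scale. -/

open MeasureTheory Set Metric Filter
open scoped ContDiff RealInnerProductSpace Topology ENNReal

namespace Vale.Agent.P073

namespace TAvWAux

theorem swap (μ ν : Measure E) [SFinite μ] [SFinite ν] {φ : E → ℝ} (hφ : Continuous φ)
    (hc : HasCompactSupport φ) {k : E → E → E}
    (hk : Integrable (fun q : E × E => k q.1 q.2) (μ.prod ν)) :
    ∫ x, φ x • ∫ z, k x z ∂ν ∂μ = ∫ z, ∫ x, φ x • k x z ∂μ ∂ν := by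
  obtain ⟨C, hC⟩ := hφ.bounded_above_of_compact_support hc
  have hi : Integrable (Function.uncurry fun x z => φ x • k x z) (μ.prod ν) :=
    hk.bdd_smul (φ := fun q : E × E => φ q.1) C
      (hφ.comp continuous_fst).aestronglyMeasurable (ae_of_all _ fun q => hC q.1)
  rw [← integral_integral_swap hi]
  exact integral_congr_ae (ae_of_all _ fun x => (integral_smul _ _).symm)

end TAvWAux

theorem t_avW (h1 : S_Chain) (h2 : S_Joint) (h3 : S_JointD) : S_AvW := by
  intro Ω β L ν _ f G hΩ hb hA hν hf hS i ψ hψ hc hs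
  have i1 := (h2 Ω β L ν f hΩ hA hν).2 (memLp_one_iff_integrable.1 hS.2.1)
  have i2 := (h3 Ω β L ν G hΩ hA hν fun j => memLp_one_iff_integrable.1 (hS.2.2 j)).2 i
  have c1 : Continuous (pd i ψ) :=
    (hψ.continuous_fderiv (by simp)).clm_apply continuous_const
  have c2 : HasCompactSupport (pd i ψ) := hc.fderiv_apply ℝ _
  have e1 := TAvWAux.swap (volume.restrict Ω) ν c1 c2 (k := fun x z => f (x + β x • z)) i1
  have e2 := TAvWAux.swap (volume.restrict Ω) ν hψ.continuous hc
    (k := fun x z => Dv β G i x z) i2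
  refine e1.trans ?_
  rw [e2, ← integral_neg]
  exact integral_congr_ae (hν.mono fun z hz => h1 Ω β L z f G hΩ hb hA hz hf hS i ψ hψ hc hs)

end Vale.Agent.P073
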