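import Vale.Agent.P073.TStm

open MeasureTheory Set Metric Filter
open scoped ContDiff RealInnerProductSpace Topology ENNReal

namespace Vale.Agent.P073

theorem t_ball : S_Ball := by
  intro Ω Λ f x s a hΩ hΛ hf hs hsub ha
  obtain ⟨hc, hb, k, hk, hi⟩ := hf
  have hB : ball x s ⊆ Ω := ball_subset_closedBall.trans hsub
  rcases le_or_gt a 0 with h0 | h0
  · rw [ball_eq_empty.2 h0]
    exact empty_subset _
  have e : f '' ball x s = Λ ∩ k ⁻¹' ball x s := by
    ext w
    constructor
    · rintro ⟨y, hy, rfl⟩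
      refine ⟨hb.mapsTo (hB hy), ?_⟩
      rw [mem_preimage, hi.1 (hB hy)]
      exact hy
    · exact fun hw => ⟨k w, hw.2, hi.2 hw.1⟩
  have ho : IsOpen (f '' ball x s) := by
    rw [e]
    exact hk.isOpen_inter_preimage hΛ isOpen_ball
  refine (convex_ball _ _).isPreconnected.subset_of_closure_inter_subset ho
    ⟨f x, mem_ball_self h0, x, mem_ball_self hs, rfl⟩ fun w hw => ?_
  have hK : IsCompact (f '' closedBall x s) :=
    (isCompact_closedBall x s).image_of_continuousOn (hc.mono hsub)
  obtain ⟨y, hy, rfl⟩ := closure_minimal (image_mono ball_subset_closedBall) hK.isClosed hw.1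
  refine ⟨y, lt_of_le_of_ne (mem_closedBall.1 hy) fun h => ?_, rfl⟩
  exact absurd (mem_ball_iff_norm.1 hw.2) (not_lt.2 (ha y h))

end Vale.Agent.P073
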