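import Vale.Agent.P073.TStm

/-! P073: existence of admissible scale functions. -/

open MeasureTheory Set Metric Filter
open scoped ContDiff RealInnerProductSpace Topology ENNReal

namespace Vale.Agent.P073

namespace TBetaAux

theorem scale {χ : E → ℝ} (c1 : ContDiff ℝ ∞ χ) (c2 : HasCompactSupport χ) {b : ℝ} (hb : 0 < b) :
    ∃ a > 0, (∀ x, a * χ x ≤ b) ∧ ∀ x, ‖fderiv ℝ (fun y => a * χ y) x‖ ≤ b := by
  obtain ⟨M1, m1⟩ := c1.continuous.bounded_above_of_compact_support c2
  obtain ⟨M2, m2⟩ := (c1.continuous_fderiv (by simp)).bounded_above_of_compact_support (c2.fderiv ℝ)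
  have p1 := (norm_nonneg _).trans (m1 0)
  have p2 := (norm_nonneg _).trans (m2 0)
  have p3 : 0 < 1 + M1 + M2 := by linarith
  have a0 : 0 < b / (1 + M1 + M2) := div_pos hb p3
  have e : b / (1 + M1 + M2) * (1 + M1 + M2) = b := div_mul_cancel₀ _ p3.ne'
  refine ⟨b / (1 + M1 + M2), a0, fun x => ?_, fun x => ?_⟩
  · refine (mul_le_mul_of_nonneg_left ?_ a0.le).trans e.le
    linarith [(le_abs_self _).trans (show |χ x| ≤ M1 from m1 x)]
  · rw [fderiv_const_mul (c1.differentiable (by simp) x), norm_smul, Real.norm_of_nonneg a0.le]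
    refine (mul_le_mul_of_nonneg_left ?_ a0.le).trans e.le
    linarith [m2 x]

end TBetaAux

theorem t_beta : S_Beta := by
  intro Ω δ L hΩ hb hδ L0 hL
  obtain ⟨χ, hχ, hm⟩ := pou hΩ hb
  choose c c0 c1 using fun k => hδ _ (hχ k).2.1 (hχ k).2.2.1
  choose a a0 a1 a2 using fun k : ℕ => TBetaAux.scale (hχ k).1 (hχ k).2.1
    (b := min L (c k) / 2 / 2 ^ k) (by have := lt_min L0 (c0 k); positivity)
  have sm : ∀ k, ContDiff ℝ ∞ fun y => a k * χ k y := fun k => contDiff_const.mul (hχ k).1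
  have df := fun k x => (sm k).differentiable (by simp) x
  have bL : ∀ k : ℕ, min L (c k) / 2 / 2 ^ k ≤ L / 2 / 2 ^ k := fun k => by
    gcongr
    exact min_le_left _ _
  have bδ : ∀ k : ℕ, ∀ x ∈ tsupport (χ k), min L (c k) / 2 / 2 ^ k ≤ δ x / 2 / 2 ^ k :=
    fun k x hx => by
    gcongr
    exact (min_le_right _ _).trans (c1 k x hx)
  have d0 : ∀ x ∈ Ω, 0 < δ x := fun x hx => by
    obtain ⟨t, t0, t1⟩ := hδ {x} isCompact_singleton (singleton_subset_iff.2 hx)
    exact t0.trans_le (t1 x rfl)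
  obtain ⟨β, hβ⟩ : ∃ β : E → ℝ, ∀ x, β x = ∑' k, a k * χ k x := ⟨_, fun _ => rfl⟩
  have loc : ∀ x ∈ Ω, ∀ᶠ n in atTop, (β =ᶠ[𝓝 x] fun y => ∑ k ∈ Finset.range n, a k * χ k y) ∧
      ∑ k ∈ Finset.range n, χ k x = 1 := fun x hx => by
    obtain ⟨n0, h⟩ := hm x hx
    refine (eventually_ge_atTop n0).mono fun n hn => ⟨h.mono fun y hy => ?_, ?_⟩
    · rw [hβ, tsum_eq_sum fun k hk => by
        rw [hy.1 k (hn.trans (not_lt.1 fun l => hk (Finset.mem_range.2 l))), mul_zero]]
    · exact (Finset.sum_subset (Finset.range_mono hn) fun k _ hk =>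
        h.self_of_nhds.1 k (not_lt.1 fun l => hk (Finset.mem_range.2 l))).symm.trans
        h.self_of_nhds.2
  have out : ∀ x, x ∉ Ω → ∀ k, a k * χ k x = 0 := fun x hx k => by
    rw [image_eq_zero_of_notMem_tsupport fun l => hx ((hχ k).2.2.1 l), mul_zero]
  have fin : ∀ x, ∀ᶠ n in atTop, β x = ∑ k ∈ Finset.range n, a k * χ k x := fun x => by
    by_cases hx : x ∈ Ω
    · exact (loc x hx).mono fun n h => h.1.eq_of_nhds
    · exact Eventually.of_forall fun n => by simp only [hβ, out x hx, tsum_zero, Finset.sum_const_zero]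
  have lip : ∀ x y, |β x - β y| ≤ L * ‖x - y‖ := fun x y => by
    obtain ⟨n, e1, e2⟩ := ((fin x).and (fin y)).exists
    rw [e1, e2, ← Finset.sum_sub_distrib]
    refine (Finset.abs_sum_le_sum_abs _ _).trans (geo (by positivity) n fun k => ?_)
    have := convex_univ.norm_image_sub_le_of_norm_fderiv_le (fun z _ => df k z)
      (fun z _ => (a2 k z).trans (bL k)) (mem_univ y) (mem_univ x)
    exact (show |a k * χ k x - a k * χ k y| ≤ _ from this).trans_eq (by ring)
  have pos : ∀ x ∈ Ω, 0 < β x := fun x hx => by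
    obtain ⟨n, e1, e2⟩ := (loc x hx).exists
    rw [e1.eq_of_nhds]
    obtain ⟨k, hk, h⟩ := Finset.exists_ne_zero_of_sum_ne_zero (e2.trans_ne one_ne_zero)
    exact Finset.sum_pos' (fun j _ => mul_nonneg (a0 j).le ((hχ j).2.2.2 x))
      ⟨k, hk, mul_pos (a0 k) (((hχ k).2.2.2 x).lt_of_ne' h)⟩
  refine ⟨β, ⟨fun x hx => ?_, lip, pos, fun x hx y hy => ?_, fun x _ => ?_, hL, L0⟩,
    fun x hx => ⟨?_, ?_⟩⟩
  · obtain ⟨n, e1, -⟩ := (loc x hx).exists
    exact ((ContDiff.sum fun k _ => sm k).contDiffAt.congr_of_eventuallyEq e1).contDiffWithinAt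
  · by_contra h
    have e0 : β y = 0 := by simp only [hβ, out y h, tsum_zero]
    have h1 := lip x y
    have h2 := pos x hx
    rw [e0, sub_zero, abs_of_pos h2, norm_sub_rev] at h1
    rw [mem_closedBall, dist_eq_norm] at hy
    nlinarith
  · obtain ⟨n, e1⟩ := (fin x).exists
    rw [e1]
    exact geo L0.le n fun k => (a1 k x).trans (bL k)
  · obtain ⟨n, e1⟩ := (fin x).exists
    have := d0 x hx
    rw [e1]
    refine geo this.le n fun k => ?_
    by_cases hk : x ∈ tsupport (χ k)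
    · exact (a1 k x).trans (bδ k x hk)
    · rw [image_eq_zero_of_notMem_tsupport hk, mul_zero]
      positivity
  · obtain ⟨n, e1, -⟩ := (loc x hx).exists
    have := d0 x hx
    rw [e1.fderiv_eq, fderiv_fun_sum fun k _ => df k x]
    refine (norm_sum_le _ _).trans (geo this.le n fun k => ?_)
    by_cases hk : x ∈ tsupport (χ k)
    · exact (a2 k x).trans (bδ k x hk)
    · have e2 : fderiv ℝ (χ k) x = 0 :=
        image_eq_zero_of_notMem_tsupport fun l => hk (tsupport_fderiv_subset ℝ l)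
      rw [fderiv_const_mul ((hχ k).1.differentiable (by simp) x), e2, smul_zero, norm_zero]
      positivity

end Vale.Agent.P073
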