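import Vale.Agent.P073.TStm

open MeasureTheory Set Metric Filter
open scoped ContDiff RealInnerProductSpace Topology ENNReal

namespace Vale.Agent.P073

namespace TBilAux

noncomputable def A0 (a : Fin 3 → E) : E →L[ℝ] E :=
  ∑ j, (EuclideanSpace.proj j : E →L[ℝ] ℝ).smulRight (a j)

theorem A0_apply (a : Fin 3 → E) (v : E) : A0 a v = v 0 • a 0 + v 1 • a 1 + v 2 • a 2 := by
  simp [A0, Fin.sum_univ_three]

theorem inner_A0 (a : Fin 3 → E) (v w : E) :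
    ⟪w, A0 a v⟫ = v 0 * ⟪w, a 0⟫ + v 1 * ⟪w, a 1⟫ + v 2 * ⟪w, a 2⟫ := by
  rw [A0_apply, inner_add_right, inner_add_right, real_inner_smul_right, real_inner_smul_right,
    real_inner_smul_right]

theorem nsq (v : E) : ‖v‖ ^ 2 = v 0 ^ 2 + v 1 ^ 2 + v 2 ^ 2 := by
  rw [EuclideanSpace.real_norm_sq_eq, Fin.sum_univ_three]

theorem s3 (v : E) : (|v 0| + |v 1| + |v 2|) ^ 2 ≤ 3 * ‖v‖ ^ 2 := by
  rw [nsq, ← sq_abs (v 0), ← sq_abs (v 1), ← sq_abs (v 2)]
  nlinarith [sq_nonneg (|v 0| - |v 1|), sq_nonneg (|v 0| - |v 2|), sq_nonneg (|v 1| - |v 2|)]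

theorem s2 (v : E) : |v 0| + |v 1| + |v 2| ≤ 2 * ‖v‖ := by
  have h := s3 v
  have h0 := norm_nonneg v
  apply le_of_sq_le_sq _ (by positivity) |> fun x => x
  nlinarith

theorem lin {p q s x y z c : ℝ} (hx : |x| ≤ c) (hy : |y| ≤ c) (hz : |z| ≤ c) :
    |p * x + q * y + s * z| ≤ (|p| + |q| + |s|) * c := by
  have h1 : |p * x + q * y + s * z| ≤ |p * x| + |q * y| + |s * z| := abs_add_three _ _ _
  rw [abs_mul, abs_mul, abs_mul] at h1
  have := mul_le_mul_of_nonneg_left hx (abs_nonneg p)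
  have := mul_le_mul_of_nonneg_left hy (abs_nonneg q)
  have := mul_le_mul_of_nonneg_left hz (abs_nonneg s)
  linarith

def Gr (a : Fin 3 → E) : Prop :=
  ∀ i j, |⟪a i, a j⟫ - if i = j then 1 else 0| ≤ (1001 / 1000000 : ℝ)

theorem row {a : Fin 3 → E} (ha : Gr a) (v : E) (j : Fin 3) :
    |⟪a j, A0 a v⟫ - v j| ≤ (|v 0| + |v 1| + |v 2|) * (1001 / 1000000) := by
  have h := lin (p := v 0) (q := v 1) (s := v 2) (ha j 0) (ha j 1) (ha j 2)
  rw [inner_A0]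
  convert h using 2
  fin_cases j <;> simp <;> ring

theorem low {a : Fin 3 → E} (ha : Gr a) (v : E) : 998 / 1000 * ‖v‖ ≤ ‖A0 a v‖ := by
  have h := lin (p := v 0) (q := v 1) (s := v 2) (row ha v 0) (row ha v 1) (row ha v 2)
  have h1 : ‖A0 a v‖ ^ 2
      = v 0 * ⟪a 0, A0 a v⟫ + v 1 * ⟪a 1, A0 a v⟫ + v 2 * ⟪a 2, A0 a v⟫ := by
    rw [← real_inner_self_eq_norm_sq, real_inner_comm (A0 a v) (a 0),
      real_inner_comm (A0 a v) (a 1), real_inner_comm (A0 a v) (a 2)]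
    exact inner_A0 a v _
  have h2 := nsq v
  have h3 := s3 v
  have h4 := (abs_le.1 h).1
  apply le_of_sq_le_sq _ (norm_nonneg _) |> fun x => x
  nlinarith [sq_nonneg ‖v‖]

theorem close {a : Fin 3 → E} (ha : Gr a) {w u : E} {r : ℝ} (hr : 0 < r) (hu : ‖u‖ ≤ r)
    (hw : ∀ j, |⟪a j, w⟫ - u j| ≤ 9 / 4 * (1001 / 1000000) * r) :
    ‖w - A0 a u‖ ≤ 998 / 1000 * r / 100 := by
  have hinj : Function.Injective (A0 a : E →ₗ[ℝ] E) := by
    rw [injective_iff_map_eq_zero]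
    intro v hv
    have h := low ha v
    have hv' : A0 a v = 0 := hv
    rw [hv', norm_zero] at h
    have := norm_nonneg v
    exact norm_eq_zero.1 (by linarith)
  obtain ⟨s, hs⟩ := LinearMap.injective_iff_surjective.1 hinj (w - A0 a u)
  have hs' : A0 a s = w - A0 a u := hs
  have hd : ∀ j, |⟪w - A0 a u, a j⟫| ≤ 17 / 4 * (1001 / 1000000) * r := by
    intro j
    have h1 := abs_le.1 (hw j)
    have h2 := abs_le.1 (row ha u j)
    have h3 := s2 u
    rw [real_inner_comm, inner_sub_right, abs_le]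
    constructor <;> linarith [h1.1, h1.2, h2.1, h2.2]
  have h := lin (p := s 0) (q := s 1) (s := s 2) (hd 0) (hd 1) (hd 2)
  rw [← inner_A0, hs', real_inner_self_eq_norm_sq] at h
  have h1 := (abs_le.1 h).2
  have h2 := low ha s
  rw [hs'] at h2
  have h3 := s2 s
  have h4 : (|s 0| + |s 1| + |s 2|) * (17 / 4 * (1001 / 1000000) * r)
      ≤ (2 * (1000 / 998 * ‖w - A0 a u‖)) * (17 / 4 * (1001 / 1000000) * r) :=
    mul_le_mul_of_nonneg_right (by linarith) (by positivity)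
  by_contra hc
  push Not at hc
  nlinarith

theorem pol {h : E → E} {r : ℝ} (hr : 0 < r) (h0 : h 0 = 0)
    (hh : ∀ u u', ‖u‖ < r → ‖u'‖ < r →
      ‖u - u'‖ ≤ ‖h u - h u'‖ ∧ ‖h u - h u'‖ ≤ 2001 / 2000 * ‖u - u'‖)
    {u u' : E} (hu : ‖u‖ < r) (hu' : ‖u'‖ < r) :
    -(1001 / 1000000 * ‖u - u'‖ ^ 2) ≤ 2 * (⟪h u, h u'⟫ - ⟪u, u'⟫) ∧
      2 * (⟪h u, h u'⟫ - ⟪u, u'⟫) ≤ 1001 / 1000000 * (‖u‖ ^ 2 + ‖u'‖ ^ 2) := by
  have sq : ∀ x y : ℝ, 0 ≤ x → x ≤ y → y ≤ 2001 / 2000 * x →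
      x ^ 2 ≤ y ^ 2 ∧ y ^ 2 ≤ x ^ 2 + 1001 / 1000000 * x ^ 2 := by
    intro x y hx h1 h2
    constructor <;> nlinarith
  have hz : ‖(0 : E)‖ < r := by simpa using hr
  have a1 := hh u 0 hu hz
  have a2 := hh u' 0 hu' hz
  have a3 := hh u u' hu hu'
  rw [h0, sub_zero, sub_zero] at a1 a2
  have b1 := sq _ _ (norm_nonneg _) a1.1 a1.2
  have b2 := sq _ _ (norm_nonneg _) a2.1 a2.2
  have b3 := sq _ _ (norm_nonneg _) a3.1 a3.2
  have c1 := norm_sub_sq_real u u'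
  have c2 := norm_sub_sq_real (h u) (h u')
  constructor <;> linarith [b1.1, b1.2, b2.1, b2.2, b3.1, b3.2]

theorem core {h : E → E} {r : ℝ} (hr : 0 < r) (h0 : h 0 = 0)
    (hh : ∀ u u', ‖u‖ < r → ‖u'‖ < r →
      ‖u - u'‖ ≤ ‖h u - h u'‖ ∧ ‖h u - h u'‖ ≤ 2001 / 2000 * ‖u - u'‖) :
    ∃ A : E →L[ℝ] E, (∀ v, 998 / 1000 * ‖v‖ ≤ ‖A v‖) ∧
      ∀ u, ‖u‖ < r → ‖h u - A u‖ ≤ 998 / 1000 * r / 100 := by
  obtain ⟨e, he1, he2⟩ : ∃ e : Fin 3 → E, (∀ j, ‖e j‖ = r / 2) ∧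
      ∀ j (u : E), ⟪e j, u⟫ = r / 2 * u j ∧ ∀ i, e j i = if j = i then r / 2 else 0 := by
    refine ⟨fun j => EuclideanSpace.single j (r / 2), fun j => ?_, fun j u => ⟨?_, fun i => ?_⟩⟩
    · simp [abs_of_pos hr]
    · simp [EuclideanSpace.inner_single_left]
    · simp [eq_comm]
  have her : ∀ j, ‖e j‖ < r := fun j => by rw [he1]; linarith
  have hr2 : 0 < r ^ 2 := by positivity
  have hG : Gr fun j => (2 / r) • h (e j) := by
    intro i j
    have p := pol hr h0 hh (her i) (her j)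
    have c1 := norm_sub_sq_real (e i) (e j)
    have c2 : ⟪e i, e j⟫ = r ^ 2 / 4 * if i = j then 1 else 0 := by
      rw [(he2 i (e j)).1, (he2 j 0).2 i]
      by_cases hij : i = j
      · simp [hij]
        ring
      · simp [hij, Ne.symm hij]
    have c3 : (0 : ℝ) ≤ if i = j then 1 else 0 := by split_ifs <;> norm_num
    rw [he1, he1] at p c1
    have c4 : ⟪(2 / r) • h (e i), (2 / r) • h (e j)⟫ - (if i = j then 1 else 0)
        = (4 * (⟪h (e i), h (e j)⟫ - ⟪e i, e j⟫)) / r ^ 2 := by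
      rw [real_inner_smul_left, real_inner_smul_right, c2]
      field_simp
      ring
    have c5 : 0 ≤ ⟪e i, e j⟫ := by rw [c2]; positivity
    rw [c4, abs_le, le_div_iff₀ hr2, div_le_iff₀ hr2]
    constructor <;> nlinarith [p.1, p.2]
  refine ⟨A0 fun j => (2 / r) • h (e j), low hG, fun u hu => close hG hr hu.le fun j => ?_⟩
  have p := pol hr h0 hh (her j) hu
  have c1 : ‖e j - u‖ ≤ 3 / 2 * r := by
    have := norm_sub_le (e j) u
    rw [he1] at this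
    linarith
  have c2 : ‖e j - u‖ ^ 2 ≤ (3 / 2 * r) ^ 2 := pow_le_pow_left₀ (norm_nonneg _) c1 2
  have c3 : ‖u‖ ^ 2 ≤ r ^ 2 := pow_le_pow_left₀ (norm_nonneg _) hu.le 2
  rw [he1] at p
  have c4 : ⟪(2 / r) • h (e j), h u⟫ - u j = (2 * (⟪h (e j), h u⟫ - ⟪e j, u⟫)) / r := by
    rw [real_inner_smul_left, (he2 j u).1]
    field_simp
  rw [c4, abs_le, le_div_iff₀ hr, div_le_iff₀ hr]
  constructor <;> nlinarith [p.1, p.2]

end TBilAux

theorem t_bil : S_Bil := by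
  intro f B a ha hf y r hr hB
  have hm : ∀ u : E, ‖u‖ < r → y + u ∈ B := fun u hu => hB (by simpa using hu)
  obtain ⟨A, hA, hc⟩ := TBilAux.core (h := fun u => a⁻¹ • (f (y + u) - f y)) hr (by simp) (by
    intro u u' hu hu'
    have h := hf _ (hm u hu) _ (hm u' hu')
    have e1 : y + u - (y + u') = u - u' := by abel
    have e2 : ‖a⁻¹ • (f (y + u) - f y) - a⁻¹ • (f (y + u') - f y)‖
        = ‖f (y + u) - f (y + u')‖ / a := by
      rw [← smul_sub, sub_sub_sub_cancel_right, norm_smul, Real.norm_eq_abs,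
        abs_of_pos (inv_pos.2 ha)]
      field_simp
    rw [e1] at h
    rw [e2, le_div_iff₀ ha, div_le_iff₀ ha]
    constructor <;> linarith [h.1, h.2])
  refine ⟨a • A, f y - (a • A) y, 998 / 1000 * a, by positivity, fun v => ?_, fun z hz => ?_⟩
  · rw [ContinuousLinearMap.smul_apply, norm_smul, Real.norm_eq_abs, abs_of_pos ha]
    have := mul_le_mul_of_nonneg_left (hA v) ha.le
    linarith
  · have hz' : ‖z - y‖ < r := by simpa [dist_eq_norm] using hz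
    have h := hc _ hz'
    have e1 : f z - (f y - (a • A) y + (a • A) z)
        = a • (a⁻¹ • (f (y + (z - y)) - f y) - A (z - y)) := by
      rw [smul_sub, smul_smul, mul_inv_cancel₀ ha.ne', one_smul, map_sub, smul_sub,
        add_sub_cancel, ContinuousLinearMap.smul_apply, ContinuousLinearMap.smul_apply]
      abel
    rw [e1, norm_smul, Real.norm_eq_abs, abs_of_pos ha]
    have := mul_le_mul_of_nonneg_left h ha.le
    linarith

end Vale.Agent.P073
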