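import Vale.Agent.P073.TStm

/-! P073: the chain rule for a shift at a variable scale. -/

open MeasureTheory Set Metric Filter
open scoped ContDiff RealInnerProductSpace Topology ENNReal

namespace Vale.Agent.P073.TChainAux

variable {Ω : Set E} {β : E → ℝ} {L : ℝ} {z : E}

theorem cmp (h1 : S_CovLp) (hΩ : IsOpen Ω) (hβ : Adm Ω β L) (hz : ‖z‖ ≤ 1) {w : E → E}
    (hw : Integrable w (volume.restrict Ω)) :
    Integrable (fun x => w (x + β x • z)) (volume.restrict Ω) ∧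
      ∫ x in Ω, ‖w (x + β x • z)‖ ≤ 2 * ∫ x in Ω, ‖w x‖ := by
  obtain ⟨a, b⟩ := h1 1 Ω β L z le_rfl ENNReal.one_ne_top hΩ hβ hz w
  have f := (memLp_one_iff_integrable.2 hw).2
  have t : 2 * eLpNorm w 1 (volume.restrict Ω) ≠ ⊤ := ENNReal.mul_ne_top (by simp) f.ne
  refine ⟨memLp_one_iff_integrable.1 ⟨b hw.1, a.trans_lt t.lt_top⟩, ?_⟩
  rw [integral_norm_eq_lintegral_enorm (b hw.1), integral_norm_eq_lintegral_enorm hw.1,
    ← eLpNorm_one_eq_lintegral_enorm, ← eLpNorm_one_eq_lintegral_enorm]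
  refine (ENNReal.toReal_mono t a).trans (le_of_eq ?_)
  rw [ENNReal.toReal_mul]
  simp

theorem pdb (hβ : Adm Ω β L) (i : Fin 3) (x : E) : ‖pd i β x‖ ≤ 1 := by
  have a : ‖fderiv ℝ β x‖ ≤ L := norm_fderiv_le_of_lip' ℝ hβ.L0.le (.of_forall fun y => hβ.lip y x)
  have b := (fderiv ℝ β x).le_opNorm (EuclideanSpace.single i 1)
  rw [EuclideanSpace.norm_single, norm_one, mul_one] at b
  exact b.trans (a.trans (hβ.hL.trans (by norm_num)))

theorem dv (h1 : S_CovLp) (hΩ : IsOpen Ω) (hβ : Adm Ω β L) (hz : ‖z‖ ≤ 1) {H : Fin 3 → E → E}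
    (hH : ∀ j, Integrable (H j) (volume.restrict Ω)) (i : Fin 3) :
    Integrable (fun x => Dv β H i x z) (volume.restrict Ω) ∧ ∀ ε, (∀ j, ∫ x in Ω, ‖H j x‖ ≤ ε) →
      ∫ x in Ω, ‖Dv β H i x z‖ ≤ 8 * ε := by
  have c := fun j => cmp h1 hΩ hβ hz (hH j)
  have m : AEStronglyMeasurable (pd i β) (volume.restrict Ω) :=
    (measurable_fderiv_apply_const ℝ β _).aestronglyMeasurable
  have s : Integrable (fun x => ∑ j, z j • H j (x + β x • z)) (volume.restrict Ω) :=
    integrable_finsetSum _ fun j _ => (c j).1.smul (z j)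
  have I : Integrable (fun x => Dv β H i x z) (volume.restrict Ω) :=
    (c i).1.add (s.bdd_smul 1 m (.of_forall (pdb hβ i)))
  refine ⟨I, fun ε hε => ?_⟩
  have n : ∀ x, ‖Dv β H i x z‖ ≤ ‖H i (x + β x • z)‖ + ∑ j, ‖H j (x + β x • z)‖ := fun x => by
    refine norm_add_le_of_le le_rfl ?_
    rw [norm_smul]
    refine (mul_le_of_le_one_left (norm_nonneg _) (pdb hβ i x)).trans (norm_sum_le_of_le _ ?_)
    intro j _
    rw [norm_smul]
    exact mul_le_of_le_one_left (norm_nonneg _) ((PiLp.norm_apply_le z j).trans hz)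
  have s' : Integrable (fun x => ∑ j, ‖H j (x + β x • z)‖) (volume.restrict Ω) :=
    integrable_finsetSum _ fun j _ => (c j).1.norm
  refine (integral_mono I.norm ((c i).1.norm.add s') n).trans ?_
  rw [integral_add' (c i).1.norm s', integral_finsetSum _ fun j _ => (c j).1.norm,
    Fin.sum_univ_three]
  linarith [(c i).2, (c 0).2, (c 1).2, (c 2).2, hε i, hε 0, hε 1, hε 2]

theorem chain (hΩ : IsOpen Ω) (hβ : Adm Ω β L) (hz : ‖z‖ ≤ 1) {g : E → E}
    (hg : ContDiffOn ℝ ∞ g Ω) : ContDiffOn ℝ ∞ (fun x => g (x + β x • z)) Ω ∧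
      ∀ i, ∀ x ∈ Ω, pd i (fun x => g (x + β x • z)) x = Dv β (fun j => pd j g) i x z := by
  have mp : ∀ x ∈ Ω, x + β x • z ∈ Ω := fun x hx => hβ.sub x hx (by
    rw [mem_closedBall, dist_eq_norm, add_sub_cancel_left, norm_smul, Real.norm_of_nonneg
      (hβ.pos x hx).le]
    exact mul_le_of_le_one_right (hβ.pos x hx).le hz)
  refine ⟨hg.comp (contDiffOn_id.add (hβ.sm.smul contDiffOn_const)) mp, fun i x hx => ?_⟩
  have b : HasFDerivAt β (fderiv ℝ β x) x :=
    ((hβ.sm.contDiffAt (hΩ.mem_nhds hx)).differentiableAt (by simp)).hasFDerivAt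
  have d : HasFDerivAt g (fderiv ℝ g (x + β x • z)) (x + β x • z) :=
    ((hg.contDiffAt (hΩ.mem_nhds (mp x hx))).differentiableAt (by simp)).hasFDerivAt
  have e := d.comp x ((hasFDerivAt_id x).add (b.smul_const z))
  have zz : ∑ j, z j • EuclideanSpace.single j (1 : ℝ) = z := by
    ext k
    simp [Fin.sum_univ_three, Pi.single_apply]
    fin_cases k <;> simp
  have e2 : fderiv ℝ (fun x => g (x + β x • z)) x = _ := e.fderiv
  simp only [pd, Dv, e2, ← map_smul, ← map_sum, zz]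
  simp

end Vale.Agent.P073.TChainAux

namespace Vale.Agent.P073

open TChainAux

theorem t_chain (h1 : S_CovLp) : S_Chain := by
  intro Ω β L z f G hΩ hb hβ hz hf hS i ψ p1 p2 p3
  obtain ⟨M, hM⟩ := p1.continuous.bounded_above_of_compact_support p2
  obtain ⟨N, hN⟩ := (cont_pd p1 i).bounded_above_of_compact_support (cs_pd p2 i)
  have M0 : 0 ≤ M := (norm_nonneg _).trans (hM 0)
  have N0 : 0 ≤ N := (norm_nonneg _).trans (hN 0)
  have sm : ∀ (θ : E → ℝ) (C : ℝ) (w : E → E), Continuous θ → (∀ x, ‖θ x‖ ≤ C) →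
      Integrable w (volume.restrict Ω) → Integrable (fun x => θ x • w x) (volume.restrict Ω) ∧
      ‖∫ x in Ω, θ x • w x‖ ≤ C * ∫ x in Ω, ‖w x‖ := fun θ C w c n hw => by
    refine ⟨hw.bdd_smul C c.aestronglyMeasurable (.of_forall n), ?_⟩
    rw [← integral_const_mul]
    refine norm_integral_le_of_norm_le (hw.norm.const_mul C) (.of_forall fun x => ?_)
    rw [norm_smul]
    exact mul_le_mul_of_nonneg_right (n x) (norm_nonneg _)
  have i0 := memLp_one_iff_integrable.1 hS.2.1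
  have i1 := fun j => memLp_one_iff_integrable.1 (hS.2.2 j)
  rw [← add_eq_zero_iff_eq_neg, ← norm_le_zero_iff]
  refine le_of_forall_pos_le_add fun ε hε => ?_
  have K : 0 < 2 * N + 8 * M + 1 := by positivity
  obtain ⟨g, g1, -, -, g2, g3⟩ := whitney (p := 1) le_rfl ENNReal.one_ne_top hΩ hb hf hS.1 hS.2.1
    hS.2.2 (δ := fun _ => 1) (fun _ _ _ => ⟨1, one_pos, fun _ _ => le_rfl⟩)
    (ENNReal.ofReal_pos.2 (div_pos hε K)).ne'
  have cl : ∀ u w : E → E, ContinuousOn u Ω → Integrable w (volume.restrict Ω) →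
      eLpNorm (fun x => u x - w x) 1 (volume.restrict Ω) ≤
        ENNReal.ofReal (ε / (2 * N + 8 * M + 1)) →
      Integrable (fun x => u x - w x) (volume.restrict Ω) ∧
        ∫ x in Ω, ‖u x - w x‖ ≤ ε / (2 * N + 8 * M + 1) := fun u w c hw n => by
    have m : AEStronglyMeasurable (fun x => u x - w x) (volume.restrict Ω) :=
      (c.aestronglyMeasurable hΩ.measurableSet).sub hw.1
    refine ⟨memLp_one_iff_integrable.1 ⟨m, n.trans_lt ENNReal.ofReal_lt_top⟩, ?_⟩
    rw [integral_norm_eq_lintegral_enorm m, ← eLpNorm_one_eq_lintegral_enorm]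
    exact ENNReal.toReal_le_of_le_ofReal (div_pos hε K).le n
  obtain ⟨a1, a2⟩ := cl g f g1.continuousOn i0 g2
  have b := fun j => cl (pd j g) (G j) (contOn_pd hΩ g1 j) (i1 j) (g3 j)
  obtain ⟨c1, c2⟩ := chain hΩ hβ hz g1
  have w := weakD_smooth hΩ c1 i ψ p1 p2 p3
  obtain ⟨d1, d2⟩ := cmp h1 hΩ hβ hz a1
  obtain ⟨e1, e2⟩ := dv h1 hΩ hβ hz (H := fun j x => pd j g x - G j x) (fun j => (b j).1) i
  obtain ⟨u1, u2⟩ := sm _ N _ (cont_pd p1 i) hN d1
  obtain ⟨v1, v2⟩ := sm _ M _ p1.continuous hM e1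
  have x1 := (sm _ N _ (cont_pd p1 i) hN (cmp h1 hΩ hβ hz i0).1).1
  have y1 := (sm _ M _ p1.continuous hM (dv h1 hΩ hβ hz i1 i).1).1
  have s1 : ∫ x in Ω, pd i ψ x • g (x + β x • z) =
      (∫ x in Ω, pd i ψ x • (g (x + β x • z) - f (x + β x • z))) +
        ∫ x in Ω, pd i ψ x • f (x + β x • z) := by
    rw [← integral_add u1 x1]
    exact integral_congr_ae (.of_forall fun x => by simp [smul_sub])
  have s2 : ∫ x in Ω, ψ x • pd i (fun x => g (x + β x • z)) x =
      (∫ x in Ω, ψ x • Dv β (fun j x => pd j g x - G j x) i x z) +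
        ∫ x in Ω, ψ x • Dv β G i x z := by
    rw [← integral_add v1 y1]
    refine setIntegral_congr_fun hΩ.measurableSet fun x hx => ?_
    simp only [c2 i x hx, Dv, smul_sub, Finset.sum_sub_distrib, smul_add]
    abel
  simp only [s1, s2] at w
  have e3 := e2 _ fun j => (b j).2
  have fin : N * (2 * (ε / (2 * N + 8 * M + 1))) + M * (8 * (ε / (2 * N + 8 * M + 1))) ≤ 0 + ε := by
    have t := mul_div_cancel₀ ε K.ne'
    have := div_pos hε K
    linarith
  refine le_trans (le_of_eq ?_) ((norm_add_le_of_le (u2.trans (mul_le_mul_of_nonneg_left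
    (d2.trans (by linarith)) N0)) (v2.trans (mul_le_mul_of_nonneg_left e3 M0))).trans fin)
  rw [← norm_neg, eq_sub_of_add_eq w]
  congr 1
  abel

end Vale.Agent.P073
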