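import Vale.Agent.P073.TStm

/-! P073: change of variables for the map `x + β x • z`. -/

open MeasureTheory Set Metric Filter
open scoped ContDiff RealInnerProductSpace Topology ENNReal

namespace Vale.Agent.P073

namespace TCovAux

theorem det_eq (φ : E →L[ℝ] ℝ) (z : E) :
    (ContinuousLinearMap.id ℝ E + φ.smulRight z).det = 1 + φ z := by
  have h : ((ContinuousLinearMap.id ℝ E + φ.smulRight z : E →L[ℝ] E) : E →ₗ[ℝ] E) =
      LinearMap.transvection (φ : E →ₗ[ℝ] ℝ) z := by
    refine LinearMap.ext fun x => ?_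
    rw [LinearMap.transvection.apply]
    simp
  rw [ContinuousLinearMap.det, h, LinearMap.transvection.det]
  rfl

theorem inj (β : E → ℝ) (L : ℝ) (z : E) (hl : ∀ x y, |β x - β y| ≤ L * ‖x - y‖)
    (hL : L ≤ 1 / 8) (hz : ‖z‖ ≤ 1) : Function.Injective fun x => x + β x • z := by
  intro x y hxy
  have h0 : x + β x • z = y + β y • z := hxy
  have h1 : x - y = (β y - β x) • z := by
    rw [sub_smul]
    have : x - y = (x + β x • z) - (y + β y • z) + (β y • z - β x • z) := by abel
    rw [this, h0, sub_self, zero_add]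
  have h2 : ‖x - y‖ ≤ |β x - β y| := by
    rw [h1, norm_smul, Real.norm_eq_abs, abs_sub_comm]
    have := abs_nonneg (β x - β y)
    nlinarith
  have h3 := hl x y
  have h4 := norm_nonneg (x - y)
  have h5 : ‖x - y‖ = 0 := by nlinarith
  exact sub_eq_zero.1 (norm_eq_zero.1 h5)

end TCovAux

theorem t_cov : S_Cov := by
  intro Ω β L z hΩ hA hz w
  have hd : ∀ x ∈ Ω, HasFDerivWithinAt (fun x => x + β x • z)
      (ContinuousLinearMap.id ℝ E + (fderiv ℝ β x).smulRight z) Ω x := by
    intro x hx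
    have h1 : DifferentiableAt ℝ β x :=
      (hA.sm.contDiffAt (hΩ.mem_nhds hx)).differentiableAt (by simp)
    exact ((hasFDerivAt_id x).add (h1.hasFDerivAt.smul_const z)).hasFDerivWithinAt
  have hcov := lintegral_image_eq_lintegral_abs_det_fderiv_mul volume hΩ.measurableSet hd
    (TCovAux.inj β L z hA.lip hA.hL hz).injOn w
  have him : (fun x => x + β x • z) '' Ω ⊆ Ω := by
    rintro _ ⟨x, hx, rfl⟩
    refine hA.sub x hx ?_
    rw [mem_closedBall, dist_eq_norm, add_sub_cancel_left, norm_smul, Real.norm_eq_abs,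
      abs_of_pos (hA.pos x hx)]
    have := hA.pos x hx
    nlinarith
  have hdet : ∀ x, (1 : ℝ≥0∞) ≤ 2 * ENNReal.ofReal
      |(ContinuousLinearMap.id ℝ E + (fderiv ℝ β x).smulRight z).det| := by
    intro x
    have h1 : ‖fderiv ℝ β x‖ ≤ L :=
      norm_fderiv_le_of_lip' ℝ hA.L0.le (Eventually.of_forall fun y => hA.lip y x)
    have h2 : |fderiv ℝ β x z| ≤ 1 / 8 := by
      have h3 := (fderiv ℝ β x).le_opNorm z
      rw [Real.norm_eq_abs] at h3
      have h4 := norm_nonneg (fderiv ℝ β x)
      have h5 := hA.hL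
      nlinarith
    have h6 : (1 / 2 : ℝ) ≤ |1 + fderiv ℝ β x z| := by
      have := (abs_le.1 h2).1
      exact le_trans (by linarith) (le_abs_self _)
    rw [TCovAux.det_eq]
    calc (1 : ℝ≥0∞) = ENNReal.ofReal (2 * (1 / 2)) := by norm_num
      _ = 2 * ENNReal.ofReal (1 / 2) := by
          rw [ENNReal.ofReal_mul (by norm_num)]
          simp
      _ ≤ 2 * ENNReal.ofReal |1 + fderiv ℝ β x z| := by
          gcongr
  calc ∫⁻ x in Ω, w (x + β x • z)
      ≤ ∫⁻ x in Ω, 2 * (ENNReal.ofReal
          |(ContinuousLinearMap.id ℝ E + (fderiv ℝ β x).smulRight z).det| * w (x + β x • z)) := by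
        refine lintegral_mono fun x => ?_
        rw [← mul_assoc]
        calc w (x + β x • z) = 1 * w (x + β x • z) := (one_mul _).symm
          _ ≤ _ := by
            gcongr
            exact hdet x
    _ = 2 * ∫⁻ x in Ω, ENNReal.ofReal
          |(ContinuousLinearMap.id ℝ E + (fderiv ℝ β x).smulRight z).det| * w (x + β x • z) :=
        lintegral_const_mul' _ _ (by simp)
    _ = 2 * ∫⁻ x in (fun x => x + β x • z) '' Ω, w x := by rw [hcov]
    _ ≤ 2 * ∫⁻ x in Ω, w x := by
        gcongr

end Vale.Agent.P073
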