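import Vale.Agent.P073.TStm

open MeasureTheory Set Metric Filter
open scoped ContDiff RealInnerProductSpace Topology ENNReal

namespace Vale.Agent.P073

namespace TCovLpAux

theorem cont {Ω : Set E} {β : E → ℝ} {L : ℝ} (h : Adm Ω β L) : Continuous β :=
  (LipschitzWith.of_dist_le_mul (K := ⟨L, h.L0.le⟩) fun x y => by
    rw [Real.dist_eq, dist_eq_norm]
    exact h.lip x y).continuous

end TCovLpAux

open TCovLpAux in
theorem t_covLp (h1 : S_Cov) : S_CovLp := by
  intro p Ω β L z hp hp' hΩ hA hz w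
  have hp0 : p ≠ 0 := (zero_lt_one.trans_le hp).ne'
  have hq : 1 ≤ p.toReal := by
    simpa using ENNReal.toReal_mono hp' hp
  have hq0 : 0 ≤ 1 / p.toReal := by positivity
  refine ⟨?_, fun hw => ?_⟩
  · rw [eLpNorm_eq_lintegral_rpow_enorm_toReal hp0 hp',
      eLpNorm_eq_lintegral_rpow_enorm_toReal hp0 hp']
    refine (ENNReal.rpow_le_rpow (h1 Ω β L z hΩ hA hz fun x => ‖w x‖ₑ ^ p.toReal) hq0).trans ?_
    rw [ENNReal.mul_rpow_of_nonneg _ _ hq0]
    refine mul_le_mul_left ?_ _
    calc (2 : ℝ≥0∞) ^ (1 / p.toReal) ≤ 2 ^ (1 : ℝ) :=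
          ENNReal.rpow_le_rpow_of_exponent_le one_le_two
            ((div_le_one (by linarith)).2 hq)
      _ = 2 := ENNReal.rpow_one _
  · have hm : Measurable fun x : E => x + β x • z :=
      (continuous_id.add ((cont hA).smul continuous_const)).measurable
    refine hw.comp_quasiMeasurePreserving ⟨hm, Measure.AbsolutelyContinuous.mk fun s hs h0 => ?_⟩
    have k := h1 Ω β L z hΩ hA hz (s.indicator 1)
    rw [lintegral_indicator_one hs, h0, mul_zero] at k
    rw [Measure.map_apply hm hs, ← lintegral_indicator_one (hs.preimage hm)]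
    exact le_antisymm k bot_le

end Vale.Agent.P073
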