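import Vale.Agent.P073.TStm

/-! P073: the averaged map at a variable scale for nearly affine maps. -/

open MeasureTheory Set Metric Filter
open scoped ContDiff RealInnerProductSpace Topology ENNReal

namespace Vale.Agent.P073

namespace TDFAux

theorem near_mono {f : E → E} {B C : Set E} (h : NearAff f C) (hs : B ⊆ C) : NearAff f B :=
  fun y r r0 hb => h y r r0 (hb.trans hs)

theorem exists_min (A : E →L[ℝ] E) : ∃ v0 : E, ‖v0‖ = 1 ∧ ∀ v, ‖A v0‖ * ‖v‖ ≤ ‖A v‖ := by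
  have hne : (sphere (0 : E) 1).Nonempty := NormedSpace.sphere_nonempty.2 zero_le_one
  have hc : ContinuousOn (fun v : E => ‖A v‖) (sphere (0 : E) 1) :=
    (A.continuous.norm).continuousOn
  obtain ⟨v0, hv, hm⟩ := (isCompact_sphere (0 : E) 1).exists_isMinOn hne hc
  refine ⟨v0, by simpa using hv, fun v => ?_⟩
  by_cases h0 : v = 0
  · simp [h0]
  · have hp : 0 < ‖v‖ := norm_pos_iff.2 h0
    have hu : (‖v‖⁻¹ • v) ∈ sphere (0 : E) 1 := by
      rw [mem_sphere_zero_iff_norm, norm_smul, norm_inv, norm_norm, inv_mul_cancel₀ hp.ne']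
    have h1 : ‖A v0‖ ≤ ‖A (‖v‖⁻¹ • v)‖ := hm hu
    rw [map_smul, norm_smul, norm_inv, norm_norm] at h1
    calc ‖A v0‖ * ‖v‖ ≤ ‖v‖⁻¹ * ‖A v‖ * ‖v‖ := mul_le_mul_of_nonneg_right h1 hp.le
      _ = ‖A v‖ := by field_simp

theorem exists_gauge {Ω : Set E} {f : E → E}
    (h : ∀ x ∈ Ω, ∃ r > 0, ball x r ⊆ Ω ∧ NearAff f (ball x r)) :
    ∃ δ : E → ℝ, Ga Ω δ ∧ ∀ x ∈ Ω, ∀ s, s ≤ δ x →
      ball x (4 * s) ⊆ Ω ∧ NearAff f (ball x (4 * s)) := by
  obtain ⟨δ, hδ, hG⟩ := gauge (Ω := Ω)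
    (fun x r => ball x (4 * r) ⊆ Ω ∧ NearAff f (ball x (4 * r)))
    (fun x r r' _ hr hq => by
      have hs : ball x (4 * r') ⊆ ball x (4 * r) := ball_subset_ball (by linarith)
      exact ⟨hs.trans hq.1, near_mono hq.2 hs⟩)
    (fun x hx => by
      obtain ⟨r, r0, hb, hn⟩ := h x hx
      refine ⟨r / 8, by positivity, ?_⟩
      filter_upwards [ball_mem_nhds x (half_pos r0)] with y hy
      have hs : ball y (4 * (r / 8)) ⊆ ball x r := by
        apply ball_subset_ball'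
        have := mem_ball.1 hy
        linarith
      exact ⟨hs.trans hb, near_mono hn hs⟩)
  refine ⟨δ, hG, fun x hx s hs => ?_⟩
  have hq := (hδ x hx).2
  have hs' : ball x (4 * s) ⊆ ball x (4 * δ x) := ball_subset_ball (by linarith)
  exact ⟨hs'.trans hq.1, near_mono hq.2 hs'⟩

end TDFAux

theorem t_dF (h1 : S_Av) (h2 : S_AvC) (h3 : S_Beta) (h4 : S_Nu) (h5 : S_Loc) : S_DF := by
  intro p Ω f G ε hp hp' hΩ hb hf hS hN hε
  have := h4.1
  have hν : ∀ᵐ z ∂nuB, ‖z‖ ≤ 1 := h4.2.1.mono fun z hz => hz.le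
  obtain ⟨δ, hG, hδ⟩ := TDFAux.exists_gauge hN
  obtain ⟨ρ, ρ0, hρ⟩ := h1 p Ω nuB f G ε hp hp' hΩ hb hν hf hS hε
  obtain ⟨β, hA, hβ⟩ := h3 Ω δ (min ρ (1 / 8)) hΩ hb hG (lt_min ρ0 (by norm_num))
    (min_le_right _ _)
  obtain ⟨H, hH, he, hi⟩ := hρ β _ hA (min_le_left _ _)
  refine ⟨Av nuB β f, H, β, (h2 Ω β _ nuB f hΩ hA hν hf).1, hH, he, hi, ⟨_, hA⟩, fun x hx => ?_⟩
  obtain ⟨hs, hn⟩ := hδ x hx (β x) (hβ x hx).1
  have b0 : 0 < β x := hA.pos x hx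
  obtain ⟨A, b, m, m0, hm, hz⟩ := hn x (4 * β x) (by positivity) subset_rfl
  obtain ⟨v0, hv, hmin⟩ := TDFAux.exists_min A
  have hmv : m ≤ ‖A v0‖ := by simpa [hv] using hm v0
  have a0 : 0 < ‖A v0‖ := m0.trans_le hmv
  have hz' : ∀ z ∈ ball x (4 * β x), ‖f z - (b + A z)‖ ≤ ‖A v0‖ * (4 * β x) / 100 := fun z hz1 =>
    (hz z hz1).trans (by gcongr)
  obtain ⟨k1, k2⟩ := h5 Ω β _ ‖A v0‖ f A b x hΩ hA hf hx hs a0 hz'
  refine ⟨hs, A, v0, hv, a0, hmin, fun z hz1 => ?_, k1 x (mem_ball_self (by positivity)), k2⟩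
  have hd : ‖z - x‖ = β x := by rwa [mem_sphere_iff_norm] at hz1
  have e1 := hz' z (by rw [mem_ball_iff_norm, hd]; linarith)
  have e2 := hz' x (mem_ball_self (by positivity))
  have e3 := hmin (z - x)
  have e4 : A (z - x) = (f z - f x) - (f z - (b + A z)) + (f x - (b + A x)) := by
    rw [map_sub]; abel
  have e5 : ‖A (z - x)‖ ≤ ‖f z - f x‖ + ‖f z - (b + A z)‖ + ‖f x - (b + A x)‖ := by
    rw [e4]
    exact (norm_add_le _ _).trans (add_le_add (norm_sub_le _ _) le_rfl)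
  rw [hd] at e3
  linarith

end Vale.Agent.P073
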