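import Vale.Agent.P073.TStm

/-! P073: a smooth map close to a homeomorphism, with locally positive directional derivatives,
is a diffeomorphism. -/

open MeasureTheory Set Metric Filter
open scoped ContDiff RealInnerProductSpace Topology ENNReal

namespace Vale.Agent.P073

theorem t_dif : S_Dif := by
  intro Ω Λ f g τ R hΩ hΛ hb hc hf h1 h
  have inj : ∀ x ∈ Ω, ∀ y ∈ Ω, τ y ≤ τ x → g x = g y → x = y := fun x hx y hy l e => by
    by_contra n
    obtain ⟨a1, -, a3, a4, a5, a6⟩ := h x hx
    obtain ⟨c, a⟩ := a6 (y - x) (sub_ne_zero.2 (Ne.symm n))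
    have b : y ∈ ball x (R x) := a5 y hy (by
      have t := dist_triangle_left (f x) (f y) (g x)
      rw [dist_eq_norm (g x), e, dist_eq_norm (g y), ← e] at t
      have := (h y hy).1
      rw [← e] at this
      linarith)
    have s := (convex_ball x (R x)).segment_subset (mem_ball_self a3) b
    exact ne_of_pos (fun z hz =>
      (h1.contDiffAt (hΩ.mem_nhds (a4 (s hz)))).differentiableAt (by simp))
      (fun z hz => a z (s hz)) e
  obtain ⟨o, d⟩ := diffeo_of hΩ h1 (fun x hx y hy e => (le_total (τ y) (τ x)).elim
    (fun l => inj x hx y hy l e) fun l => (inj y hy x hx l e.symm).symm) fun x hx =>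
    (injective_iff_map_eq_zero _).2 fun v e => by
      by_contra n
      obtain ⟨c, a⟩ := (h x hx).2.2.2.2.2 v n
      simpa [e] using a x (mem_ball_self (h x hx).2.2.1)
  rwa [onto hΛ hb hc hf h1.continuousOn o fun x hx => (h x hx).1.trans (h x hx).2.1] at d

end Vale.Agent.P073
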