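import Vale.Agent.P073.TStm

/-! P073: from norm estimates to approximation in the Sobolev space. -/

open MeasureTheory Set Metric Filter
open scoped ContDiff RealInnerProductSpace Topology ENNReal

namespace Vale.Agent.P073

namespace TFinAux

theorem mem {p : ℝ≥0∞} {Ω : Set E} {A B : E → E} (hΩ : IsOpen Ω) (hA : ContinuousOn A Ω)
    (hB : MemLp B p (volume.restrict Ω)) (h : eLpNorm (A - B) p (volume.restrict Ω) ≤ 1) :
    MemLp A p (volume.restrict Ω) := by
  have h1 : MemLp (A - B) p (volume.restrict Ω) :=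
    ⟨(hA.aestronglyMeasurable hΩ.measurableSet).sub hB.1, h.trans_lt ENNReal.one_lt_top⟩
  have h2 := h1.add hB
  rwa [sub_add_cancel] at h2

end TFinAux

theorem t_fin : S_Fin := by
  intro p Ω Λ f G _ hΩ hs h ε hε
  obtain ⟨g, g1, g2, g3⟩ := h (min ε 1) (lt_min hε one_pos).ne'
  exact ⟨g, g1, ⟨weakD_smooth hΩ g1.1,
    TFinAux.mem hΩ g1.1.continuousOn hs.2.1 (g2.trans (min_le_right _ _)),
    fun i => TFinAux.mem hΩ (contOn_pd hΩ g1.1 i) (hs.2.2 i) ((g3 i).trans (min_le_right _ _))⟩,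
    g2.trans (min_le_left _ _), fun i => (g3 i).trans (min_le_left _ _)⟩

end Vale.Agent.P073
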