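import Vale.Agent.P073.TStm

/-! P073: gauges. -/

open MeasureTheory Set Metric Filter
open scoped ContDiff RealInnerProductSpace Topology ENNReal

namespace Vale.Agent.P073

namespace TGaAux

theorem of_cont {Ω : Set E} {δ : E → ℝ} (h : ContinuousOn δ Ω) (h0 : ∀ x ∈ Ω, 0 < δ x) :
    Ga Ω δ := fun _ hK hs => hK.exists_forall_le' (h.mono hs) fun x hx => h0 x (hs hx)

end TGaAux

theorem t_ga : S_Ga := by
  intro Ω hΩ
  refine ⟨fun δ => TGaAux.of_cont, fun δ η h1 h2 => ⟨fun K hK hs => ?_, fun K hK hs => ?_⟩,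
    fun δ h x hx => ?_, fun δ η h hle K hK hs => ?_, fun hb => ?_,
    fun c hc K _ _ => ⟨c, hc, fun _ _ => le_rfl⟩⟩
  · obtain ⟨a, ha, ha'⟩ := h1 K hK hs
    obtain ⟨b, hb, hb'⟩ := h2 K hK hs
    exact ⟨min a b, lt_min ha hb, fun x hx => min_le_min (ha' x hx) (hb' x hx)⟩
  · obtain ⟨a, ha, ha'⟩ := h1 K hK hs
    obtain ⟨b, hb, hb'⟩ := h2 K hK hs
    exact ⟨a * b, mul_pos ha hb, fun x hx =>
      mul_le_mul (ha' x hx) (hb' x hx) hb.le (ha.le.trans (ha' x hx))⟩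
  · obtain ⟨a, ha, ha'⟩ := h {x} isCompact_singleton (singleton_subset_iff.2 hx)
    exact ha.trans_le (ha' x rfl)
  · obtain ⟨a, ha, ha'⟩ := h K hK hs
    exact ⟨a, ha, fun x hx => (ha' x hx).trans (hle x (hs hx))⟩
  · exact TGaAux.of_cont (continuous_infDist_pt _).continuousOn fun x hx =>
      (hΩ.isClosed_compl.notMem_iff_infDist_pos (ne_compl hb)).1 fun h => h hx

end Vale.Agent.P073
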