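import Vale.Agent.P073.TStm

/-! P073: growth of the average along a segment. -/

open MeasureTheory Set Metric Filter
open scoped ContDiff RealInnerProductSpace Topology ENNReal

namespace Vale.Agent.P073

namespace TGrowAux

theorem rep {e : E} (he : ‖e‖ = 1) (F : E → E) (c : E)
    (hF : ContinuousOn (fun l : ℝ => F (l • e)) (Icc (-1) 1)) :
    ⟪c, ∫ u, F u ∂nuE e⟫ = 1 / 2 * ∫ l in (-1 : ℝ)..1, ⟪c, F (l • e)⟫ := by
  have h0 : e ≠ 0 := by
    rintro rfl
    simp at he
  have h1 : (-1 : ℝ) ≤ 1 := by norm_num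
  unfold nuE
  rw [(isClosedEmbedding_smul_left (𝕜 := ℝ) h0).measurableEmbedding.integral_map,
    ProbabilityTheory.cond, integral_smul_measure, Real.volume_Icc, integral_Icc_eq_integral_Ioc,
    ← intervalIntegral.integral_of_le h1, inner_smul_right]
  have e1 : (ENNReal.ofReal (1 - -1))⁻¹.toReal = 1 / 2 := by
    rw [ENNReal.toReal_inv, ENNReal.toReal_ofReal (by norm_num)]
    norm_num
  rw [e1]
  exact congrArg _ ((innerSL ℝ c).intervalIntegral_comp_comm
    (hF.intervalIntegrable_of_Icc h1)).symm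

theorem mem {y v : E} {ρ : ℝ} (h : ‖v‖ ≤ ρ) : y + v ∈ closedBall y ρ := by
  simpa using h

end TGrowAux

open TGrowAux in
theorem t_grow (h1 : S_One) : S_Grow := by
  intro f B e c w y t b b' μ ρ he hf hB ht hb hb' hbb hr1 hr2 hw hm hμ
  have hs : ∀ s : ℝ, |s| ≤ ρ → y + s • e ∈ B := fun s h =>
    hB (mem (by rwa [norm_smul, he, mul_one]))
  have hl : ∀ l ∈ Icc (-1 : ℝ) 1, ∀ a : ℝ, 0 < a → -a ≤ l * a ∧ l * a ≤ a := fun l h a ha =>
    ⟨by nlinarith [h.1], by nlinarith [h.2]⟩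
  have hq : ∀ l ∈ Icc (-1 : ℝ) 1, y + t • (e + w) + b' • l • e ∈ B := by
    intro l h
    rw [add_assoc]
    refine hB (mem ((norm_add_le _ _).trans (le_trans ?_ hr2)))
    rw [norm_smul, norm_smul, norm_smul, he, mul_one, Real.norm_of_nonneg ht,
      Real.norm_of_nonneg hb'.le]
    have : ‖l‖ ≤ 1 := abs_le.2 h
    nlinarith
  have hq0 : ∀ l ∈ Icc (-1 : ℝ) 1, y + b • l • e ∈ B := by
    intro l h
    rw [smul_smul]
    have := hl l h b hb
    exact hs _ (abs_le.2 ⟨by linarith [this.1], by linarith [this.2]⟩)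
  have c1 : ContinuousOn (fun l : ℝ => f (y + t • (e + w) + b' • l • e)) (Icc (-1) 1) :=
    hf.comp (by fun_prop) hq
  have c0 : ContinuousOn (fun l : ℝ => f (y + b • l • e)) (Icc (-1) 1) :=
    hf.comp (by fun_prop) hq0
  have cV : ContinuousOn (fun s : ℝ => f (y + s • e)) (Icc (-b) (b + t / 2)) :=
    hf.comp (f := fun s : ℝ => y + s • e) (by fun_prop) fun s h =>
      hs s (abs_le.2 ⟨by linarith [h.1], by linarith [h.2]⟩)
  have cU : ContinuousOn (fun s : ℝ => ⟪c, f (y + s • e)⟫) (Icc (-b) (b + t / 2)) :=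
    continuousOn_const.inner cV
  have k := h1 (fun s : ℝ => ⟪c, f (y + s • e)⟫) b (t / 2) μ hb (by linarith) cU fun s h => by
    simpa only [inner_sub_right] using hμ s h
  have h11 : (-1 : ℝ) ≤ 1 := by norm_num
  have m : (∫ l in (-1 : ℝ)..1, ⟪c, f (y + (t / 2 + l * b) • e)⟫) ≤
      ∫ l in (-1 : ℝ)..1, ⟪c, f (y + t • (e + w) + b' • l • e)⟫ := by
    have hin : ∀ l ∈ Icc (-1 : ℝ) 1, y + (t / 2 + l * b) • e ∈ B := fun l h => by
      have := hl l h b hb
      exact hs _ (abs_le.2 ⟨by linarith [this.1], by linarith [this.2]⟩)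
    have c2 : ContinuousOn (fun l : ℝ => f (y + (t / 2 + l * b) • e)) (Icc (-1) 1) :=
      hf.comp (by fun_prop) hin
    refine intervalIntegral.integral_mono_on h11
      ((continuousOn_const.inner c2).intervalIntegrable_of_Icc h11)
      ((continuousOn_const.inner c1).intervalIntegrable_of_Icc h11) fun l h => ?_
    have a1 := hl l h b' hb'
    have hqB : y + (t + l * b') • e ∈ B :=
      hs _ (abs_le.2 ⟨by linarith [a1.1], by linarith [a1.2]⟩)
    have e1 : y + t • (e + w) + b' • l • e = y + (t + l * b') • e + t • w := by module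
    have e2 : y + (t + l * b') • e = y + (t / 2 + l * b) • e + (t / 2 + l * (b' - b)) • e := by
      module
    have a2 : |l * (b' - b)| ≤ t / 2 := by
      rw [abs_mul]
      exact (mul_le_of_le_one_left (abs_nonneg _) (abs_le.2 h)).trans hbb
    rw [e1, hw _ hqB (e1 ▸ hq l h), e2]
    exact hm _ (hin l h) _ (by linarith [(abs_le.1 a2).1]) (e2 ▸ hqB)
  have e3 : (∫ l in (-1 : ℝ)..1, ⟪c, f (y + b • l • e)⟫) =
      ∫ l in (-1 : ℝ)..1, ⟪c, f (y + (l * b) • e)⟫ := by
    simp only [smul_smul, mul_comm]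
  rw [inner_sub_right, rep he _ c c1, rep he _ c c0, e3]
  have e4 : μ * t / (4 * b) = 1 / 2 * (μ * (t / 2) / b) := by
    field_simp
    ring
  rw [e4]
  linarith

end Vale.Agent.P073
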