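import Vale.Agent.P073.TStm

/-! P073: local infimum of a gauge. -/

open MeasureTheory Set Metric Filter
open scoped ContDiff RealInnerProductSpace Topology ENNReal

namespace Vale.Agent.P073

theorem t_inf : S_Inf := by
  intro Ω δ hΩ hb hδ
  obtain ⟨δ', h1, h2⟩ := gauge (Ω := Ω)
    (fun y r => ∀ w ∈ closedBall y (infDist y Ωᶜ / 2), r ≤ δ w)
    (fun x r r' _ l h w hw => l.trans (h w hw)) (fun x hx => by
      have p := (hΩ.isClosed_compl.notMem_iff_infDist_pos (ne_compl hb)).1 (not_not.2 hx)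
      obtain ⟨c1, c2⟩ := cpt hb (half_pos (half_pos p))
      obtain ⟨c, c0, hc⟩ := hδ _ c1 c2
      refine ⟨c, c0, ((continuous_infDist_pt Ωᶜ).continuousAt.eventually
        (lt_mem_nhds (half_lt_self p))).mono fun y hy w hw => hc w ?_⟩
      have h3 : infDist y Ωᶜ ≤ infDist w Ωᶜ + dist y w := infDist_le_infDist_add_dist
      have h4 : dist y w ≤ infDist y Ωᶜ / 2 := mem_closedBall'.1 hw
      change infDist x Ωᶜ / 2 / 2 ≤ infDist w Ωᶜ
      linarith)
  exact ⟨δ', h2, fun y hy => (h1 y hy).2⟩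

end Vale.Agent.P073
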