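import Vale.Agent.P073.TStm

open MeasureTheory Set Metric Filter
open scoped ContDiff RealInnerProductSpace Topology ENNReal

namespace Vale.Agent.P073

namespace TJointAux

theorem cont_beta {Ω : Set E} {β : E → ℝ} {L : ℝ} (h : Adm Ω β L) : Continuous β := by
  refine (LipschitzWith.of_dist_le_mul (K := ⟨L, h.L0.le⟩) fun x y => ?_).continuous
  rw [Real.dist_eq, dist_eq_norm]
  exact h.lip x y

theorem bound (h1 : S_Cov) {Ω : Set E} {β : E → ℝ} {L : ℝ} (ν : Measure E)
    [IsProbabilityMeasure ν] (hΩ : IsOpen Ω) (hA : Adm Ω β L) (hν : ∀ᵐ z ∂ν, ‖z‖ ≤ 1)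
    (w : E → ℝ≥0∞)
    (hw : AEMeasurable (fun q : E × E => w (q.1 + β q.1 • q.2)) ((volume.restrict Ω).prod ν)) :
    ∫⁻ q, w (q.1 + β q.1 • q.2) ∂((volume.restrict Ω).prod ν) ≤ 2 * ∫⁻ x in Ω, w x := by
  rw [lintegral_prod_symm _ hw]
  calc _ ≤ ∫⁻ _, 2 * ∫⁻ x in Ω, w x ∂volume ∂ν := by
        refine lintegral_mono_ae ?_
        filter_upwards [hν] with z hz
        exact h1 Ω β L z hΩ hA hz w
    _ = _ := by rw [lintegral_const, measure_univ, mul_one]

end TJointAux

theorem t_joint (h1 : S_Cov) : S_Joint := by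
  intro Ω β L ν _ w hΩ hA hν
  have hβ := TJointAux.cont_beta hA
  have hΨ : Measurable (fun q : E × E => q.1 + β q.1 • q.2) := by
    refine Continuous.measurable ?_
    fun_prop
  have hq : Measure.QuasiMeasurePreserving (fun q : E × E => q.1 + β q.1 • q.2)
      ((volume.restrict Ω).prod ν) (volume.restrict Ω) := by
    refine ⟨hΨ, Measure.AbsolutelyContinuous.mk fun s hs h0 => ?_⟩
    have hm : Measurable (s.indicator (1 : E → ℝ≥0∞)) := measurable_one.indicator hs
    have hb := TJointAux.bound h1 ν hΩ hA hν (s.indicator 1) (hm.comp hΨ).aemeasurable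
    rw [lintegral_indicator_one hs, h0, mul_zero] at hb
    rw [← lintegral_indicator_one hs, lintegral_map hm hΨ]
    exact le_antisymm hb bot_le
  have hm : AEStronglyMeasurable w (volume.restrict Ω) → AEStronglyMeasurable
      (fun q : E × E => w (q.1 + β q.1 • q.2)) ((volume.restrict Ω).prod ν) :=
    fun hw => hw.comp_quasiMeasurePreserving hq
  refine ⟨hm, fun hw => ⟨hm hw.1, ?_⟩⟩
  have hb := TJointAux.bound h1 ν hΩ hA hν (fun x => ‖w x‖ₑ) (hm hw.1).enorm
  exact hb.trans_lt (ENNReal.mul_lt_top (by norm_num) hw.2)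

end Vale.Agent.P073
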