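import Vale.Agent.P073.TStm

/-! P073: joint integrability of the weak derivative. -/

open MeasureTheory Set Metric Filter
open scoped ContDiff RealInnerProductSpace Topology ENNReal

namespace Vale.Agent.P073

namespace TJointDAux

theorem pd_le {Ω : Set E} {β : E → ℝ} {L : ℝ} (h : Adm Ω β L) (i : Fin 3) (x : E) :
    |pd i β x| ≤ L := by
  have h1 : ‖fderiv ℝ β x‖ ≤ L :=
    norm_fderiv_le_of_lip' ℝ h.L0.le (Eventually.of_forall fun y => h.lip y x)
  have h2 := (fderiv ℝ β x).le_opNorm (EuclideanSpace.single i 1)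
  rw [EuclideanSpace.norm_single, norm_one, mul_one] at h2
  exact h2.trans h1

end TJointDAux

theorem t_jointD (h1 : S_Joint) : S_JointD := by
  intro Ω β L ν _ G hΩ hβ hν hG
  refine ⟨fun i x _ => TJointDAux.pd_le hβ i x, fun i => ?_⟩
  have hI : ∀ j, Integrable (fun q : E × E => G j (q.1 + β q.1 • q.2))
      ((volume.restrict Ω).prod ν) := fun j => (h1 Ω β L ν (G j) hΩ hβ hν).2 (hG j)
  have hz : ∀ᵐ q : E × E ∂((volume.restrict Ω).prod ν), ‖q.2‖ ≤ 1 :=
    Measure.quasiMeasurePreserving_snd.ae hν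
  have hm : Measurable fun q : E × E => pd i β q.1 :=
    (measurable_fderiv_apply_const ℝ β (EuclideanSpace.single i 1)).comp measurable_fst
  have hS : ∀ j, Integrable (fun q : E × E => (pd i β q.1 * q.2 j) • G j (q.1 + β q.1 • q.2))
      ((volume.restrict Ω).prod ν) := fun j => by
    have hc : Continuous fun q : E × E => q.2 j := by fun_prop
    refine (hI j).bdd_smul L (hm.mul hc.measurable).aestronglyMeasurable ?_
    filter_upwards [hz] with q hq
    rw [Pi.mul_apply, norm_mul]
    have a1 : ‖q.2 j‖ ≤ 1 := (PiLp.norm_apply_le q.2 j).trans hq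
    exact (mul_le_of_le_one_right (norm_nonneg _) a1).trans (TJointDAux.pd_le hβ i q.1)
  have e : (fun q : E × E => Dv β G i q.1 q.2) = fun q : E × E => G i (q.1 + β q.1 • q.2) +
      ∑ j, (pd i β q.1 * q.2 j) • G j (q.1 + β q.1 • q.2) := funext fun q => by
    simp only [Dv, Finset.smul_sum, smul_smul]
  rw [e]
  exact (hI i).add (integrable_finset_sum _ fun j _ => hS j)

end Vale.Agent.P073
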