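import Vale.Agent.P073.TStm

/-! P073: a gauge for the growth of the segment average. -/

open MeasureTheory Set Metric Filter
open scoped ContDiff RealInnerProductSpace Topology ENNReal

namespace Vale.Agent.P073

namespace TKapAux

theorem mem {x e : E} (he : ‖e‖ = 1) {a b : ℝ} (h : |a| ≤ b) : x + a • e ∈ closedBall x b := by
  rwa [mem_closedBall, dist_eq_norm, add_sub_cancel_left, norm_smul, he, mul_one]

theorem loc {Ω : Set E} {f : E → E} {e : E} (c : E) {β : E → ℝ} {L : ℝ} (hΩ : IsOpen Ω)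
    (hf : ContinuousOn f Ω) (he : ‖e‖ = 1) (hβ : Adm Ω β L) {x₀ : E} (h0 : x₀ ∈ Ω)
    (hp : 0 < ⟪c, f (x₀ + (0 + β x₀) • e) - f (x₀ + (0 - β x₀) • e)⟫) :
    ∃ r > 0, ∀ᶠ x in 𝓝 x₀, x ∈ Ω → r ≤ β x / 2 ∧ ∀ y ∈ ball x r, ∀ s ∈ Icc 0 r,
      8 * r * β y ≤ ⟪c, f (y + (s + β y) • e) - f (y + (s - β y) • e)⟫ := by
  have b0 := hβ.pos x₀ h0
  have cβ : Continuous β := (LipschitzWith.of_dist_le' (K := L) fun x y => by
    rw [Real.dist_eq, dist_eq_norm]
    exact hβ.lip x y).continuous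
  have c1 : ContinuousAt (fun p : E × ℝ => f (p.1 + (p.2 + β p.1) • e)) (x₀, 0) :=
    ContinuousAt.comp (g := f) (hf.continuousAt (hΩ.mem_nhds (hβ.sub x₀ h0
      (mem he (by rw [zero_add, abs_of_pos b0]))))) (by fun_prop)
  have c2 : ContinuousAt (fun p : E × ℝ => f (p.1 + (p.2 - β p.1) • e)) (x₀, 0) :=
    ContinuousAt.comp (g := f) (hf.continuousAt (hΩ.mem_nhds (hβ.sub x₀ h0
      (mem he (by rw [zero_sub, abs_neg, abs_of_pos b0]))))) (by fun_prop)
  have c3 : ∀ᶠ p : E × ℝ in 𝓝 (x₀, 0),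
      ⟪c, f (x₀ + (0 + β x₀) • e) - f (x₀ + (0 - β x₀) • e)⟫ / 2 <
        ⟪c, f (p.1 + (p.2 + β p.1) • e) - f (p.1 + (p.2 - β p.1) • e)⟫ :=
    ((continuousAt_const (y := c)).inner (𝕜 := ℝ) (c1.sub c2)).eventually
      (lt_mem_nhds (half_lt_self hp))
  obtain ⟨ρ, ρ0, hρ⟩ := Metric.eventually_nhds_iff.1 c3
  generalize ⟪c, f (x₀ + (0 + β x₀) • e) - f (x₀ + (0 - β x₀) • e)⟫ = P at *
  have r0 : 0 < min (ρ / 2) (min (P / 2) (β x₀ / 4)) := by positivity
  have r1 := min_le_left (ρ / 2) (min (P / 2) (β x₀ / 4))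
  have r2 := (min_le_right (ρ / 2) _).trans (min_le_left (P / 2) (β x₀ / 4))
  have r3 := (min_le_right (ρ / 2) _).trans (min_le_right (P / 2) (β x₀ / 4))
  generalize min (ρ / 2) (min (P / 2) (β x₀ / 4)) = r at *
  refine ⟨r, r0, ?_⟩
  filter_upwards [ball_mem_nhds x₀ (half_pos ρ0),
    cβ.continuousAt.eventually (lt_mem_nhds (half_lt_self b0))] with x hx1 hx2 hx
  refine ⟨by linarith, fun y hy s hs => ?_⟩
  rw [mem_ball] at hx1 hy
  have hy' : y ∈ Ω := hβ.sub x hx (mem_closedBall.2 (by linarith))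
  have k := hρ (y := (y, s)) (by
    rw [Prod.dist_eq, Real.dist_eq, sub_zero, abs_of_nonneg hs.1]
    exact max_lt (by linarith [dist_triangle y x x₀]) (by linarith [hs.2]))
  have l := mul_le_mul_of_nonneg_left ((hβ.le y hy').trans hβ.hL) r0.le
  exact le_trans (by linarith) k.le

end TKapAux

theorem t_kap (h1 : S_Grow) : S_Kap := by
  intro Ω f e c W β η L hΩ hf he hW hβ H
  obtain ⟨κ, hκ, hG⟩ := gauge (Ω := Ω) (fun x r => x ∈ Ω → r ≤ β x / 2 ∧ ∀ y ∈ ball x r,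
      ∀ s ∈ Icc 0 r, 8 * r * β y ≤ ⟪c, f (y + (s + β y) • e) - f (y + (s - β y) • e)⟫)
    (fun x r r' r0 hr h hx => by
      obtain ⟨k1, k2⟩ := h hx
      refine ⟨hr.trans k1, fun y hy s hs => le_trans ?_
        (k2 y (ball_subset_ball hr hy) s ⟨hs.1, hs.2.trans hr⟩)⟩
      rw [mem_ball] at hy
      have := hβ.pos y (hβ.sub x hx (mem_closedBall.2 (by linarith)))
      gcongr)
    fun x hx => TKapAux.loc c hΩ hf he hβ hx (by
      have b0 := hβ.pos x hx
      have s : closedBall x (β x) ⊆ ball x (8 * β x) := closedBall_subset_ball (by linarith)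
      have e1 : x + (0 - β x) • e + (2 * β x) • e = x + (0 + β x) • e := by
        rw [add_assoc, ← add_smul, show 0 - β x + 2 * β x = 0 + β x by ring]
      have k := (H x hx).2.2.1 _ (s (TKapAux.mem he (a := 0 - β x)
        (by rw [zero_sub, abs_neg, abs_of_pos b0]))) (2 * β x) (by positivity)
        (by rw [e1]; exact s (TKapAux.mem he (by rw [zero_add, abs_of_pos b0])))
      rw [e1] at k
      rw [inner_sub_right]
      exact sub_pos.2 k)
  refine ⟨κ, hG, fun x hx => ?_⟩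
  obtain ⟨k0, kQ⟩ := hκ x hx
  obtain ⟨k1, k2⟩ := kQ hx
  obtain ⟨H1, H2, H3, H4⟩ := H x hx
  have b0 := hβ.pos x hx
  have s1 : ball x (κ x) ⊆ ball x (β x) := ball_subset_ball (by linarith)
  have s2 : ball x (β x) ⊆ Ω := ball_subset_closedBall.trans (hβ.sub x hx)
  refine ⟨s1.trans s2, fun w hw hη y hy t ht hy' => ?_⟩
  have ub : ∀ z ∈ ball x (κ x), β z ≤ 17 / 16 * β x := fun z hz => by
    rw [mem_ball, dist_eq_norm] at hz
    have a1 := (le_abs_self _).trans (hβ.lip z x)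
    have a2 := mul_le_mul_of_nonneg_right hβ.hL (norm_nonneg (z - x))
    linarith
  have n1 : 1 ≤ ‖e + w‖ := by
    refine (one_le_sq_iff₀ (norm_nonneg _)).1 ?_
    rw [norm_add_sq_real, hW w hw, he]
    linarith [sq_nonneg ‖w‖]
  have n2 : ‖y + t • (e + w) - y‖ = t * ‖e + w‖ := by
    rw [add_sub_cancel_left, norm_smul, Real.norm_of_nonneg ht]
  have n3 : t * ‖e + w‖ < 2 * κ x := by
    have a1 := dist_triangle_right (y + t • (e + w)) y x
    rw [dist_eq_norm, n2] at a1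
    linarith [mem_ball.1 hy, mem_ball.1 hy']
  have n4 : t ≤ t * ‖e + w‖ := le_mul_of_one_le_right ht n1
  have m0 : 0 ≤ min (η x) 1 := by
    linarith [norm_nonneg (fderiv ℝ β x), H4 x (mem_ball_self b0)]
  have lp := (convex_ball x (β x)).norm_image_sub_le_of_norm_fderiv_le
    (fun z hz => (hβ.sm.contDiffAt (hΩ.mem_nhds (s2 hz))).differentiableAt (by simp)) H4
    (s1 hy) (s1 hy')
  have lp2 : |β (y + t • (e + w)) - β y| ≤ t / 2 := by
    rw [n2] at lp
    have a1 : ‖e + w‖ ≤ 1 + ‖w‖ := he ▸ norm_add_le e w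
    have a2 := mul_le_mul_of_nonneg_left a1 m0
    have a3 := mul_le_mul_of_nonneg_right (min_le_left (η x) 1) (norm_nonneg w)
    have a4 := min_le_right (η x) 1
    have a5 : min (η x) 1 * ‖e + w‖ ≤ 2 := by linarith
    have a6 := mul_le_mul_of_nonneg_left a5 ht
    exact le_trans lp (by linarith)
  have by0 := hβ.pos y (s2 (s1 hy))
  have u1 := ub y hy
  have u2 := ub _ hy'
  have k := h1 f (ball x (8 * β x)) e c w y t (β y) (β (y + t • (e + w))) (8 * κ x * β y)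
    (4 * β x) he (hf.mono H1) (closedBall_subset_ball' (by linarith [mem_ball.1 hy])) ht by0
    (hβ.pos _ (s2 (s1 hy'))) lp2 (by linarith) (by linarith)
    (fun q hq hq' => H2 q hq _ (W.smul_mem t hw) hq')
    (fun q hq s hs hq' => by
      rcases hs.eq_or_lt with h | h
      · rw [← h, zero_smul, add_zero]
      · exact (H3 q hq s h hq').le)
    fun s hs => k2 y hy s ⟨hs.1, by linarith [hs.2]⟩
  refine le_trans (le_of_eq ?_) k
  field_simp
  ring

end Vale.Agent.P073
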