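import Vale.Agent.P073.TStm

/-! P073: Lipschitz bound for ball averages. -/

open MeasureTheory Set Metric Filter
open scoped ContDiff RealInnerProductSpace Topology ENNReal

namespace Vale.Agent.P073

namespace TLipAux

theorem alg {I J J' : E} {M V V' d θ : ℝ} (hM : 0 ≤ M) (hV : 0 < V) (hV' : 0 < V') (hd : 0 ≤ d)
    (hI : ‖I‖ ≤ M * d) (hJ : ‖J - I‖ ≤ M * (V - d)) (hJ' : ‖J' - I‖ ≤ M * (V' - d))
    (h1 : θ ≤ d / V) (h2 : θ ≤ d / V') : ‖V⁻¹ • J - V'⁻¹ • J'‖ ≤ 2 * M * (1 - θ) := by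
  have e : V⁻¹ • J - V'⁻¹ • J' = (V⁻¹ - V'⁻¹) • I + V⁻¹ • (J - I) - V'⁻¹ • (J' - I) := by
    simp only [sub_smul, smul_sub]
    abel
  have a1 : ‖(V⁻¹ - V'⁻¹) • I‖ ≤ M * |d / V - d / V'| := by
    rw [norm_smul, Real.norm_eq_abs, div_eq_mul_inv, div_eq_mul_inv, ← mul_sub, abs_mul,
      abs_of_nonneg hd, ← mul_assoc, mul_comm]
    exact mul_le_mul_of_nonneg_right hI (abs_nonneg _)
  have a2 : ∀ {K : E} {W : ℝ}, 0 < W → ‖K‖ ≤ M * (W - d) → ‖W⁻¹ • K‖ ≤ M * (1 - d / W) := by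
    intro K W hW hK
    rw [norm_smul, Real.norm_of_nonneg (inv_pos.2 hW).le]
    refine (mul_le_mul_of_nonneg_left hK (inv_pos.2 hW).le).trans (le_of_eq ?_)
    field_simp
  have a3 : |d / V - d / V'| + (1 - d / V) + (1 - d / V') ≤ 2 * (1 - θ) := by
    rcases abs_cases (d / V - d / V') with h | h <;> linarith [h.1]
  have a4 := mul_le_mul_of_nonneg_left a3 hM
  rw [e]
  have a5 := norm_sub_le ((V⁻¹ - V'⁻¹) • I + V⁻¹ • (J - I)) (V'⁻¹ • (J' - I))
  have a6 := norm_add_le ((V⁻¹ - V'⁻¹) • I) (V⁻¹ • (J - I))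
  linarith [a2 hV hJ, a2 hV' hJ']

theorem rest {w : E → E} {S : Set E} {M s ρ : ℝ} {z x : E} (hw : ContinuousOn w S)
    (hM : ∀ y ∈ S, ‖w y‖ ≤ M) (hs : ball z s ⊆ S) (hD : ball x ρ ⊆ ball z s) :
    ‖(∫ y in ball z s, w y) - ∫ y in ball x ρ, w y‖ ≤
      M * (volume.real (ball z s) - volume.real (ball x ρ)) := by
  have hi : IntegrableOn w (ball z s) :=
    ⟨(hw.mono hs).aestronglyMeasurable measurableSet_ball, .restrict_of_bounded (C := M)
      measure_ball_lt_top (ae_restrict_of_forall_mem measurableSet_ball fun y hy => hM y (hs hy))⟩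
  rw [← setIntegral_sdiff measurableSet_ball hi hD,
    ← measureReal_sdiff hD measurableSet_ball measure_ball_lt_top.ne]
  exact norm_setIntegral_le_of_norm_le_const
    (lt_of_le_of_lt (measure_mono sdiff_subset) measure_ball_lt_top) fun y hy => hM y (hs hy.1)

theorem vol (x : E) {r : ℝ} (hr : 0 ≤ r) :
    volume.real (ball x r) = r ^ 3 * volume.real (ball (0 : E) 1) := by
  rw [measureReal_def, Measure.addHaar_ball volume x hr, ENNReal.toReal_mul,
    ENNReal.toReal_ofReal (by positivity), finrank_euclideanSpace_fin, measureReal_def]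

theorem vpos (x : E) {r : ℝ} (hr : 0 < r) : 0 < volume.real (ball x r) :=
  ENNReal.toReal_pos (measure_ball_pos volume x hr).ne' measure_ball_lt_top.ne

theorem ratio (x y : E) {a s S t : ℝ} (ha : 0 < a) (hs : a ≤ s) (hS : s ≤ S) (ht : 0 ≤ t) :
    1 - 7 * t / (2 * a) ≤ volume.real (ball x (S - 9 * t / 8)) / volume.real (ball y s) := by
  have s0 : 0 < s := by linarith
  have S0 : 0 < S := by linarith
  rcases le_or_gt (S - 9 * t / 8) 0 with h | h
  · refine le_trans ?_ (div_nonneg measureReal_nonneg measureReal_nonneg)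
    rw [sub_nonpos, le_div_iff₀ (by positivity)]
    linarith
  rw [vol x h.le, vol y s0.le, mul_div_mul_right _ _ (vpos 0 one_pos).ne', ← div_pow]
  have b1 : 1 + -(9 * t / 8 / a) ≤ (S - 9 * t / 8) / s := by
    have c1 : (S - 9 * t / 8) / S ≤ (S - 9 * t / 8) / s := div_le_div_of_nonneg_left h.le s0 hS
    have c2 : 9 * t / 8 / S ≤ 9 * t / 8 / a :=
      div_le_div_of_nonneg_left (by positivity) ha (hs.trans hS)
    rw [sub_div, div_self S0.ne'] at c1
    linarith
  have b2 : 0 ≤ (S - 9 * t / 8) / s := by positivity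
  have b3 := one_add_mul_le_pow (a := (S - 9 * t / 8) / s - 1) (by linarith) 3
  rw [add_sub_cancel] at b3
  have b4 : 7 * t / (2 * a) = 28 / 9 * (9 * t / 8 / a) := by
    field_simp
    ring
  have b5 : 0 ≤ 9 * t / 8 / a := by positivity
  push_cast at b3
  linarith

end TLipAux

theorem t_lip (h1 : S_Rep) : S_Lip := by
  intro w S M s s' a z z' hw hM hs hs' ha h2 h3 h4
  have s0 : 0 < s := by linarith
  have s1 : 0 < s' := by linarith
  have M0 : 0 ≤ M := (norm_nonneg _).trans (hM z (hs (mem_ball_self s0)))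
  have t0 := norm_nonneg (z - z')
  obtain ⟨h5, h6⟩ := abs_le.1 h4
  have d1 : ball z (max s s' - 9 * ‖z - z'‖ / 8) ⊆ ball z s :=
    ball_subset_ball (by rcases max_cases s s' with h | h <;> linarith [h.1])
  have d2 : ball z (max s s' - 9 * ‖z - z'‖ / 8) ⊆ ball z' s' :=
    ball_subset_ball' (by rw [dist_eq_norm]; rcases max_cases s s' with h | h <;> linarith [h.1])
  rw [h1 w z s s0, h1 w z' s' s1]
  refine (TLipAux.alg M0 (TLipAux.vpos z s0) (TLipAux.vpos z' s1) measureReal_nonneg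
    (norm_setIntegral_le_of_norm_le_const measure_ball_lt_top fun y hy => hM y (hs (d1 hy)))
    (TLipAux.rest hw hM hs d1) (TLipAux.rest hw hM hs' d2)
    (TLipAux.ratio z z ha h2 (le_max_left s s') t0)
    (TLipAux.ratio z z' ha h3 (le_max_right s s') t0)).trans (le_of_eq ?_)
  field_simp
  ring

end Vale.Agent.P073
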