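import Vale.Agent.P073.TStm

/-! P073: the average of a nearly affine map. -/

open MeasureTheory Set Metric Filter
open scoped ContDiff RealInnerProductSpace Topology ENNReal

namespace Vale.Agent.P073

namespace TLocAux

theorem int (h2 : S_Nu) {g : E → E} (hg : ContinuousOn g (closedBall 0 1)) : Integrable g nuB := by
  have := h2.1
  have h := hg.integrableOn_compact (μ := nuB) (isCompact_closedBall 0 1)
  rwa [IntegrableOn, Measure.restrict_eq_self_of_ae_mem
    (h2.2.1.mono fun z hz => mem_closedBall_zero_iff.2 hz.le)] at h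

theorem rep (h2 : S_Nu) {f : E → E} {S : Set E} (hf : ContinuousOn f S) (A : E →L[ℝ] E) (b z : E)
    (s : ℝ) (hS : ∀ u : E, ‖u‖ ≤ 1 → z + s • u ∈ S) :
    ∫ u, f (z + s • u) ∂nuB = (∫ u, (f (z + s • u) - (b + A (z + s • u))) ∂nuB) + (b + A z) := by
  have := h2.1
  have i1 : Integrable (fun u => f (z + s • u)) nuB :=
    int h2 (hf.comp (by fun_prop) fun u hu => hS u (mem_closedBall_zero_iff.1 hu))
  have i2 : Integrable (fun u : E => u) nuB := int h2 continuousOn_id
  have i3 : Integrable (fun u : E => s • A u) nuB := int h2 (by fun_prop)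
  have e : ∫ u, (b + A (z + s • u)) ∂nuB = b + A z := by
    simp only [map_add, map_smul, ← add_assoc]
    rw [integral_add (integrable_const _) i3, integral_smul, A.integral_comp_comm i2, h2.2.2.1]
    simp
  rw [integral_sub i1 (int h2 (by fun_prop)), e, sub_add_cancel]

end TLocAux

open TLocAux

theorem t_loc (h1 : S_Lip) (h2 : S_Nu) : S_Loc := by
  intro Ω β L m f A b x _ hβ hf hx hS hm hw
  have := h2.1
  have x0 := hβ.pos x hx
  have lip : ∀ z z', |β z - β z'| ≤ ‖z - z'‖ / 8 := fun z z' =>
    (hβ.lip z z').trans (by nlinarith [hβ.hL, norm_nonneg (z - z')])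
  have k1 : ∀ z ∈ ball x (2 * β x), 3 / 4 * β x ≤ β z ∧
      closedBall z (β z) ⊆ ball x (4 * β x) := fun z hz => by
    have a1 := abs_le.1 (lip z x)
    have a2 := mem_ball_iff_norm.1 hz
    refine ⟨by linarith, closedBall_subset_ball' ?_⟩
    rw [dist_eq_norm]
    linarith
  have k2 : ∀ z ∈ ball x (2 * β x), ∀ u : E, ‖u‖ ≤ 1 → z + β z • u ∈ ball x (4 * β x) := by
    intro z hz u hu
    have a1 : 0 ≤ β z := by linarith [(k1 z hz).1]
    refine (k1 z hz).2 (mem_closedBall_iff_norm.2 ?_)
    rw [add_sub_cancel_left, norm_smul, Real.norm_of_nonneg a1]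
    exact mul_le_of_le_one_right a1 hu
  have k3 := fun z hz => rep h2 (hf.mono hS) A b z (β z) (k2 z hz)
  refine ⟨fun z hz => ?_, fun z hz z' hz' => ?_⟩
  · have a1 := norm_integral_le_of_norm_le_const (μ := nuB)
      (h2.2.1.mono fun u hu => hw _ (k2 z hz u hu.le))
    have a2 := hw z (ball_subset_ball (by linarith) hz)
    rw [probReal_univ, mul_one] at a1
    rw [Av, k3 z hz, add_sub_assoc]
    refine (norm_add_le _ _).trans ?_
    rw [norm_sub_rev (b + A z)]
    linarith
  · have a1 := h1 (fun y => f y - (b + A y)) _ _ (β z) (β z') (3 / 4 * β x) z z'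
      ((hf.mono hS).sub (by fun_prop)) hw (ball_subset_closedBall.trans (k1 z hz).2)
      (ball_subset_closedBall.trans (k1 z' hz').2) (by positivity) (k1 z hz).1 (k1 z' hz').1
      (lip z z')
    have a2 : 7 * (m * (4 * β x) / 100) * ‖z - z'‖ / (3 / 4 * β x) = 28 / 75 * (m * ‖z - z'‖) := by
      field_simp
      ring
    have a3 := mul_nonneg hm.le (norm_nonneg (z - z'))
    rw [Av, Av, k3 z hz, k3 z' hz', add_sub_add_comm, add_sub_add_left_eq_sub, map_sub,
      add_sub_cancel_right]
    linarith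

end Vale.Agent.P073
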