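import Vale.Agent.P073.TStm

open MeasureTheory Set Metric Filter
open scoped ContDiff RealInnerProductSpace Topology ENNReal

namespace Vale.Agent.P073

theorem t_mink : S_Mink := by
  intro p μ ν _ _ k ε hp hp' hm h
  have p0 : p ≠ 0 := (zero_lt_one.trans_le hp).ne'
  have q0 : 0 < p.toReal := ENNReal.toReal_pos p0 hp'
  have a : ∀ᵐ x ∂μ, ‖∫ z, k x z ∂ν‖ₑ ^ p.toReal ≤ ∫⁻ z, ‖k x z‖ₑ ^ p.toReal ∂ν := by
    filter_upwards [hm.prodMk_left] with x hx
    have b := eLpNorm_le_eLpNorm_of_exponent_le hp hx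
    rw [eLpNorm_one_eq_lintegral_enorm, eLpNorm_eq_lintegral_rpow_enorm_toReal p0 hp', one_div,
      ENNReal.le_rpow_inv_iff q0] at b
    exact le_trans (ENNReal.rpow_le_rpow (enorm_integral_le_lintegral_enorm _) q0.le) b
  rw [eLpNorm_eq_lintegral_rpow_enorm_toReal p0 hp', one_div, ENNReal.rpow_inv_le_iff q0]
  refine (lintegral_mono_ae a).trans ?_
  rw [lintegral_lintegral_swap (hm.enorm.pow_const _)]
  refine (lintegral_mono_ae (g := fun _ => ε ^ p.toReal) ?_).trans (by simp)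
  filter_upwards [h] with z b
  rwa [eLpNorm_eq_lintegral_rpow_enorm_toReal p0 hp', one_div, ENNReal.rpow_inv_le_iff q0] at b

end Vale.Agent.P073
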