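import Vale.Agent.P073.TStm

/-! P073: mixing the components of three approximations. -/

open MeasureTheory Set Metric Filter
open scoped ContDiff RealInnerProductSpace Topology ENNReal

namespace Vale.Agent.P073

namespace TMixAux

/-- projection on a coordinate axis -/
noncomputable def pj (k : Fin 3) : E →L[ℝ] E :=
  (EuclideanSpace.proj k : E →L[ℝ] ℝ).smulRight (EuclideanSpace.single k 1)

theorem pj_apply (k : Fin 3) (v : E) : pj k v = v k • EuclideanSpace.single k 1 := rfl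

theorem sum_coord (u : Fin 3 → E) (k : Fin 3) : (∑ j, pj j (u j)) k = u k k := by
  simp [pj_apply, Finset.sum_apply, Pi.single_apply]

theorem sum_sub (u : Fin 3 → E) (a : E) : ∑ j, pj j (u j) - a = ∑ j, pj j (u j - a) := by
  ext k
  rw [PiLp.sub_apply, sum_coord, sum_coord, PiLp.sub_apply]

theorem norm_pj (k : Fin 3) (v : E) : ‖pj k v‖ ≤ ‖v‖ := by
  rw [pj_apply, norm_smul, EuclideanSpace.norm_single, norm_one, mul_one]
  exact PiLp.norm_apply_le v k

theorem lp {p ε : ℝ≥0∞} {Ω : Set E} (hp : 1 ≤ p) (hΩ : IsOpen Ω) {u : Fin 3 → E → E}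
    {a w : E → E} (hw : ∀ x ∈ Ω, w x = ∑ j, pj j (u j x)) (hu : ∀ j, ContinuousOn (u j) Ω)
    (ha : AEStronglyMeasurable a (volume.restrict Ω))
    (h : ∀ j, eLpNorm (u j - a) p (volume.restrict Ω) ≤ ε / 3) :
    eLpNorm (w - a) p (volume.restrict Ω) ≤ ε := by
  have e : w - a =ᵐ[volume.restrict Ω] ∑ j, fun x => pj j ((u j - a) x) := by
    filter_upwards [ae_restrict_mem hΩ.measurableSet] with x hx
    rw [Pi.sub_apply, hw x hx, sum_sub, Finset.sum_apply]
    rfl
  rw [eLpNorm_congr_ae e]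
  refine (eLpNorm_sum_le (fun j _ => (pj j).continuous.comp_aestronglyMeasurable
    (((hu j).aestronglyMeasurable hΩ.measurableSet).sub ha)) hp).trans ?_
  refine (Finset.sum_le_sum fun j _ => (eLpNorm_mono fun x => norm_pj j _).trans (h j)).trans ?_
  rw [Fin.sum_univ_three, ENNReal.add_thirds]

end TMixAux

open TMixAux

theorem t_mix : S_Mix := by
  intro p Ω f G g δ ε hp hΩ hf hg
  have hd : ∀ x ∈ Ω, ∀ v, fderiv ℝ (fun x => ∑ j, pj j (g j x)) x v =
      ∑ j, pj j (fderiv ℝ (g j) x v) := fun x hx v => by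
    have h1 : ∀ j, HasFDerivAt (fun x => pj j (g j x)) ((pj j).comp (fderiv ℝ (g j) x)) x :=
      fun j => (pj j).hasFDerivAt.comp x
        (((hg j).1.contDiffAt (hΩ.mem_nhds hx)).differentiableAt (by simp)).hasFDerivAt
    rw [(HasFDerivAt.fun_sum fun j _ => h1 j).fderiv]
    simp
  refine ⟨fun x => ∑ j, pj j (g j x),
    ContDiffOn.sum fun j _ => (pj j).contDiff.comp_contDiffOn (hg j).1, fun x hx => ?_,
    fun x hx v k => by rw [hd x hx, sum_coord],
    lp hp hΩ (fun _ _ => rfl) (fun j => (hg j).1.continuousOn) hf.2.1.1 fun j => (hg j).2.2.1,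
    fun i => lp hp hΩ (fun x hx => hd x hx _) (fun j => contOn_pd hΩ (hg j).1 i) (hf.2.2 i).1
      fun j => (hg j).2.2.2 i⟩
  rw [sum_sub]
  refine (norm_sum_le _ _).trans ((Finset.sum_le_sum fun j _ =>
    (norm_pj j _).trans ((hg j).2.1 x hx)).trans (le_of_eq ?_))
  rw [Fin.sum_univ_three]
  ring

end Vale.Agent.P073
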