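import Vale.Agent.P073.TStm

/-! P073: the two averaging measures. -/

open MeasureTheory Set Metric Filter
open scoped ContDiff RealInnerProductSpace Topology ENNReal

namespace Vale.Agent.P073

namespace TNuAux

theorem mean0 : ∫ z in ball (0 : E) 1, z = 0 := by
  rw [← integral_indicator measurableSet_ball]
  have h := integral_neg_eq_self ((ball (0 : E) 1).indicator fun z : E => z) volume
  have e : (fun x : E => (ball (0 : E) 1).indicator (fun z : E => z) (-x))
      = fun x : E => -(ball (0 : E) 1).indicator (fun z : E => z) x := by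
    funext x
    by_cases hx : x ∈ ball (0 : E) 1
    · have hx' : -x ∈ ball (0 : E) 1 := by simpa using hx
      rw [indicator_of_mem hx, indicator_of_mem hx']
    · have hx' : -x ∉ ball (0 : E) 1 := by simpa using hx
      rw [indicator_of_notMem hx, indicator_of_notMem hx', neg_zero]
  rw [e, integral_neg] at h
  have h2 : (2 : ℝ) • ∫ x : E, (ball (0 : E) 1).indicator (fun z : E => z) x = 0 := by
    rw [two_smul]
    exact neg_eq_iff_add_eq_zero.1 h
  exact (smul_eq_zero.1 h2).resolve_left two_ne_zero

end TNuAux

theorem t_nu : S_Nu := by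
  refine ⟨?_, ?_, ?_, fun e he => ?_⟩
  · exact ProbabilityTheory.cond_isProbabilityMeasure_of_finite
      (measure_ball_pos volume _ one_pos).ne' measure_ball_lt_top.ne
  · have h : ∀ᵐ z ∂nuB, z ∈ ball (0 : E) 1 := ProbabilityTheory.ae_cond_mem measurableSet_ball
    filter_upwards [h] with z hz
    simpa using hz
  · unfold nuB ProbabilityTheory.cond
    rw [integral_smul_measure, TNuAux.mean0, smul_zero]
  · have hP : IsProbabilityMeasure (ProbabilityTheory.cond volume (Icc (-1 : ℝ) 1)) :=
      ProbabilityTheory.cond_isProbabilityMeasure_of_finite (by simp) (by simp)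
    have hm : Measurable fun t : ℝ => t • e := by fun_prop
    refine ⟨Measure.isProbabilityMeasure_map hm.aemeasurable, ?_⟩
    unfold nuE
    rw [ae_map_iff hm.aemeasurable (measurableSet_le (by fun_prop) measurable_const)]
    have h : ∀ᵐ t ∂(ProbabilityTheory.cond volume (Icc (-1 : ℝ) 1)), t ∈ Icc (-1 : ℝ) 1 :=
      ProbabilityTheory.ae_cond_mem measurableSet_Icc
    filter_upwards [h] with t ht
    rw [norm_smul, he, mul_one, Real.norm_eq_abs]
    exact abs_le.2 ht

end Vale.Agent.P073
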