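import Vale.Agent.P073.TStm

open MeasureTheory Set Metric Filter
open scoped ContDiff RealInnerProductSpace Topology ENNReal

namespace Vale.Agent.P073

theorem t_one : S_One := by
  intro U b τ μ hb hτ hU h
  have I : ∀ p q, p ∈ Icc (-b) (b + τ) → q ∈ Icc (-b) (b + τ) → IntervalIntegrable U volume p q :=
    fun p q hp hq => (hU.mono (uIcc_subset_Icc hp hq)).intervalIntegrable
  have m1 : -b ∈ Icc (-b) (b + τ) := ⟨le_rfl, by linarith⟩
  have m2 : b ∈ Icc (-b) (b + τ) := ⟨by linarith, by linarith⟩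
  have m3 : τ - b ∈ Icc (-b) (b + τ) := ⟨by linarith, by linarith⟩
  have m4 : τ + b ∈ Icc (-b) (b + τ) := ⟨by linarith, by linarith⟩
  have e1 : ∫ t in (-1 : ℝ)..1, U (τ + t * b) = b⁻¹ * ∫ t in (τ - b)..(τ + b), U t := by
    simp only [mul_comm _ b]
    rw [intervalIntegral.integral_comp_add_mul U hb.ne', smul_eq_mul, mul_one, mul_neg_one,
      sub_eq_add_neg]
  have e2 : ∫ t in (-1 : ℝ)..1, U (t * b) = b⁻¹ * ∫ t in (-b)..b, U t := by
    rw [intervalIntegral.integral_comp_mul_right U hb.ne', smul_eq_mul, one_mul, neg_one_mul]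
  have e3 := intervalIntegral.integral_add_adjacent_intervals (I _ _ m1 m3) (I _ _ m3 m4)
  have e4 := intervalIntegral.integral_add_adjacent_intervals (I _ _ m1 m2) (I _ _ m2 m4)
  have e5 : ∫ s in (0 : ℝ)..τ, U (s + b) = ∫ t in b..(τ + b), U t := by
    rw [intervalIntegral.integral_comp_add_right, zero_add]
  have e6 : ∫ s in (0 : ℝ)..τ, U (s - b) = ∫ t in (-b)..(τ - b), U t := by
    rw [intervalIntegral.integral_comp_sub_right, zero_sub]
  have i1 : IntervalIntegrable (fun s => U (s + b)) volume 0 τ := by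
    simpa using (I _ _ m2 m4).comp_add_right b
  have i2 : IntervalIntegrable (fun s => U (s - b)) volume 0 τ := by
    simpa using (I _ _ m1 m3).comp_sub_right b
  have e7 := intervalIntegral.integral_mono_on hτ intervalIntegrable_const (i1.sub i2) h
  rw [intervalIntegral.integral_sub i1 i2, intervalIntegral.integral_const, e5, e6, smul_eq_mul,
    sub_zero] at e7
  rw [e1, e2, ← mul_sub, div_eq_inv_mul]
  exact mul_le_mul_of_nonneg_left (by linarith) (inv_nonneg.2 hb.le)

end Vale.Agent.P073
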