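import Vale.Agent.P073.TStm

/-! P073: the average over the unit ball as an average over a ball. -/

open MeasureTheory Set Metric Filter
open scoped ContDiff RealInnerProductSpace Topology ENNReal

namespace Vale.Agent.P073

theorem t_rep : S_Rep := by
  intro w z s hs
  have h1 : ∫ y in ball (0 : E) s, w (z + y) = ∫ y in ball z s, w y := by
    rw [← integral_indicator measurableSet_ball, ← integral_indicator measurableSet_ball,
      ← integral_add_left_eq_self ((ball z s).indicator w) z]
    refine congrArg _ (funext fun y => ?_)
    by_cases hy : y ∈ ball (0 : E) s
    · rw [indicator_of_mem hy, indicator_of_mem (by simpa using hy)]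
    · rw [indicator_of_notMem hy, indicator_of_notMem (by simpa using hy)]
  have h2 := Measure.setIntegral_comp_smul_of_pos volume (fun y => w (z + y)) (ball (0 : E) 1) hs
  rw [smul_unitBall hs.ne', Real.norm_of_nonneg hs.le, h1] at h2
  rw [nuB, ProbabilityTheory.cond, integral_smul_measure, h2, smul_smul, Measure.real,
    Measure.addHaar_ball_of_pos volume z hs, ENNReal.toReal_mul,
    ENNReal.toReal_ofReal (by positivity), ENNReal.toReal_inv, mul_inv, mul_comm]

end Vale.Agent.P073
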