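import Vale.Agent.P073.TStm

/-! P073: a global sign of monotonicity. -/

open MeasureTheory Set Metric Filter
open scoped ContDiff RealInnerProductSpace Topology ENNReal

namespace Vale.Agent.P073

namespace TSignAux

def P (Ω : Set E) (f : E → E) (i : Fin 3) (σ : ℝ) (x : E) : Prop :=
  ∃ r > 0, ball x r ⊆ Ω ∧ Tri f (ball x r) ∧
    ∀ y ∈ ball x r, ∀ t > (0 : ℝ), y + t • EuclideanSpace.single i 1 ∈ ball x r →
      σ * f y i < σ * f (y + t • EuclideanSpace.single i 1) i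

theorem sign_const {X : Type} [TopologicalSpace X] {Z : Set X} {D : X → ℝ} (hZ : IsPreconnected Z)
    (hD : ContinuousOn D Z) (h0 : ∀ z ∈ Z, D z ≠ 0) : (∀ z ∈ Z, 0 < D z) ∨ ∀ z ∈ Z, D z < 0 := by
  by_contra h
  push Not at h
  obtain ⟨⟨a, ha, h1⟩, b, hb, h2⟩ := h
  obtain ⟨c, hc, e⟩ := hZ.intermediate_value ha hb hD ⟨h1, h2⟩
  exact h0 c hc e

theorem p_open (Ω : Set E) (f : E → E) (i : Fin 3) (σ : ℝ) : IsOpen {x | P Ω f i σ x} := by
  refine Metric.isOpen_iff.2 fun x ⟨r, hr, h1, h2, h3⟩ => ⟨r, hr, fun y hy => ?_⟩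
  have hs : ball y (r - dist y x) ⊆ ball x r := ball_subset_ball' (by linarith)
  exact ⟨r - dist y x, sub_pos.2 hy, hs.trans h1, fun k a ha b hb => h2 k a (hs ha) b (hs hb),
    fun a ha t ht hb => h3 a (hs ha) t ht (hs hb)⟩

theorem p_disj (Ω : Set E) (f : E → E) (i : Fin 3) :
    Disjoint {x | P Ω f i 1 x} {x | P Ω f i (-1) x} := by
  refine Set.disjoint_left.2 fun x ⟨r, hr, _, _, h3⟩ ⟨r', hr', _, _, h3'⟩ => ?_
  have ht : 0 < min r r' / 2 := half_pos (lt_min hr hr')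
  have hm : ∀ s, min r r' ≤ s → x + (min r r' / 2) • EuclideanSpace.single i 1 ∈ ball x s := by
    intro s hs
    rw [mem_ball, dist_eq_norm, add_sub_cancel_left, norm_smul, PiLp.norm_single,
      Real.norm_of_nonneg ht.le, norm_one]
    linarith
  have a := h3 x (mem_ball_self hr) _ ht (hm r (min_le_left _ _))
  have b := h3' x (mem_ball_self hr') _ ht (hm r' (min_le_right _ _))
  linarith

end TSignAux

open TSignAux

theorem t_sign (h1 : S_Inj) : S_Sign := by
  intro Ω Λ f _ hc hΛ hf hT i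
  have step : Ω ⊆ {x | P Ω f i 1 x} ∪ {x | P Ω f i (-1) x} := by
    intro x hx
    obtain ⟨r, hr, hs, ht⟩ := hT x hx
    let A : E × ℝ →ₗ[ℝ] E := LinearMap.fst ℝ E ℝ +
      (LinearMap.snd ℝ E ℝ).smulRight (EuclideanSpace.single i 1)
    have hA : ∀ z : E × ℝ, A z = z.1 + z.2 • EuclideanSpace.single i 1 := fun _ => rfl
    have cA : Continuous fun z : E × ℝ => z.1 + z.2 • EuclideanSpace.single i (1 : ℝ) := by
      fun_prop
    have hZ : Convex ℝ ((ball x r ×ˢ Ioi (0 : ℝ)) ∩ A ⁻¹' ball x r) :=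
      ((convex_ball x r).prod (convex_Ioi 0)).inter ((convex_ball x r).linear_preimage A)
    have cf : ContinuousOn (fun y => f y i) Ω :=
      (EuclideanSpace.proj (𝕜 := ℝ) i).continuous.comp_continuousOn hf.1
    have hD : ContinuousOn (fun z : E × ℝ => f (z.1 + z.2 • EuclideanSpace.single i 1) i - f z.1 i)
        ((ball x r ×ˢ Ioi (0 : ℝ)) ∩ A ⁻¹' ball x r) :=
      (cf.comp cA.continuousOn fun z hz => hs hz.2).sub
        (cf.comp continuous_fst.continuousOn fun z hz => hs hz.1.1)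
    rcases sign_const hZ.isPreconnected hD (fun z hz => sub_ne_zero.2
      (h1 Ω Λ f x r hΛ hf hs ht i _ hz.2 _ hz.1.1 (fun j hj => by simp [hA, hj.ne])
        (by simpa [hA] using (ne_of_gt hz.1.2)))) with h | h
    · refine Or.inl ⟨r, hr, hs, ht, fun y hy t h0 hy' => ?_⟩
      have := h (y, t) ⟨⟨hy, h0⟩, hy'⟩
      simp only at this
      linarith
    · refine Or.inr ⟨r, hr, hs, ht, fun y hy t h0 hy' => ?_⟩
      have := h (y, t) ⟨⟨hy, h0⟩, hy'⟩
      simp only at this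
      linarith
  rcases hc.isPreconnected.subset_or_subset (p_open Ω f i 1) (p_open Ω f i (-1)) (p_disj Ω f i)
    step with h | h
  · exact ⟨1, abs_one, fun x hx => h hx⟩
  · exact ⟨-1, by simp, fun x hx => h hx⟩

end Vale.Agent.P073
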