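import Vale.Agent.P073.TStm

/-! P073: smoothing with a cone condition. -/

open MeasureTheory Set Metric Filter
open scoped ContDiff RealInnerProductSpace Topology ENNReal

namespace Vale.Agent.P073

theorem t_step (h1 : S_StepF) (h2 : S_Ga) : S_Step := by
  intro p Ω f G e c W δ η ε hp hp' hΩ hb hf hs he hc hW hL hδ hη hε
  obtain ⟨-, a2, a3, -, -, a6⟩ := h2 Ω hΩ
  have e2 : ε / 2 ≠ 0 := (ENNReal.half_pos hε).ne'
  have d2 := (a2 _ _ hδ (a6 (1 / 2) (by norm_num))).2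
  obtain ⟨F, H, κ, f1, f2, f3, f4, f5, f6, f7⟩ :=
    h1 p Ω f G e c W _ η _ hp hp' hΩ hb hf hs he hW hL d2 hη e2
  obtain ⟨g, g1, g2, g3, g4, g5⟩ := whitney hp hp' hΩ hb f1 f2.1 f2.2.1 f2.2.2
    (a2 _ _ d2 (a2 _ _ f6 (a2 _ _ (a2 _ _ hη (a6 1 one_pos)).1 (a6 (1 / 2) (by norm_num))).2).2).1
    e2
  have a : ∀ B C D : E → E, ContinuousOn B Ω → MemLp C p (volume.restrict Ω) →
      MemLp D p (volume.restrict Ω) → eLpNorm (B - C) p (volume.restrict Ω) ≤ ε / 2 →
      eLpNorm (C - D) p (volume.restrict Ω) ≤ ε / 2 →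
      eLpNorm (B - D) p (volume.restrict Ω) ≤ ε := fun B C D h1 h2 h3 h4 h5 => by
    rw [← sub_add_sub_cancel B C D]
    exact (eLpNorm_add_le ((h1.aestronglyMeasurable hΩ.measurableSet).sub h2.1) (h2.sub h3).1
      hp).trans ((add_le_add h4 h5).trans (ENNReal.add_halves ε).le)
  refine ⟨g, g1, fun x hx => ?_, fun x hx => ?_, a _ _ _ g1.continuousOn f2.2.1 hs.2.1 g4 f4,
    fun i => a _ _ _ (contOn_pd hΩ g1 i) (f2.2.2 i) (hs.2.2 i) (g5 i) (f5 i)⟩
  · linarith [norm_sub_le_norm_sub_add_norm_sub (g x) (F x) (f x),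
      (g2 x hx).trans (min_le_left _ _), f3 x hx]
  have k0 := a3 _ f6 x hx
  have n0 := a3 _ hη x hx
  have key : ∀ w ∈ W, η x * ‖w‖ ≤ 1 → 0 < ⟪c, fderiv ℝ g x e⟫ + ⟪c, fderiv ℝ g x w⟫ := by
    intro w hw h
    have v0 : e + w ≠ 0 := fun k => by
      have := congrArg (fun v => ⟪e, v⟫) k
      simp [inner_add_right, hW w hw, he] at this
    have v1 := norm_pos_iff.2 v0
    have m1 := min_le_right (η x) 1
    have m2 := (mul_le_mul_of_nonneg_right (min_le_left (η x) 1) (norm_nonneg w)).trans h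
    have m0 := lt_min n0 one_pos
    have r := min_le_right (δ x * (1 / 2)) (κ x * (min (η x) 1 * (1 / 2)))
    have s := ball_subset_ball (x := x) (r.trans (mul_le_of_le_one_right k0.le (by linarith)))
    have b := g3 x hx _ c (2 * κ x * ‖e + w‖⁻¹) (norm_smul_inv_norm (𝕜 := ℝ) v0) hc
      (s.trans (f7 x hx).1) fun y hy t ht hy' => by
        rw [smul_smul] at hy' ⊢
        exact le_of_eq_of_le (by simp only [RCLike.ofReal_real_eq_id, id]; ring)
          ((f7 x hx).2 w hw h y (s hy) _ (by positivity) (s hy'))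
    rw [map_smul, real_inner_smul_right, map_add, inner_add_right] at b
    have u : min (η x) 1 * ‖e + w‖ ≤ 2 := by
      have := mul_le_mul_of_nonneg_left (norm_add_le e w) m0.le
      rw [he] at this
      linarith
    have b' := mul_le_mul_of_nonneg_left b v1.le
    simp only [RCLike.ofReal_real_eq_id, id] at b'
    rw [mul_inv_cancel_left₀ v1.ne', mul_sub, mul_left_comm, mul_inv_cancel₀ v1.ne'] at b'
    nlinarith [mul_le_mul_of_nonneg_left r v1.le, mul_le_mul_of_nonneg_left u k0.le]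
  have k1 : 0 < ⟪c, fderiv ℝ g x e⟫ := by simpa using key 0 W.zero_mem (by simp)
  refine ⟨k1, fun w hw => ?_⟩
  rcases eq_or_ne w 0 with rfl | w0
  · simp
  have q : 0 < η x * ‖w‖ := mul_pos n0 (norm_pos_iff.2 w0)
  have n : η x * ‖(η x * ‖w‖)⁻¹ • w‖ ≤ 1 := by
    rw [norm_smul, Real.norm_of_nonneg (inv_pos.2 q).le, mul_left_comm, inv_mul_cancel₀ q.ne']
  have b1 := mul_pos q (key _ (W.smul_mem _ hw) n)
  have b2 := mul_pos q (key _ (W.neg_mem (W.smul_mem _ hw)) (by rwa [norm_neg]))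
  rw [map_neg, inner_neg_right] at b2
  rw [map_smul, real_inner_smul_right, mul_add] at b1 b2
  rw [mul_neg] at b2
  rw [mul_inv_cancel_left₀ q.ne'] at b1 b2
  exact abs_le.2 ⟨by linarith, by linarith⟩

end Vale.Agent.P073
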