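import Vale.Agent.P073.TStm

/-! P073: the averaging step along one direction. -/

open MeasureTheory Set Metric Filter
open scoped ContDiff RealInnerProductSpace Topology ENNReal

namespace Vale.Agent.P073

namespace TStepFAux

/-- the local properties required at the scale `r` -/
def Q (Ω : Set E) (f : E → E) (e c : E) (W : Submodule ℝ E) (δ : E → ℝ) (x : E) (r : ℝ) : Prop :=
  ball x (8 * r) ⊆ Ω ∧
    (∀ y ∈ ball x (8 * r), ∀ w ∈ W, y + w ∈ ball x (8 * r) → ⟪c, f (y + w)⟫ = ⟪c, f y⟫) ∧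
    (∀ y ∈ ball x (8 * r), ∀ t > (0 : ℝ), y + t • e ∈ ball x (8 * r) →
      ⟪c, f y⟫ < ⟪c, f (y + t • e)⟫) ∧
    ∀ y ∈ closedBall x r, ‖f y - f x‖ ≤ δ x

theorem Q_mono {Ω : Set E} {f : E → E} {e c : E} {W : Submodule ℝ E} {δ : E → ℝ} (x : E)
    (r r' : ℝ) (l : r' ≤ r) (h : Q Ω f e c W δ x r) : Q Ω f e c W δ x r' := by
  have s : ball x (8 * r') ⊆ ball x (8 * r) := ball_subset_ball (by linarith)
  exact ⟨s.trans h.1, fun y hy w hw k => h.2.1 y (s hy) w hw (s k),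
    fun y hy t ht k => h.2.2.1 y (s hy) t ht (s k),
    fun y hy => h.2.2.2 y (closedBall_subset_closedBall l hy)⟩

theorem Q_loc {Ω : Set E} {f : E → E} {e c : E} {W : Submodule ℝ E} {δ : E → ℝ} (hΩ : IsOpen Ω)
    (hf : ContinuousOn f Ω) (hL : Lev Ω f e c W) (hδ : Ga Ω δ) :
    ∀ x ∈ Ω, ∃ r > 0, ∀ᶠ y in 𝓝 x, Q Ω f e c W δ y r := by
  intro x hx
  obtain ⟨r0, r00, sub, l1, l2⟩ := hL x hx
  obtain ⟨a, a0, ha⟩ := hδ (closedBall x (r0 / 2)) (isCompact_closedBall _ _)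
    ((closedBall_subset_ball (half_lt_self r00)).trans sub)
  obtain ⟨s, s0, hs⟩ := Metric.continuousAt_iff.1 (hf.continuousAt (hΩ.mem_nhds hx)) (a / 2)
    (half_pos a0)
  have m0 : 0 < min (r0 / 16) (s / 2) := lt_min (by positivity) (by positivity)
  have m1 := min_le_left (r0 / 16) (s / 2)
  have m2 := min_le_right (r0 / 16) (s / 2)
  refine ⟨min (r0 / 16) (s / 2), m0, ?_⟩
  filter_upwards [ball_mem_nhds x m0] with y hy
  have d := mem_ball.1 hy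
  have b : ball y (8 * min (r0 / 16) (s / 2)) ⊆ ball x r0 := ball_subset_ball' (by linarith)
  refine ⟨b.trans sub, fun z hz w hw k => l1 z (b hz) w hw (b k),
    fun z hz t ht k => l2 z (b hz) t ht (b k), fun z hz => ?_⟩
  have d' := mem_closedBall.1 hz
  have k1 := hs (x := z) (by linarith [dist_triangle z y x])
  have k2 := hs (x := y) (by linarith)
  have k3 := ha y (mem_closedBall.2 (by linarith))
  rw [← dist_eq_norm]
  linarith [dist_triangle_right (f z) (f y) (f x)]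

end TStepFAux

theorem t_stepF (h1 : S_Av) (h2 : S_AvC) (h3 : S_Beta) (h4 : S_Inf) (h5 : S_Ga) (h6 : S_Nu)
    (h7 : S_Kap) : S_StepF := by
  intro p Ω f G e c W δ η ε hp hp' hΩ hb hf hS he hW hL hδ hη hε
  obtain ⟨pr, ae1⟩ := h6.2.2.2 e he
  obtain ⟨ρ, ρ0, hρ⟩ := h1 p Ω (nuE e) f G ε hp hp' hΩ hb ae1 hf hS hε
  obtain ⟨g1, q1, q2⟩ := gauge (Ω := Ω) (TStepFAux.Q Ω f e c W δ)
    (fun x r r' _ l h => TStepFAux.Q_mono x r r' l h) (TStepFAux.Q_loc hΩ hf hL hδ)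
  have gη : Ga Ω fun x => min (η x) 1 / 4 := fun K hK hs => by
    obtain ⟨a, a0, ha⟩ := hη K hK hs
    refine ⟨min a 1 / 4, div_pos (lt_min a0 one_pos) (by norm_num), fun x hx => ?_⟩
    have := min_le_min_right 1 (ha x hx)
    show min a 1 / 4 ≤ min (η x) 1 / 4
    linarith
  obtain ⟨g2, q3, q4⟩ := h4 Ω _ hΩ hb gη
  obtain ⟨β, ad, hβ⟩ := h3 Ω (fun x => min (g1 x) (g2 x)) (min ρ (1 / 8)) hΩ hb
    ((h5 Ω hΩ).2.1 g1 g2 q2 q3).1 (lt_min ρ0 (by norm_num)) (min_le_right _ _)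
  have hQ : ∀ x ∈ Ω, TStepFAux.Q Ω f e c W δ x (β x) := fun x hx =>
    TStepFAux.Q_mono x _ _ ((hβ x hx).1.trans (min_le_left _ _)) (q1 x hx).2
  obtain ⟨H, s1, s2, s3⟩ := hρ β _ ad (min_le_left _ _)
  obtain ⟨c1, -, c3⟩ := h2 Ω β _ (nuE e) f hΩ ad ae1 hf
  obtain ⟨κ, k1, k2⟩ := h7 Ω f e c W β η _ hΩ hf he hW ad fun x hx => by
    refine ⟨(hQ x hx).1, (hQ x hx).2.1, (hQ x hx).2.2.1, fun y hy => ?_⟩
    have b0 := ad.pos x hx
    have d := mem_ball.1 hy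
    have hy' : y ∈ Ω := (hQ x hx).1 (ball_subset_ball (by linarith) hy)
    have b : ball y (7 * β x) ⊆ Ω := (ball_subset_ball' (by linarith)).trans (hQ x hx).1
    have i : 7 * β x ≤ infDist y Ωᶜ := (le_infDist (ne_compl hb)).2 fun z hz =>
      not_lt.1 fun h => hz (b (mem_ball'.2 h))
    have m : x ∈ closedBall y (infDist y Ωᶜ / 2) := mem_closedBall'.2 (by linarith)
    exact ((hβ y hy').2.trans (min_le_right _ _)).trans (q4 y hy' x m)
  exact ⟨Av (nuE e) β f, H, κ, c1, s1, fun x hx => c3 x hx (f x) (δ x) (hQ x hx).2.2.2, s2, s3,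
    k1, k2⟩

end Vale.Agent.P073
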