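import Vale.Agent.P073.TStm

/-! P073: the tolerance function. -/

open MeasureTheory Set Metric Filter
open scoped ContDiff RealInnerProductSpace Topology ENNReal

namespace Vale.Agent.P073

theorem t_tau : S_Tau := by
  intro Ω Λ f hΩ hb' hΛ hb hf
  obtain ⟨cf, bf, k, hk, ik⟩ := id hf
  obtain ⟨δ, d1, d2⟩ := gauge (Ω := Ω) (fun x r => x ∈ Ω → r ≤ infDist (f x) Λᶜ / 2 ∧
      ∀ y ∈ Ω, dist (f x) (f y) ≤ 2 * r → y ∈ ball x (infDist x Ωᶜ / 8))
    (fun x r r' _ l a hx => ⟨l.trans (a hx).1, fun y hy b => (a hx).2 y hy (by linarith)⟩)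
    fun x hx => by
    have q := (hΩ.isClosed_compl.notMem_iff_infDist_pos (ne_compl hb')).1 (not_not.2 hx)
    have r0 : 0 < infDist x Ωᶜ / 32 := by positivity
    have p := (hΛ.isClosed_compl.notMem_iff_infDist_pos (ne_compl hb)).1 (not_not.2 (bf.mapsTo hx))
    have c := cf.continuousAt (hΩ.mem_nhds hx)
    obtain ⟨s, s0, hs⟩ := Metric.continuousWithinAt_iff.1 (hk _ (bf.mapsTo hx)) _ r0
    refine ⟨min (infDist (f x) Λᶜ / 4) (s / 4), by positivity, ?_⟩
    filter_upwards [ball_mem_nhds x r0, c.eventually (ball_mem_nhds _ (half_pos s0)),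
      ((continuous_infDist_pt Λᶜ).continuousAt.comp c).eventually (lt_mem_nhds (half_lt_self p))]
      with z h1 h2 h3 hz
    have e' : infDist (f x) Λᶜ / 2 < infDist (f z) Λᶜ := h3
    refine ⟨by linarith [min_le_left (infDist (f x) Λᶜ / 4) (s / 4)], fun y hy l => ?_⟩
    have e2 := min_le_right (infDist (f x) Λᶜ / 4) (s / 4)
    have t := hs (bf.mapsTo hy) (by linarith [dist_triangle_left (f y) (f x) (f z)])
    rw [ik.1 hy, ik.1 hx] at t
    have u : infDist x Ωᶜ ≤ infDist z Ωᶜ + dist x z := infDist_le_infDist_add_dist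
    rw [mem_ball] at h1 ⊢
    rw [dist_comm x z] at u
    linarith [dist_triangle_right y z x]
  exact ⟨δ, d2, fun x hx => (d1 x hx).2 hx⟩

end Vale.Agent.P073
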