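import Vale.Agent.P073.TStm

/-! P073: continuity of the variable translations in `L^p`. -/

open MeasureTheory Set Metric Filter
open scoped ContDiff RealInnerProductSpace Topology ENNReal

namespace Vale.Agent.P073

theorem t_trans (h1 : S_CovLp) : S_Trans := by
  intro p Ω w ε hp hp' hO hB hw hε
  have hε4 : ε / 4 ≠ 0 := by simp [hε]
  have hW : MemLp (Ω.indicator w) p volume := (memLp_indicator_iff_restrict hO.measurableSet).2 hw
  obtain ⟨u, uc, uε, ucont, -⟩ := hW.exists_hasCompactSupport_eLpNorm_sub_le hp' hε4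
  have e1 : eLpNorm (fun x => w x - u x) p (volume.restrict Ω) ≤ ε / 4 := by
    refine le_trans (le_of_eq (eLpNorm_congr_ae ?_))
      ((eLpNorm_mono_measure _ (Measure.restrict_le_self (s := Ω))).trans uε)
    filter_upwards [ae_restrict_mem hO.measurableSet] with x hx
    simp [hx]
  have m1 : AEStronglyMeasurable (fun x => w x - u x) (volume.restrict Ω) :=
    hw.1.sub ucont.aestronglyMeasurable
  have hfin : (volume.restrict Ω) univ ^ p.toReal⁻¹ ≠ ⊤ := by
    refine ENNReal.rpow_ne_top_of_nonneg (by positivity) ?_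
    rw [Measure.restrict_apply_univ]
    exact hB.measure_lt_top.ne
  obtain ⟨η, η0, hη⟩ := ENNReal.exists_nnreal_pos_mul_lt hfin hε4
  obtain ⟨ρ, ρ0, hρ⟩ := Metric.uniformContinuous_iff.1
    (uc.uniformContinuous_of_continuous ucont) η (by exact_mod_cast η0)
  refine ⟨ρ / 2, half_pos ρ0, fun β L z hA hL hz => ?_⟩
  obtain ⟨c1, c2⟩ := h1 p Ω β L z hp hp' hO hA hz fun x => w x - u x
  obtain ⟨-, c3⟩ := h1 p Ω β L z hp hp' hO hA hz u
  have m2 : AEStronglyMeasurable (fun x => u (x + β x • z) - u x) (volume.restrict Ω) :=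
    (c3 ucont.aestronglyMeasurable).sub ucont.aestronglyMeasurable
  have e2 : eLpNorm (fun x => u (x + β x • z) - u x) p (volume.restrict Ω) ≤ ε / 4 := by
    refine (eLpNorm_le_of_ae_bound (C := η) ?_).trans ?_
    · filter_upwards [ae_restrict_mem hO.measurableSet] with x hx
      rw [← dist_eq_norm]
      refine (hρ ?_).le
      rw [dist_eq_norm, add_sub_cancel_left, norm_smul, Real.norm_of_nonneg (hA.pos x hx).le]
      have := hA.le x hx
      have := hA.pos x hx
      nlinarith [norm_nonneg z]
    · rw [ENNReal.ofReal_coe_nnreal, mul_comm]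
      exact hη.le
  have e : (fun x => w (x + β x • z) - w x) =
      ((fun x => w (x + β x • z) - u (x + β x • z)) + fun x => u (x + β x • z) - u x) -
        fun x => w x - u x := by
    funext x
    simp only [Pi.add_apply, Pi.sub_apply]
    abel
  rw [e]
  refine (eLpNorm_sub_le ((c2 m1).add m2) m1 hp).trans ?_
  refine (add_le_add (eLpNorm_add_le (c2 m1) m2 hp) e1).trans ?_
  calc _ ≤ 2 * (ε / 4) + ε / 4 + ε / 4 := by
        gcongr
        exact c1.trans (by gcongr)
    _ = 4 * (ε / 4) := by ring
    _ ≤ ε := ENNReal.mul_div_le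

end Vale.Agent.P073
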