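import Vale.Agent.P073.TStm

/-! P073: triangular homeomorphisms. -/

open MeasureTheory Set Metric Filter
open scoped ContDiff RealInnerProductSpace Topology ENNReal

namespace Vale.Agent.P073

namespace TTriAux

/-- vectors whose coordinates `j ≤ k` vanish -/
def Wk (k : Fin 3) : Submodule ℝ E where
  carrier := {w | ∀ j ≤ k, w j = 0}
  add_mem' h h' j hj := by simp [h j hj, h' j hj]
  zero_mem' j _ := rfl
  smul_mem' c w h j hj := by simp [h j hj]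

theorem a1 {v a r b : ℝ} (ha : 0 < a) (h : |r| ≤ b * a) (hb : b < |v|) : 0 < v * (v * a + r) := by
  have h1 : |v * r| ≤ |v| * (b * a) := by rw [abs_mul]; gcongr
  have h2 : |v| * (b * a) < |v| * (|v| * a) := by
    have : 0 ≤ b := by
      by_contra n
      nlinarith [abs_nonneg r, not_le.1 n]
    have := this.trans_lt hb
    gcongr
  nlinarith [abs_mul_abs_self v, neg_abs_le (v * r)]

theorem thr (hI : S_Inf) {Ω : Set E} (hΩ : IsOpen Ω) (hb : Bornology.IsBounded Ω) {n : E → ℝ}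
    (hn : Ga Ω n) : ∃ θ η : E → ℝ, Ga Ω η ∧
      ∀ x ∈ Ω, ∀ z ∈ ball x (infDist x Ωᶜ / 8), η z ≤ θ x ∧ θ x ≤ n z := by
  obtain ⟨θ, t1, t2⟩ := hI Ω n hΩ hb hn
  obtain ⟨η, e1, e2⟩ := hI Ω θ hΩ hb t1
  refine ⟨θ, η, e1, fun x hx z hz => ?_⟩
  have d := mem_ball.1 hz
  have d0 := infDist_nonneg (x := x) (s := Ωᶜ)
  have l := infDist_le_infDist_add_dist (s := Ωᶜ) (x := x) (y := z)
  rw [dist_comm] at l
  exact ⟨e2 z (ball_infDist_compl_subset (ball_subset_ball (by linarith) hz)) x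
    (mem_closedBall'.2 (by linarith)), t2 x hx z (mem_closedBall.2 (by linarith))⟩

theorem dec (v : E) : v = v 0 • EuclideanSpace.single 0 1 + v 1 • EuclideanSpace.single 1 1 +
    v 2 • EuclideanSpace.single 2 1 := by
  ext j
  fin_cases j <;> simp

theorem inn (s : ℝ) (k : Fin 3) (u : E) : ⟪s • EuclideanSpace.single k (1 : ℝ), u⟫ = s * u k := by
  simp [real_inner_smul_left, EuclideanSpace.inner_single_left]

end TTriAux

open TTriAux

theorem t_tri (hS : S_Step) (hσ : S_Sign) (hI : S_Inf) (hG : S_Ga) (hD : S_Dif) (hT : S_Tau)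
    (hF : S_Fin) (hM : S_Mix) : S_Tri := by
  intro p Ω Λ f G hp hp' hΩ hc hb hΛ hb' hc' hf hs ht
  refine hF p Ω Λ f G hp hΩ hs fun ε hε => ?_
  choose σ s1 s2 using hσ Ω Λ f hΩ hc hΛ hf ht
  obtain ⟨g1, g2, g3, g4, g5, g6⟩ := hG Ω hΩ
  obtain ⟨τ, t1, t2⟩ := hT Ω Λ f hΩ hb hΛ hb' hf
  obtain ⟨e, he⟩ : ∃ e : Fin 3 → E, ∀ k, e k = EuclideanSpace.single k 1 := ⟨_, fun _ => rfl⟩
  have e1 : ∀ k, ‖e k‖ = 1 := fun k => by simp [he]
  have c1 : ∀ k, ‖σ k • e k‖ = 1 := fun k => by rw [norm_smul, e1, Real.norm_eq_abs, s1, mul_one]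
  have st : ∀ k η, Ga Ω η → ∃ g : E → E, (ContDiffOn ℝ ∞ g Ω ∧ (∀ x ∈ Ω, ‖g x - f x‖ ≤ τ x / 3) ∧
      eLpNorm (g - f) p (volume.restrict Ω) ≤ ε / 3 ∧
      ∀ i, eLpNorm (pd i g - G i) p (volume.restrict Ω) ≤ ε / 3) ∧
      Ga Ω (fun x => ⟪σ k • e k, fderiv ℝ g x (e k)⟫ / (4 * (1 + ‖fderiv ℝ g x‖))) ∧
      ∀ x ∈ Ω, 0 < ⟪σ k • e k, fderiv ℝ g x (e k)⟫ ∧
        (∀ j, |⟪σ k • e k, fderiv ℝ g x (e j)⟫| ≤ ‖fderiv ℝ g x‖) ∧ ∀ w ∈ Wk k,
        |⟪σ k • e k, fderiv ℝ g x w⟫| ≤ η x * ‖w‖ * ⟪σ k • e k, fderiv ℝ g x (e k)⟫ :=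
    fun k η hη => by
    obtain ⟨g, a1, a2, a3, a4, a5⟩ := hS p Ω f G (e k) (σ k • e k) (Wk k) (fun x => τ x / 3) η
      (ε / 3) hp hp' hΩ hb hf.1 hs (e1 k) (c1 k)
      (fun w hw => by simpa [he, EuclideanSpace.inner_single_left] using hw k le_rfl)
      (fun x hx => by
        obtain ⟨r, r0, b1, b2, b3⟩ := s2 k x hx
        simp only [he, inn]
        exact ⟨r, r0, b1, fun y hy w hw hy' => by
          rw [b2 k _ hy' y hy fun j hj => by simp [hw j hj]], b3⟩)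
      (g4 _ _ (g2 _ _ t1 (g6 (1 / 3) (by norm_num))).2 fun x _ => by linarith) hη (by simp [hε])
    have cd := a1.continuousOn_fderiv_of_isOpen hΩ (by simp)
    refine ⟨g, ⟨a1, a2, a4, a5⟩, g1 _ ((continuousOn_const.inner (cd.clm_apply
      continuousOn_const)).div (continuousOn_const.mul (continuousOn_const.add cd.norm))
      fun x _ => by positivity) fun x hx => by have := (a3 x hx).1; positivity,
      fun x hx => ⟨(a3 x hx).1, fun j => ?_, (a3 x hx).2⟩⟩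
    have := (fderiv ℝ g x).le_opNorm (e j)
    rw [e1, mul_one] at this
    exact (abs_real_inner_le_norm (σ k • e k) _).trans (by rwa [c1, one_mul])
  obtain ⟨u2, a2, b2, c2⟩ := st 2 _ (g6 1 one_pos)
  obtain ⟨θ1, η1, p1, q1⟩ := thr hI hΩ hb b2
  obtain ⟨u1, a1', b1, c1'⟩ := st 1 _ p1
  obtain ⟨θ0, η0, p0, q0⟩ := thr hI hΩ hb (g2 _ _ (g2 _ _ p1 b1).2 b2).1
  obtain ⟨u0, a0, -, c0⟩ := st 0 _ p0
  obtain ⟨h, h1, h2, h3, h4, h5⟩ := hM p Ω f G ![u0, u1, u2] τ ε hp hΩ hs fun k => by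
    fin_cases k
    exacts [a0, a1', a2]
  refine ⟨h, hD Ω Λ f h τ (fun x => infDist x Ωᶜ / 8) hΩ hΛ hb' hc' hf h1 fun x hx => ?_, h4, h5⟩
  have d0 := g3 _ (g5 hb) x hx
  have sb : ball x (infDist x Ωᶜ / 8) ⊆ Ω :=
    (ball_subset_ball (by linarith)).trans ball_infDist_compl_subset
  refine ⟨h2 x hx, (t2 x hx).1, by linarith, sb, (t2 x hx).2, fun v hv => ?_⟩
  have tr : ∀ z ∈ Ω, ∀ k, ⟪v k • σ k • e k, fderiv ℝ h z v⟫ =
      v k * ⟪σ k • e k, fderiv ℝ (![u0, u1, u2] k) z v⟫ := fun z hz k => by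
    rw [real_inner_smul_left, he, inn, inn, h3 z hz]
  have dv : v = v 0 • e 0 + v 1 • e 1 + v 2 • e 2 := by simpa only [he] using dec v
  have n1 : ‖v 1 • e 1 + v 2 • e 2‖ ≤ |v 1| + |v 2| :=
    (norm_add_le _ _).trans (by simp [norm_smul, e1])
  have ex : ∀ (c : E) (D : E →L[ℝ] E), ⟪c, D v⟫ =
      v 0 * ⟪c, D (e 0)⟫ + v 1 * ⟪c, D (e 1)⟫ + v 2 * ⟪c, D (e 2)⟫ := fun c D => by
    conv_lhs => rw [dv]
    simp only [map_add, map_smul, inner_add_right, real_inner_smul_right]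
  rcases lt_or_ge (θ0 x * (|v 1| + |v 2|)) |v 0| with k0 | k0
  · refine ⟨v 0 • σ 0 • e 0, fun z hz => ?_⟩
    obtain ⟨i1, -, i3⟩ := c0 z (sb hz)
    have i4 := i3 (v 1 • e 1 + v 2 • e 2) fun j hj => by
      obtain rfl : j = 0 := le_zero_iff.1 hj
      simp [he]
    rw [tr z (sb hz), ex, add_assoc]
    refine a1 i1 ?_ k0
    simp only [map_add, map_smul, inner_add_right, real_inner_smul_right] at i4
    refine i4.trans (mul_le_mul_of_nonneg_right ?_ i1.le)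
    exact mul_le_mul (q0 x hx z hz).1 n1 (norm_nonneg _)
      ((g3 _ p0 z (sb hz)).le.trans (q0 x hx z hz).1)
  have w2 : ∀ z ∈ ball x (infDist x Ωᶜ / 8), θ1 x ≤ 1 / 4 := fun z hz => by
    obtain ⟨i1, i2, -⟩ := c2 z (sb hz)
    refine (q1 x hx z hz).2.trans ((div_le_iff₀ (by positivity)).2 ?_)
    linarith [(le_abs_self _).trans (i2 2)]
  rcases lt_or_ge (2 * θ1 x * |v 2|) |v 1| with k1 | k1
  · refine ⟨v 1 • σ 1 • e 1, fun z hz => ?_⟩
    obtain ⟨i1, i2, i3⟩ := c1' z (sb hz)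
    have i4 := i3 (v 2 • e 2) fun j hj => by
      have : j ≠ 2 := by rintro rfl; exact absurd hj (by decide)
      simp [he, this]
    rw [tr z (sb hz), ex, add_comm (v 0 * _), add_assoc]
    simp only [map_smul, real_inner_smul_right, norm_smul, e1, mul_one, Real.norm_eq_abs] at i4
    have j0 := g3 _ p1 z (sb hz)
    have j1 := (q1 x hx z hz).1
    have j2 := (q0 x hx z hz).2.trans (min_le_left _ _)
    have j3 := w2 z hz
    have j4 := (g3 _ p0 z (sb hz)).le.trans (q0 x hx z hz).1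
    have i5 := i2 0
    simp only [Matrix.cons_val] at *
    generalize ⟪σ 1 • e 1, fderiv ℝ u1 z (e 1)⟫ = a at *
    generalize ⟪σ 1 • e 1, fderiv ℝ u1 z (e 0)⟫ = b at *
    generalize ⟪σ 1 • e 1, fderiv ℝ u1 z (e 2)⟫ = b' at *
    have N0 := norm_nonneg (fderiv ℝ u1 z)
    generalize ‖fderiv ℝ u1 z‖ = N at *
    rw [← mul_div_assoc, le_div_iff₀ (by positivity)] at j2
    have v1 := abs_nonneg (v 1)
    have v2 := abs_nonneg (v 2)
    have m1 : η1 z * |v 2| ≤ |v 1| / 2 := by nlinarith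
    have m2 : η1 z * (|v 1| + |v 2|) ≤ |v 1| := by nlinarith
    have m3 : |v 0 * b| ≤ θ0 x * (|v 1| + |v 2|) * N := by rw [abs_mul]; gcongr
    have m4 : θ0 x * N * (|v 1| + |v 2|) ≤ η1 z * a / 4 * (|v 1| + |v 2|) := by
      gcongr; nlinarith
    have v0 : 0 < |v 1| := lt_of_le_of_lt (by nlinarith) k1
    refine a1 (b := 3 / 4 * |v 1|) i1 ((abs_add_le _ _).trans ?_) (by linarith)
    nlinarith [mul_le_mul_of_nonneg_right m1 i1.le, mul_le_mul_of_nonneg_right m2 i1.le]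
  · refine ⟨v 2 • σ 2 • e 2, fun z hz => ?_⟩
    obtain ⟨i1, i2, -⟩ := c2 z (sb hz)
    rw [tr z (sb hz), ex, add_comm (_ + _)]
    have j1 := (q1 x hx z hz).2
    have j2 := (q0 x hx z hz).2.trans (min_le_right _ _)
    have j3 := w2 z hz
    have j4 := (g3 _ p0 z (sb hz)).le.trans (q0 x hx z hz).1
    have j5 := (g3 _ p1 z (sb hz)).le.trans (q1 x hx z hz).1
    have i5 := i2 0
    have i6 := i2 1
    have v0 : 0 < |v 2| := abs_pos.2 fun l => hv (by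
      have l1 : v 1 = 0 := by simpa [l] using k1
      have l0 : v 0 = 0 := by simpa [l, l1] using k0
      rw [dv, l, l1, l0]; simp)
    simp only [Matrix.cons_val] at *
    generalize ⟪σ 2 • e 2, fderiv ℝ u2 z (e 2)⟫ = a at *
    generalize ⟪σ 2 • e 2, fderiv ℝ u2 z (e 0)⟫ = b at *
    generalize ⟪σ 2 • e 2, fderiv ℝ u2 z (e 1)⟫ = b' at *
    have N0 := norm_nonneg (fderiv ℝ u2 z)
    generalize ‖fderiv ℝ u2 z‖ = N at *
    rw [le_div_iff₀ (by positivity)] at j1 j2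
    have m0 : |v 0| ≤ θ0 x * (3 / 2 * |v 2|) := k0.trans (by gcongr; nlinarith)
    have m1 : |v 0 * b| ≤ θ0 x * (3 / 2 * |v 2|) * N := by rw [abs_mul]; gcongr
    have m2 : |v 1 * b'| ≤ 2 * θ1 x * |v 2| * N := by rw [abs_mul]; gcongr
    have m3 : θ0 x * N * |v 2| ≤ a / 4 * |v 2| := by gcongr; nlinarith
    have m4 : θ1 x * N * |v 2| ≤ a / 4 * |v 2| := by gcongr; nlinarith
    refine a1 (b := 7 / 8 * |v 2|) i1 ((abs_add_le _ _).trans ?_) (by linarith)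
    nlinarith

end Vale.Agent.P073
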