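import Vale.Agent.P073.TAv
import Vale.Agent.P073.TAv0
import Vale.Agent.P073.TAv1
import Vale.Agent.P073.TAvC
import Vale.Agent.P073.TAvW
import Vale.Agent.P073.TBall
import Vale.Agent.P073.TBeta
import Vale.Agent.P073.TBil
import Vale.Agent.P073.TChain
import Vale.Agent.P073.TCov
import Vale.Agent.P073.TCovLp
import Vale.Agent.P073.TD
import Vale.Agent.P073.TDF
import Vale.Agent.P073.TDif
import Vale.Agent.P073.TFin
import Vale.Agent.P073.TGa
import Vale.Agent.P073.TGrow
import Vale.Agent.P073.TInf
import Vale.Agent.P073.TInj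
import Vale.Agent.P073.TJoint
import Vale.Agent.P073.TJointD
import Vale.Agent.P073.TKap
import Vale.Agent.P073.TLip
import Vale.Agent.P073.TLoc
import Vale.Agent.P073.TMink
import Vale.Agent.P073.TMix
import Vale.Agent.P073.TNu
import Vale.Agent.P073.TOne
import Vale.Agent.P073.TRep
import Vale.Agent.P073.TSign
import Vale.Agent.P073.TStep
import Vale.Agent.P073.TStepF
import Vale.Agent.P073.TTau
import Vale.Agent.P073.TTrans
import Vale.Agent.P073.TTri

/-! P073: nearly affine and triangular homeomorphisms, assembled. -/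

namespace Vale.Agent.P073

theorem a_covLp : S_CovLp := t_covLp t_cov

theorem a_joint : S_Joint := t_joint t_cov

theorem a_av : S_Av :=
  t_av (t_avW (t_chain a_covLp) a_joint (t_jointD a_joint)) (t_av0 a_joint t_mink (t_trans a_covLp))
    (t_av1 (t_jointD a_joint) t_mink (t_trans a_covLp) a_covLp)

theorem a_loc : S_Loc := t_loc (t_lip t_rep) t_nu

theorem a_d : S_D := t_d (t_dF a_av t_avC t_beta t_nu a_loc) t_ball t_dif t_fin

theorem a_tri : S_Tri :=
  t_tri (t_step (t_stepF a_av t_avC t_beta t_inf t_ga t_nu (t_kap (t_grow t_one))) t_ga)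
    (t_sign t_inj) t_inf t_ga t_dif t_tau t_fin t_mix

end Vale.Agent.P073
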