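import Vale.Agent.P073.TStm

/-! P073: averaging at a variable scale approximates in the Sobolev norm. -/

open MeasureTheory Set Metric Filter
open scoped ContDiff RealInnerProductSpace Topology ENNReal

namespace Vale.Agent.P073

theorem t_av (h1 : S_AvW) (h2 : S_Av0) (h3 : S_Av1) : S_Av := by
  intro p Ω ν _ f G ε hp hp' hΩ hb hν hf hS hε
  obtain ⟨ρ1, hρ1, H1⟩ := h2 p Ω ν f ε hp hp' hΩ hb hν hS.2.1 hε
  obtain ⟨ρ2, hρ2, H2⟩ := h3 p Ω ν G ε hp hp' hΩ hb hν hS.2.2 hε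
  refine ⟨min ρ1 ρ2, lt_min hρ1 hρ2, fun β L hA hL => ?_⟩
  obtain ⟨a1, a2⟩ := H1 β L hA (hL.trans (min_le_left _ _))
  have a3 := H2 β L hA (hL.trans (min_le_right _ _))
  exact ⟨fun i x => ∫ z, Dv β G i x z ∂ν,
    ⟨h1 Ω β L ν f G hΩ hb hA hν hf (hS.one hp hb), a1, fun i => (a3 i).1⟩, a2, fun i => (a3 i).2⟩

end Vale.Agent.P073
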