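import Vale.Agent.P073.TStm

/-! P073: components of triangular homeomorphisms are injective along their own coordinate. -/

open MeasureTheory Set Metric Filter
open scoped ContDiff RealInnerProductSpace Topology ENNReal

namespace Vale.Agent.P073

theorem t_inj : S_Inj := by
  intro Ω Λ f x r hΛ ⟨hc, hb, k, hk, hi⟩ hB hT i
  induction i using WellFoundedLT.induction with
  | ind i ih =>
  intro y hy z hz hj hne he
  obtain ⟨c, ec⟩ : ∃ c : ℝ → E, c = fun t => y + t • (z - y) := ⟨_, rfl⟩
  have cc : Continuous c := by rw [ec]; fun_prop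
  have cj : ∀ t j, c t j = y j + t * (z j - y j) := fun t j => by rw [ec]; simp
  have cb : ∀ t ∈ Icc (0 : ℝ) 1, c t ∈ ball x r := fun t ht => by
    rw [ec]; exact (convex_ball x r).add_smul_sub_mem hy hz ht
  have pc : ∀ j : Fin 3, Continuous fun v : E => v j := fun j => by fun_prop
  obtain ⟨t0, ht0, hx⟩ := exists_isLocalExtr_Ioo (f := fun t => f (c t) i) zero_lt_one
    ((pc i).comp_continuousOn (hc.comp cc.continuousOn fun t ht => hB (cb t ht)))
    (by rw [ec]; simpa using he)
  obtain ⟨σ, s2, hσ⟩ : ∃ σ : ℝ, σ * σ = 1 ∧ ∀ᶠ t in 𝓝 t0, σ * f (c t) i ≤ σ * f (c t0) i := by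
    rcases hx with h | h
    · exact ⟨-1, by norm_num, h.mono fun t ht => by linarith⟩
    · exact ⟨1, by norm_num, h.mono fun t ht => by linarith⟩
  have qb := cb t0 (Ioo_subset_Icc_self ht0)
  have qΛ := hΛ.mem_nhds (hb.mapsTo (hB qb))
  obtain ⟨w, ew⟩ : ∃ w : ℝ → E, w = fun s => f (c t0) + (σ * s) • EuclideanSpace.single i 1 :=
    ⟨_, rfl⟩
  have tw : Tendsto w (𝓝 0) (𝓝 (f (c t0))) := by
    have : Continuous w := by rw [ew]; fun_prop
    simpa [ew] using this.tendsto 0
  have tq : Tendsto (fun s => k (w s)) (𝓝 0) (𝓝 (c t0)) := by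
    have := (hk.continuousAt qΛ).tendsto.comp tw
    rwa [hi.1 (hB qb)] at this
  have tt : Tendsto (fun s => t0 + (k (w s) i - c t0 i) / (z i - y i)) (𝓝 0) (𝓝 t0) := by
    simpa using (((((pc i).tendsto _).comp tq).sub_const (c t0 i)).div_const
      (z i - y i)).const_add t0
  obtain ⟨s, ⟨⟨a1, a2⟩, a3, a4⟩, s0⟩ := (((((tw.eventually qΛ).and
    (tq.eventually (isOpen_ball.mem_nhds qb))).and ((tt.eventually hσ).and
      (((cc.tendsto t0).comp tt).eventually (isOpen_ball.mem_nhds qb)))).filter_mono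
        (nhdsWithin_le_nhds (s := Ioi 0))).and self_mem_nhdsWithin).exists
  have fq : f (k (w s)) = w s := hi.2 a1
  have lo : ∀ j, j < i → k (w s) j = c t0 j := by
    intro j
    induction j using WellFoundedLT.induction with
    | ind j ij =>
    intro hji
    by_contra hn
    refine ih j hji _ a2 _ qb (fun l hl => ij l hl (hl.trans hji)) hn ?_
    rw [fq, ew]
    simp [hji.ne]
  have e := hT i _ a4 _ a2 fun j hji => by
    rcases hji.lt_or_eq with h | rfl
    · rw [lo j h]
      simp only [Function.comp_apply, cj, hj j h, sub_self, mul_zero]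
    · simp only [Function.comp_apply, cj]
      field_simp [sub_ne_zero.2 hne.symm]
      ring
  have e2 : w s i = f (c t0) i + σ * s := by rw [ew]; simp
  simp only [Function.comp_apply] at e
  rw [e, fq, e2, mul_add, ← mul_assoc, s2] at a3
  have : (0 : ℝ) < s := s0
  linarith

end Vale.Agent.P073
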