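import Vale.Agent.P073.Grad
import Vale.Agent.P073.Defs2

/-! P073: averaging at a variable scale, the statements. -/

open MeasureTheory Set Metric Filter
open scoped ContDiff RealInnerProductSpace Topology ENNReal

namespace Vale.Agent.P073

/-- positive lower bounds on the compact subsets of `Ω` -/
def Ga (Ω : Set E) (δ : E → ℝ) : Prop := ∀ K, IsCompact K → K ⊆ Ω → ∃ c > 0, ∀ x ∈ K, c ≤ δ x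

/-- an admissible scale function -/
structure Adm (Ω : Set E) (β : E → ℝ) (L : ℝ) : Prop where
  sm : ContDiffOn ℝ ∞ β Ω
  lip : ∀ x y, |β x - β y| ≤ L * ‖x - y‖
  pos : ∀ x ∈ Ω, 0 < β x
  sub : ∀ x ∈ Ω, closedBall x (β x) ⊆ Ω
  le : ∀ x ∈ Ω, β x ≤ L
  hL : L ≤ 1 / 8
  L0 : 0 < L

/-- the average of `u` at the variable scale `β` -/
noncomputable def Av (ν : Measure E) (β : E → ℝ) (u : E → E) (x : E) : E :=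
  ∫ z, u (x + β x • z) ∂ν

/-- the uniform probability measure on the unit ball -/
noncomputable def nuB : Measure E := ProbabilityTheory.cond volume (ball (0 : E) 1)

/-- the uniform probability measure on the segment from `-e` to `e` -/
noncomputable def nuE (e : E) : Measure E :=
  (ProbabilityTheory.cond volume (Icc (-1 : ℝ) 1)).map fun t : ℝ => t • e

/-- the weak derivative of `f (x + β x • z)` -/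
noncomputable def Dv (β : E → ℝ) (G : Fin 3 → E → E) (i : Fin 3) (x z : E) : E :=
  G i (x + β x • z) + pd i β x • ∑ j, z j • G j (x + β x • z)

def S_Cov : Prop := ∀ (Ω : Set E) (β : E → ℝ) (L : ℝ) (z : E), IsOpen Ω → Adm Ω β L → ‖z‖ ≤ 1 →
  ∀ w : E → ℝ≥0∞, ∫⁻ x in Ω, w (x + β x • z) ≤ 2 * ∫⁻ x in Ω, w x

def S_CovLp : Prop := ∀ (p : ℝ≥0∞) (Ω : Set E) (β : E → ℝ) (L : ℝ) (z : E), 1 ≤ p → p ≠ ⊤ →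
  IsOpen Ω → Adm Ω β L → ‖z‖ ≤ 1 → ∀ w : E → E,
  eLpNorm (fun x => w (x + β x • z)) p (volume.restrict Ω) ≤ 2 * eLpNorm w p (volume.restrict Ω) ∧
  (AEStronglyMeasurable w (volume.restrict Ω) →
    AEStronglyMeasurable (fun x => w (x + β x • z)) (volume.restrict Ω))

def S_Chain : Prop := ∀ (Ω : Set E) (β : E → ℝ) (L : ℝ) (z : E) (f : E → E) (G : Fin 3 → E → E),
  IsOpen Ω → Bornology.IsBounded Ω → Adm Ω β L → ‖z‖ ≤ 1 → ContinuousOn f Ω → Sob 1 Ω f G →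
  WeakD Ω (fun x => f (x + β x • z)) fun i x => Dv β G i x z

def S_Mink : Prop := ∀ (p : ℝ≥0∞) (μ ν : Measure E) [SFinite μ] [IsProbabilityMeasure ν]
  (k : E → E → E) (ε : ℝ≥0∞), 1 ≤ p → p ≠ ⊤ →
  AEStronglyMeasurable (fun q : E × E => k q.1 q.2) (μ.prod ν) →
  (∀ᵐ z ∂ν, eLpNorm (fun x => k x z) p μ ≤ ε) → eLpNorm (fun x => ∫ z, k x z ∂ν) p μ ≤ ε

def S_Trans : Prop := ∀ (p : ℝ≥0∞) (Ω : Set E) (w : E → E) (ε : ℝ≥0∞), 1 ≤ p → p ≠ ⊤ → IsOpen Ω →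
  Bornology.IsBounded Ω → MemLp w p (volume.restrict Ω) → ε ≠ 0 → ∃ ρ > 0,
  ∀ (β : E → ℝ) (L : ℝ) (z : E), Adm Ω β L → L ≤ ρ → ‖z‖ ≤ 1 →
    eLpNorm (fun x => w (x + β x • z) - w x) p (volume.restrict Ω) ≤ ε

def S_AvC : Prop := ∀ (Ω : Set E) (β : E → ℝ) (L : ℝ) (ν : Measure E) [IsProbabilityMeasure ν]
  (f : E → E), IsOpen Ω → Adm Ω β L → (∀ᵐ z ∂ν, ‖z‖ ≤ 1) → ContinuousOn f Ω →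
  ContinuousOn (Av ν β f) Ω ∧ (∀ x ∈ Ω, Integrable (fun z => f (x + β x • z)) ν) ∧
  ∀ x ∈ Ω, ∀ (a : E) (M : ℝ), (∀ y ∈ closedBall x (β x), ‖f y - a‖ ≤ M) → ‖Av ν β f x - a‖ ≤ M

def S_Joint : Prop := ∀ (Ω : Set E) (β : E → ℝ) (L : ℝ) (ν : Measure E) [IsProbabilityMeasure ν]
  (w : E → E), IsOpen Ω → Adm Ω β L → (∀ᵐ z ∂ν, ‖z‖ ≤ 1) →
  (AEStronglyMeasurable w (volume.restrict Ω) → AEStronglyMeasurable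
    (fun q : E × E => w (q.1 + β q.1 • q.2)) ((volume.restrict Ω).prod ν)) ∧
  (IntegrableOn w Ω → Integrable
    (fun q : E × E => w (q.1 + β q.1 • q.2)) ((volume.restrict Ω).prod ν))

def S_JointD : Prop := ∀ (Ω : Set E) (β : E → ℝ) (L : ℝ) (ν : Measure E) [IsProbabilityMeasure ν]
  (G : Fin 3 → E → E), IsOpen Ω → Adm Ω β L → (∀ᵐ z ∂ν, ‖z‖ ≤ 1) → (∀ i, IntegrableOn (G i) Ω) →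
  (∀ i, ∀ x ∈ Ω, |pd i β x| ≤ L) ∧
  ∀ i, Integrable (fun q : E × E => Dv β G i q.1 q.2) ((volume.restrict Ω).prod ν)

def S_AvW : Prop := ∀ (Ω : Set E) (β : E → ℝ) (L : ℝ) (ν : Measure E) [IsProbabilityMeasure ν]
  (f : E → E) (G : Fin 3 → E → E), IsOpen Ω → Bornology.IsBounded Ω → Adm Ω β L →
  (∀ᵐ z ∂ν, ‖z‖ ≤ 1) → ContinuousOn f Ω → Sob 1 Ω f G →
  WeakD Ω (Av ν β f) fun i x => ∫ z, Dv β G i x z ∂ν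

def S_Av0 : Prop := ∀ (p : ℝ≥0∞) (Ω : Set E) (ν : Measure E) [IsProbabilityMeasure ν] (f : E → E)
  (ε : ℝ≥0∞), 1 ≤ p → p ≠ ⊤ → IsOpen Ω → Bornology.IsBounded Ω → (∀ᵐ z ∂ν, ‖z‖ ≤ 1) →
  MemLp f p (volume.restrict Ω) → ε ≠ 0 → ∃ ρ > 0, ∀ (β : E → ℝ) (L : ℝ), Adm Ω β L → L ≤ ρ →
    MemLp (Av ν β f) p (volume.restrict Ω) ∧ eLpNorm (Av ν β f - f) p (volume.restrict Ω) ≤ ε

def S_Av1 : Prop := ∀ (p : ℝ≥0∞) (Ω : Set E) (ν : Measure E) [IsProbabilityMeasure ν]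
  (G : Fin 3 → E → E) (ε : ℝ≥0∞), 1 ≤ p → p ≠ ⊤ → IsOpen Ω → Bornology.IsBounded Ω →
  (∀ᵐ z ∂ν, ‖z‖ ≤ 1) → (∀ i, MemLp (G i) p (volume.restrict Ω)) → ε ≠ 0 →
  ∃ ρ > 0, ∀ (β : E → ℝ) (L : ℝ), Adm Ω β L → L ≤ ρ → ∀ i,
    MemLp (fun x => ∫ z, Dv β G i x z ∂ν) p (volume.restrict Ω) ∧
    eLpNorm ((fun x => ∫ z, Dv β G i x z ∂ν) - G i) p (volume.restrict Ω) ≤ ε

def S_Av : Prop := ∀ (p : ℝ≥0∞) (Ω : Set E) (ν : Measure E) [IsProbabilityMeasure ν] (f : E → E)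
  (G : Fin 3 → E → E) (ε : ℝ≥0∞), 1 ≤ p → p ≠ ⊤ → IsOpen Ω → Bornology.IsBounded Ω →
  (∀ᵐ z ∂ν, ‖z‖ ≤ 1) → ContinuousOn f Ω → Sob p Ω f G → ε ≠ 0 →
  ∃ ρ > 0, ∀ (β : E → ℝ) (L : ℝ), Adm Ω β L → L ≤ ρ → ∃ H, Sob p Ω (Av ν β f) H ∧
    eLpNorm (Av ν β f - f) p (volume.restrict Ω) ≤ ε ∧
    ∀ i, eLpNorm (H i - G i) p (volume.restrict Ω) ≤ ε

def S_Beta : Prop := ∀ (Ω : Set E) (δ : E → ℝ) (L : ℝ), IsOpen Ω → Bornology.IsBounded Ω →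
  Ga Ω δ → 0 < L → L ≤ 1 / 8 →
  ∃ β, Adm Ω β L ∧ ∀ x ∈ Ω, β x ≤ δ x ∧ ‖fderiv ℝ β x‖ ≤ δ x

def S_Inf : Prop := ∀ (Ω : Set E) (δ : E → ℝ), IsOpen Ω → Bornology.IsBounded Ω → Ga Ω δ →
  ∃ δ', Ga Ω δ' ∧ ∀ y ∈ Ω, ∀ w ∈ closedBall y (infDist y Ωᶜ / 2), δ' y ≤ δ w

def S_Ga : Prop := ∀ (Ω : Set E), IsOpen Ω →
  (∀ δ, ContinuousOn δ Ω → (∀ x ∈ Ω, 0 < δ x) → Ga Ω δ) ∧
  (∀ δ η, Ga Ω δ → Ga Ω η → Ga Ω (fun x => min (δ x) (η x)) ∧ Ga Ω fun x => δ x * η x) ∧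
  (∀ δ, Ga Ω δ → ∀ x ∈ Ω, 0 < δ x) ∧
  (∀ δ η, Ga Ω δ → (∀ x ∈ Ω, δ x ≤ η x) → Ga Ω η) ∧
  (Bornology.IsBounded Ω → Ga Ω fun x => infDist x Ωᶜ) ∧ ∀ c > 0, Ga Ω fun _ => c

def S_Dif : Prop := ∀ (Ω Λ : Set E) (f g : E → E) (τ R : E → ℝ), IsOpen Ω → IsOpen Λ →
  Bornology.IsBounded Λ → IsConnected Λ → Homeo Ω Λ f → ContDiffOn ℝ ∞ g Ω →
  (∀ x ∈ Ω, ‖g x - f x‖ ≤ τ x ∧ τ x ≤ infDist (f x) Λᶜ / 2 ∧ 0 < R x ∧ ball x (R x) ⊆ Ω ∧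
    (∀ y ∈ Ω, dist (f x) (f y) ≤ 2 * τ x → y ∈ ball x (R x)) ∧
    ∀ v ≠ 0, ∃ c : E, ∀ z ∈ ball x (R x), 0 < ⟪c, fderiv ℝ g z v⟫) → Diffeo Ω Λ g

def S_Tau : Prop := ∀ (Ω Λ : Set E) (f : E → E), IsOpen Ω → Bornology.IsBounded Ω → IsOpen Λ →
  Bornology.IsBounded Λ → Homeo Ω Λ f → ∃ τ, Ga Ω τ ∧ ∀ x ∈ Ω, τ x ≤ infDist (f x) Λᶜ / 2 ∧
    ∀ y ∈ Ω, dist (f x) (f y) ≤ 2 * τ x → y ∈ ball x (infDist x Ωᶜ / 8)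

def S_Fin : Prop := ∀ (p : ℝ≥0∞) (Ω Λ : Set E) (f : E → E) (G : Fin 3 → E → E), 1 ≤ p → IsOpen Ω →
  Sob p Ω f G → (∀ ε : ℝ≥0∞, ε ≠ 0 → ∃ g, Diffeo Ω Λ g ∧
    eLpNorm (g - f) p (volume.restrict Ω) ≤ ε ∧
    ∀ i, eLpNorm (pd i g - G i) p (volume.restrict Ω) ≤ ε) → Approx p Ω Λ f G

def S_Nu : Prop := IsProbabilityMeasure nuB ∧ (∀ᵐ z ∂nuB, ‖z‖ < 1) ∧ ∫ z, z ∂nuB = 0 ∧
  ∀ e : E, ‖e‖ = 1 → IsProbabilityMeasure (nuE e) ∧ ∀ᵐ z ∂nuE e, ‖z‖ ≤ 1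

def S_Rep : Prop := ∀ (w : E → E) (z : E) (s : ℝ), 0 < s →
  ∫ u, w (z + s • u) ∂nuB = (volume.real (ball z s))⁻¹ • ∫ y in ball z s, w y

def S_Lip : Prop := ∀ (w : E → E) (S : Set E) (M s s' a : ℝ) (z z' : E), ContinuousOn w S →
  (∀ y ∈ S, ‖w y‖ ≤ M) → ball z s ⊆ S → ball z' s' ⊆ S → 0 < a → a ≤ s → a ≤ s' →
  |s - s'| ≤ ‖z - z'‖ / 8 →
  ‖(∫ u, w (z + s • u) ∂nuB) - ∫ u, w (z' + s' • u) ∂nuB‖ ≤ 7 * M * ‖z - z'‖ / a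

def S_Ball : Prop := ∀ (Ω Λ : Set E) (f : E → E) (x : E) (s a : ℝ), IsOpen Ω → IsOpen Λ →
  Homeo Ω Λ f → 0 < s → closedBall x s ⊆ Ω → (∀ y ∈ sphere x s, a ≤ ‖f y - f x‖) →
  ball (f x) a ⊆ f '' ball x s

def S_Loc : Prop := ∀ (Ω : Set E) (β : E → ℝ) (L m : ℝ) (f : E → E) (A : E →L[ℝ] E) (b x : E),
  IsOpen Ω → Adm Ω β L → ContinuousOn f Ω → x ∈ Ω → ball x (4 * β x) ⊆ Ω → 0 < m →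
  (∀ z ∈ ball x (4 * β x), ‖f z - (b + A z)‖ ≤ m * (4 * β x) / 100) →
  (∀ z ∈ ball x (2 * β x), ‖Av nuB β f z - f z‖ ≤ m * β x * (8 / 100)) ∧
  ∀ z ∈ ball x (2 * β x), ∀ z' ∈ ball x (2 * β x),
    ‖Av nuB β f z - Av nuB β f z' - A (z - z')‖ ≤ m / 2 * ‖z - z'‖

def S_DF : Prop := ∀ (p : ℝ≥0∞) (Ω : Set E) (f : E → E) (G : Fin 3 → E → E) (ε : ℝ≥0∞), 1 ≤ p →
  p ≠ ⊤ → IsOpen Ω → Bornology.IsBounded Ω → ContinuousOn f Ω → Sob p Ω f G →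
  (∀ x ∈ Ω, ∃ r > 0, ball x r ⊆ Ω ∧ NearAff f (ball x r)) → ε ≠ 0 →
  ∃ (F : E → E) (H : Fin 3 → E → E) (β : E → ℝ), ContinuousOn F Ω ∧ Sob p Ω F H ∧
    eLpNorm (F - f) p (volume.restrict Ω) ≤ ε ∧
    (∀ i, eLpNorm (H i - G i) p (volume.restrict Ω) ≤ ε) ∧ (∃ L, Adm Ω β L) ∧
    ∀ x ∈ Ω, ball x (4 * β x) ⊆ Ω ∧ ∃ (A : E →L[ℝ] E) (v0 : E), ‖v0‖ = 1 ∧ 0 < ‖A v0‖ ∧
      (∀ v, ‖A v0‖ * ‖v‖ ≤ ‖A v‖) ∧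
      (∀ z ∈ sphere x (β x), ‖A v0‖ * β x * (92 / 100) ≤ ‖f z - f x‖) ∧
      ‖F x - f x‖ ≤ ‖A v0‖ * β x * (8 / 100) ∧ ∀ z ∈ ball x (2 * β x), ∀ z' ∈ ball x (2 * β x),
        ‖F z - F z' - A (z - z')‖ ≤ ‖A v0‖ / 2 * ‖z - z'‖

def S_D : Prop := ∀ (p : ℝ≥0∞) (Ω Λ : Set E) (f : E → E) (G : Fin 3 → E → E), 1 ≤ p → p ≠ ⊤ →
  IsOpen Ω → Bornology.IsBounded Ω → IsOpen Λ → Bornology.IsBounded Λ → IsConnected Λ →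
  Homeo Ω Λ f → Sob p Ω f G → (∀ x ∈ Ω, ∃ r > 0, ball x r ⊆ Ω ∧ NearAff f (ball x r)) →
  Approx p Ω Λ f G

def S_Bil : Prop := ∀ (f : E → E) (B : Set E) (a : ℝ), 0 < a →
  (∀ y ∈ B, ∀ z ∈ B, a * ‖y - z‖ ≤ ‖f y - f z‖ ∧ ‖f y - f z‖ ≤ 2001 / 2000 * a * ‖y - z‖) →
  NearAff f B

def S_One : Prop := ∀ (U : ℝ → ℝ) (b τ μ : ℝ), 0 < b → 0 ≤ τ →
  ContinuousOn U (Icc (-b) (b + τ)) → (∀ s ∈ Icc 0 τ, μ ≤ U (s + b) - U (s - b)) →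
  μ * τ / b ≤ (∫ t in (-1 : ℝ)..1, U (τ + t * b)) - ∫ t in (-1 : ℝ)..1, U (t * b)

def S_Grow : Prop := ∀ (f : E → E) (B : Set E) (e c w y : E) (t b b' μ ρ : ℝ), ‖e‖ = 1 →
  ContinuousOn f B → closedBall y ρ ⊆ B → 0 ≤ t → 0 < b → 0 < b' → |b' - b| ≤ t / 2 →
  t + b + b' ≤ ρ → t * ‖e + w‖ + b' ≤ ρ →
  (∀ q ∈ B, q + t • w ∈ B → ⟪c, f (q + t • w)⟫ = ⟪c, f q⟫) →
  (∀ q ∈ B, ∀ s ≥ (0 : ℝ), q + s • e ∈ B → ⟪c, f q⟫ ≤ ⟪c, f (q + s • e)⟫) →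
  (∀ s ∈ Icc 0 (t / 2), μ ≤ ⟪c, f (y + (s + b) • e) - f (y + (s - b) • e)⟫) →
  μ * t / (4 * b) ≤ ⟪c, (∫ u, f (y + t • (e + w) + b' • u) ∂nuE e) - ∫ u, f (y + b • u) ∂nuE e⟫

/-- near every point, the `c`-component of `f` is constant along `W` and increases along `e` -/
def Lev (Ω : Set E) (f : E → E) (e c : E) (W : Submodule ℝ E) : Prop :=
  ∀ x ∈ Ω, ∃ r > 0, ball x r ⊆ Ω ∧
    (∀ y ∈ ball x r, ∀ w ∈ W, y + w ∈ ball x r → ⟪c, f (y + w)⟫ = ⟪c, f y⟫) ∧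
    ∀ y ∈ ball x r, ∀ t > (0 : ℝ), y + t • e ∈ ball x r → ⟪c, f y⟫ < ⟪c, f (y + t • e)⟫

def S_Kap : Prop := ∀ (Ω : Set E) (f : E → E) (e c : E) (W : Submodule ℝ E) (β η : E → ℝ) (L : ℝ),
  IsOpen Ω → ContinuousOn f Ω → ‖e‖ = 1 → (∀ w ∈ W, ⟪e, w⟫ = 0) → Adm Ω β L →
  (∀ x ∈ Ω, ball x (8 * β x) ⊆ Ω ∧
    (∀ y ∈ ball x (8 * β x), ∀ w ∈ W, y + w ∈ ball x (8 * β x) → ⟪c, f (y + w)⟫ = ⟪c, f y⟫) ∧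
    (∀ y ∈ ball x (8 * β x), ∀ t > (0 : ℝ), y + t • e ∈ ball x (8 * β x) →
      ⟪c, f y⟫ < ⟪c, f (y + t • e)⟫) ∧
    ∀ y ∈ ball x (β x), ‖fderiv ℝ β y‖ ≤ min (η x) 1 / 4) →
  ∃ κ, Ga Ω κ ∧ ∀ x ∈ Ω, ball x (κ x) ⊆ Ω ∧ ∀ w ∈ W, η x * ‖w‖ ≤ 1 → ∀ y ∈ ball x (κ x),
    ∀ t ≥ (0 : ℝ), y + t • (e + w) ∈ ball x (κ x) →
      2 * κ x * t ≤ ⟪c, Av (nuE e) β f (y + t • (e + w)) - Av (nuE e) β f y⟫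

def S_StepF : Prop := ∀ (p : ℝ≥0∞) (Ω : Set E) (f : E → E) (G : Fin 3 → E → E) (e c : E)
  (W : Submodule ℝ E) (δ η : E → ℝ) (ε : ℝ≥0∞), 1 ≤ p → p ≠ ⊤ → IsOpen Ω →
  Bornology.IsBounded Ω → ContinuousOn f Ω → Sob p Ω f G → ‖e‖ = 1 → (∀ w ∈ W, ⟪e, w⟫ = 0) →
  Lev Ω f e c W → Ga Ω δ → Ga Ω η → ε ≠ 0 →
  ∃ (F : E → E) (H : Fin 3 → E → E) (κ : E → ℝ), ContinuousOn F Ω ∧ Sob p Ω F H ∧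
    (∀ x ∈ Ω, ‖F x - f x‖ ≤ δ x) ∧ eLpNorm (F - f) p (volume.restrict Ω) ≤ ε ∧
    (∀ i, eLpNorm (H i - G i) p (volume.restrict Ω) ≤ ε) ∧ Ga Ω κ ∧
    ∀ x ∈ Ω, ball x (κ x) ⊆ Ω ∧ ∀ w ∈ W, η x * ‖w‖ ≤ 1 → ∀ y ∈ ball x (κ x),
      ∀ t ≥ (0 : ℝ), y + t • (e + w) ∈ ball x (κ x) → 2 * κ x * t ≤ ⟪c, F (y + t • (e + w)) - F y⟫

def S_Step : Prop := ∀ (p : ℝ≥0∞) (Ω : Set E) (f : E → E) (G : Fin 3 → E → E) (e c : E)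
  (W : Submodule ℝ E) (δ η : E → ℝ) (ε : ℝ≥0∞), 1 ≤ p → p ≠ ⊤ → IsOpen Ω →
  Bornology.IsBounded Ω → ContinuousOn f Ω → Sob p Ω f G → ‖e‖ = 1 → ‖c‖ = 1 →
  (∀ w ∈ W, ⟪e, w⟫ = 0) → Lev Ω f e c W → Ga Ω δ → Ga Ω η → ε ≠ 0 →
  ∃ g : E → E, ContDiffOn ℝ ∞ g Ω ∧ (∀ x ∈ Ω, ‖g x - f x‖ ≤ δ x) ∧
    (∀ x ∈ Ω, 0 < ⟪c, fderiv ℝ g x e⟫ ∧
      ∀ w ∈ W, |⟪c, fderiv ℝ g x w⟫| ≤ η x * ‖w‖ * ⟪c, fderiv ℝ g x e⟫) ∧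
    eLpNorm (g - f) p (volume.restrict Ω) ≤ ε ∧
    ∀ i, eLpNorm (pd i g - G i) p (volume.restrict Ω) ≤ ε

def S_Inj : Prop := ∀ (Ω Λ : Set E) (f : E → E) (x : E) (r : ℝ), IsOpen Λ → Homeo Ω Λ f →
  ball x r ⊆ Ω → Tri f (ball x r) →
  ∀ i : Fin 3, ∀ y ∈ ball x r, ∀ z ∈ ball x r, (∀ j < i, y j = z j) → y i ≠ z i → f y i ≠ f z i

def S_Sign : Prop := ∀ (Ω Λ : Set E) (f : E → E), IsOpen Ω → IsConnected Ω → IsOpen Λ →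
  Homeo Ω Λ f → (∀ x ∈ Ω, ∃ r > 0, ball x r ⊆ Ω ∧ Tri f (ball x r)) → ∀ i : Fin 3,
  ∃ σ : ℝ, |σ| = 1 ∧ ∀ x ∈ Ω, ∃ r > 0, ball x r ⊆ Ω ∧ Tri f (ball x r) ∧
    ∀ y ∈ ball x r, ∀ t > (0 : ℝ), y + t • EuclideanSpace.single i 1 ∈ ball x r →
      σ * f y i < σ * f (y + t • EuclideanSpace.single i 1) i

def S_Mix : Prop := ∀ (p : ℝ≥0∞) (Ω : Set E) (f : E → E) (G : Fin 3 → E → E) (g : Fin 3 → E → E)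
  (δ : E → ℝ) (ε : ℝ≥0∞), 1 ≤ p → IsOpen Ω → Sob p Ω f G → (∀ k, ContDiffOn ℝ ∞ (g k) Ω ∧
    (∀ x ∈ Ω, ‖g k x - f x‖ ≤ δ x / 3) ∧ eLpNorm (g k - f) p (volume.restrict Ω) ≤ ε / 3 ∧
    ∀ i, eLpNorm (pd i (g k) - G i) p (volume.restrict Ω) ≤ ε / 3) →
  ∃ h : E → E, ContDiffOn ℝ ∞ h Ω ∧ (∀ x ∈ Ω, ‖h x - f x‖ ≤ δ x) ∧
    (∀ x ∈ Ω, ∀ v k, fderiv ℝ h x v k = fderiv ℝ (g k) x v k) ∧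
    eLpNorm (h - f) p (volume.restrict Ω) ≤ ε ∧
    ∀ i, eLpNorm (pd i h - G i) p (volume.restrict Ω) ≤ ε

def S_Tri : Prop := ∀ (p : ℝ≥0∞) (Ω Λ : Set E) (f : E → E) (G : Fin 3 → E → E), 1 ≤ p → p ≠ ⊤ →
  IsOpen Ω → IsConnected Ω → Bornology.IsBounded Ω → IsOpen Λ → Bornology.IsBounded Λ →
  IsConnected Λ → Homeo Ω Λ f → Sob p Ω f G →
  (∀ x ∈ Ω, ∃ r > 0, ball x r ⊆ Ω ∧ Tri f (ball x r)) → Approx p Ω Λ f G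

end Vale.Agent.P073
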