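import Vale.Agent.P073.Whit

/-! P073: a smooth map close to an expanding homeomorphism is a diffeomorphism. -/

open MeasureTheory Set Metric Filter
open scoped ContDiff RealInnerProductSpace Topology

namespace Vale.Agent.P073

variable {Ω Λ : Set E} {f g : E → E}

/-- a gauge that is bounded below on compact sets -/
theorem gauge (Q : E → ℝ → Prop) (h1 : ∀ x r r', 0 < r' → r' ≤ r → Q x r → Q x r')
    (h2 : ∀ x ∈ Ω, ∃ r > 0, ∀ᶠ y in 𝓝 x, Q y r) : ∃ δ : E → ℝ, (∀ x ∈ Ω, 0 < δ x ∧ Q x (δ x)) ∧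
      ∀ K, IsCompact K → K ⊆ Ω → ∃ c > 0, ∀ x ∈ K, c ≤ δ x := by
  have bd : ∀ x, BddAbove {r | r ≤ 1 ∧ Q x r} := fun x => ⟨1, fun r h => h.1⟩
  have a : ∀ x ∈ Ω, ∃ r > 0, ∀ᶠ y in 𝓝 x, r ≤ sSup {r | r ≤ 1 ∧ Q y r} / 2 := fun x hx => by
    obtain ⟨r, r0, h⟩ := h2 x hx
    have m0 := lt_min r0 one_pos
    refine ⟨min r 1 / 2, half_pos m0, h.mono fun y hy => ?_⟩
    linarith [le_csSup (bd y) ⟨min_le_right r 1, h1 y r _ m0 (min_le_left _ _) hy⟩]
  refine ⟨fun x => sSup {r | r ≤ 1 ∧ Q x r} / 2, fun x hx => ?_, fun K hK hs => ?_⟩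
  · obtain ⟨r, r0, h⟩ := a x hx
    have p := r0.trans_le h.self_of_nhds
    obtain ⟨s, s0, hs⟩ := h2 x hx
    obtain ⟨t, ht, l⟩ := exists_lt_of_lt_csSup (s := {r | r ≤ 1 ∧ Q x r})
      ⟨_, min_le_right s 1, h1 x s _ (lt_min s0 one_pos) (min_le_left _ _) hs.self_of_nhds⟩
      (half_lt_self (by linarith))
    exact ⟨p, h1 x t _ p l.le ht.2⟩
  · refine hK.induction_on (p := fun K => ∃ c > 0, ∀ x ∈ K, c ≤ sSup {r | r ≤ 1 ∧ Q x r} / 2)
      ⟨1, one_pos, by simp⟩ (fun s t h ⟨c, c0, k⟩ => ⟨c, c0, fun x hx => k x (h hx)⟩)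
      (fun s t ⟨c, c0, k⟩ ⟨c', c0', k'⟩ => ⟨min c c', lt_min c0 c0', fun x hx => hx.elim
        (fun h => (min_le_left _ _).trans (k x h)) fun h => (min_le_right _ _).trans (k' x h)⟩)
      fun x hx => ?_
    obtain ⟨r, r0, h⟩ := a x (hs hx)
    exact ⟨_, mem_nhdsWithin_of_mem_nhds h, r, r0, fun y hy => hy⟩

theorem Grow.mono {B B' : Set E} {κ κ' : ℝ} (h : Grow f B κ) (hB : B' ⊆ B) (hκ : κ' ≤ κ) :
    Grow f B' κ' := fun v hv =>
  let ⟨c, hc, k⟩ := h v hv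
  ⟨c, hc, fun y hy t ht hy' =>
    (mul_le_mul_of_nonneg_right hκ ht).trans (k y (hB hy) t ht (hB hy'))⟩

/-- a Lipschitz radius of expansion -/
theorem radius (h : ∀ x ∈ Ω, ∃ r > 0, ∃ κ > 0, ball x r ⊆ Ω ∧ Grow f (ball x r) κ) :
    ∃ R : E → ℝ, (∀ x ∈ Ω, 0 < R x ∧ ball x (R x / 2) ⊆ Ω ∧ Grow f (ball x (R x / 2)) (R x / 2)) ∧
      ∀ x ∈ Ω, ∀ y ∈ Ω, R y ≤ R x + dist x y := by
  let S : E → Set ℝ := fun x => {r | r ≤ 1 ∧ ball x r ⊆ Ω ∧ Grow f (ball x r) r}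
  have bd : ∀ x, BddAbove (S x) := fun x => ⟨1, fun r h => h.1⟩
  have mo : ∀ x y r r', r ∈ S x → r' + dist y x ≤ r → r' ∈ S y := fun x y r r' k l =>
    have l' : r' ≤ r := by linarith [dist_nonneg (x := y) (y := x)]
    ⟨l'.trans k.1, (ball_subset_ball' l).trans k.2.1, k.2.2.mono (ball_subset_ball' l) l'⟩
  have ne : ∀ x ∈ Ω, ∃ r > 0, r ∈ S x := fun x hx => by
    obtain ⟨r, r0, κ, κ0, k1, k2⟩ := h x hx
    have s := ball_subset_ball (x := x) ((min_le_right 1 (min r κ)).trans (min_le_left _ _))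
    exact ⟨min 1 (min r κ), by positivity, min_le_left _ _, s.trans k1,
      k2.mono s ((min_le_right _ _).trans (min_le_right _ _))⟩
  refine ⟨fun x => sSup (S x), fun x hx => ?_, fun x hx y hy => ?_⟩
  · obtain ⟨r, r0, k⟩ := ne x hx
    have p := r0.trans_le (le_csSup (bd x) k)
    obtain ⟨t, ht, l⟩ := exists_lt_of_lt_csSup ⟨r, k⟩ (half_lt_self p)
    exact ⟨p, (mo x x t _ ht (by simpa using l.le)).2⟩
  · obtain ⟨r, -, k⟩ := ne y hy
    exact csSup_le ⟨r, k⟩ fun t ht => by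
      linarith [le_csSup (bd x) (mo y x t (t - dist x y) ht (by linarith))]

theorem diffeo_of (hΩ : IsOpen Ω) (hg : ContDiffOn ℝ ∞ g Ω) (hi : InjOn g Ω)
    (hd : ∀ x ∈ Ω, Function.Injective (fderiv ℝ g x)) :
    IsOpen (g '' Ω) ∧ Diffeo Ω (g '' Ω) g := by
  have a : ∀ x ∈ Ω, ∃ L : E ≃L[ℝ] E, HasFDerivAt g (L : E →L[ℝ] E) x := fun x hx =>
    ⟨(LinearEquiv.ofInjectiveEndo (fderiv ℝ g x : E →ₗ[ℝ] E) (hd x hx)).toContinuousLinearEquiv,
      ((hg.contDiffAt (hΩ.mem_nhds hx)).differentiableAt (by simp)).hasFDerivAt⟩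
  refine ⟨isOpen_iff_mem_nhds.2 ?_, hg, hi.bijOn_image, Function.invFunOn g Ω, ?_,
    hi.bijOn_image.invOn_invFunOn⟩ <;> rintro _ ⟨x, hx, rfl⟩ <;> obtain ⟨L, hL⟩ := a x hx <;>
    have c := hg.contDiffAt (hΩ.mem_nhds hx) <;>
    have s := c.hasStrictFDerivAt' hL (by simp)
  · rw [← s.map_nhds_eq_of_equiv]
    exact image_mem_map (hΩ.mem_nhds hx)
  · refine ((c.to_localInverse hL (by simp)).congr_of_eventuallyEq ?_).contDiffWithinAt
    filter_upwards [s.eventually_right_inverse, s.localInverse_tendsto.eventually (hΩ.mem_nhds hx)]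
      with w h1 h2
    exact hi (Function.invFunOn_mem ⟨_, h2, h1⟩) h2
      ((Function.invFunOn_eq ⟨_, h2, h1⟩).trans h1.symm)

theorem ne_of_pos {x y c : E} (hg : ∀ z ∈ segment ℝ x y, DifferentiableAt ℝ g z)
    (h : ∀ z ∈ segment ℝ x y, 0 < ⟪c, fderiv ℝ g z (y - x)⟫) : g x ≠ g y := fun e => by
  have m : ∀ t ∈ Icc (0 : ℝ) 1, x + t • (y - x) ∈ segment ℝ x y := fun t ht => by
    rw [segment_eq_image']; exact ⟨t, ht, rfl⟩
  have d : ∀ t ∈ Icc (0 : ℝ) 1, HasDerivAt (fun t : ℝ => ⟪c, g (x + t • (y - x))⟫)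
      ⟪c, fderiv ℝ g (x + t • (y - x)) (y - x)⟫ t := fun t ht => by
    have a : HasDerivAt (fun t : ℝ => x + t • (y - x)) (y - x) t := by
      simpa using ((hasDerivAt_id t).smul_const (y - x)).const_add x
    exact (innerSL ℝ c).hasFDerivAt.comp_hasDerivAt t
      ((hg _ (m t ht)).hasFDerivAt.comp_hasDerivAt t a)
  obtain ⟨t, ht, k⟩ := exists_hasDerivAt_eq_zero zero_lt_one
    (fun t ht => (d t ht).continuousAt.continuousWithinAt) (by simp [e])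
    fun t ht => d t (Ioo_subset_Icc_self ht)
  exact (h _ (m t (Ioo_subset_Icc_self ht))).ne' k

theorem onto (hΛ : IsOpen Λ) (hb : Bornology.IsBounded Λ) (hc : IsConnected Λ) (hf : Homeo Ω Λ f)
    (hg : ContinuousOn g Ω) (ho : IsOpen (g '' Ω))
    (h : ∀ x ∈ Ω, ‖g x - f x‖ ≤ infDist (f x) Λᶜ / 2) : g '' Ω = Λ := by
  obtain ⟨-, hf, k, hk, ik⟩ := hf
  have pos : ∀ w ∈ Λ, 0 < infDist w Λᶜ := fun w hw =>
    (hΛ.isClosed_compl.notMem_iff_infDist_pos (ne_compl hb)).1 (not_not.2 hw)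
  have s : g '' Ω ⊆ Λ := by
    rintro _ ⟨x, hx, rfl⟩
    exact ball_infDist_compl_subset (mem_ball_iff_norm.2
      ((h x hx).trans_lt (half_lt_self (pos _ (hf.mapsTo hx)))))
  refine s.antisymm (hc.isPreconnected.subset_of_closure_inter_subset ho ?_ fun w hw => ?_)
  · obtain ⟨w, hw⟩ := hc.nonempty
    obtain ⟨x, hx, -⟩ := hf.surjOn hw
    exact ⟨g x, s ⟨x, hx, rfl⟩, x, hx, rfl⟩
  · obtain ⟨c1, c2⟩ := cpt hb (half_pos (pos w hw.2))
    have t : k '' {z | infDist w Λᶜ / 2 ≤ infDist z Λᶜ} ⊆ Ω := by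
      rintro _ ⟨z, hz, rfl⟩
      obtain ⟨x, hx, rfl⟩ := hf.surjOn (c2 hz)
      rwa [ik.1 hx]
    have c3 := (c1.image_of_continuousOn (hk.mono c2)).image_of_continuousOn (hg.mono t)
    refine image_mono t (c3.isClosed.closure_subset_iff.2 subset_rfl
      (mem_closure_iff_nhds.2 fun U hU => ?_))
    obtain ⟨_, ⟨h1, h2⟩, x, hx, rfl⟩ := mem_closure_iff_nhds.1 hw.1 _ (inter_mem hU
      ((continuous_infDist_pt Λᶜ).continuousAt.eventually
        (lt_mem_nhds (show 3 / 4 * infDist w Λᶜ < _ by linarith [pos w hw.2]))))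
    refine ⟨_, h1, x, ⟨f x, ?_, ik.1 hx⟩, rfl⟩
    have a := infDist_le_infDist_add_dist (s := Λᶜ) (x := g x) (y := f x)
    rw [dist_eq_norm] at a
    have b : 3 / 4 * infDist w Λᶜ < infDist (g x) Λᶜ := h2
    show infDist w Λᶜ / 2 ≤ infDist (f x) Λᶜ
    linarith [h x hx]

theorem stable (hΩ : IsOpen Ω) (hΛ : IsOpen Λ) (hb : Bornology.IsBounded Λ) (hc : IsConnected Λ)
    (hf : Homeo Ω Λ f) (h : ∀ x ∈ Ω, ∃ r > 0, ∃ κ > 0, ball x r ⊆ Ω ∧ Grow f (ball x r) κ) :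
    ∃ δ : E → ℝ, (∀ K, IsCompact K → K ⊆ Ω → ∃ c > 0, ∀ x ∈ K, c ≤ δ x) ∧ ∀ g : E → E,
      ContDiffOn ℝ ∞ g Ω → (∀ x ∈ Ω, ‖g x - f x‖ ≤ δ x) →
      (∀ x ∈ Ω, ∀ (v c : E) (κ : ℝ), ‖v‖ = 1 → ‖c‖ = 1 → ball x (δ x) ⊆ Ω →
        (∀ y ∈ ball x (δ x), ∀ t : ℝ, 0 ≤ t → y + t • v ∈ ball x (δ x) →
          κ * t ≤ ⟪c, f (y + t • v) - f y⟫) → κ - δ x ≤ ⟪c, fderiv ℝ g x v⟫) → Diffeo Ω Λ g := by
  obtain ⟨R, hR, lip⟩ := radius h
  obtain ⟨cf, bf, k, hk, ik⟩ := id hf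
  obtain ⟨δ, d1, d2⟩ := gauge (Ω := Ω) (fun x r => x ∈ Ω → r ≤ R x / 8 ∧ r ≤ infDist (f x) Λᶜ / 2 ∧
      ∀ y ∈ Ω, dist (f x) (f y) ≤ 2 * r → dist x y < R x / 4)
    (fun x r r' _ l a hx => ⟨l.trans (a hx).1, l.trans (a hx).2.1,
      fun y hy b => (a hx).2.2 y hy (by linarith)⟩) fun x hx => by
    have r0 := (hR x hx).1
    have p := (hΛ.isClosed_compl.notMem_iff_infDist_pos (ne_compl hb)).1 (not_not.2 (bf.mapsTo hx))
    have c := cf.continuousAt (hΩ.mem_nhds hx)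
    obtain ⟨s, s0, hs⟩ := Metric.continuousWithinAt_iff.1 (hk _ (bf.mapsTo hx)) (R x / 16)
      (by positivity)
    refine ⟨min (R x / 16) (min (infDist (f x) Λᶜ / 4) (s / 4)), by positivity, ?_⟩
    filter_upwards [ball_mem_nhds x (show 0 < R x / 16 by positivity),
      c.eventually (ball_mem_nhds _ (half_pos s0)), ((continuous_infDist_pt Λᶜ).continuousAt.comp
        c).eventually (lt_mem_nhds (half_lt_self p))] with z h1 h2 h3 hz
    have a := lip z hz x hx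
    have b := min_le_left (R x / 16) (min (infDist (f x) Λᶜ / 4) (s / 4))
    have b' := min_le_right (R x / 16) (min (infDist (f x) Λᶜ / 4) (s / 4))
    have e := mem_ball.1 h1
    have e' : infDist (f x) Λᶜ / 2 < infDist (f z) Λᶜ := h3
    refine ⟨by linarith, by linarith [min_le_left (infDist (f x) Λᶜ / 4) (s / 4)], fun y hy l => ?_⟩
    have e2 := min_le_right (infDist (f x) Λᶜ / 4) (s / 4)
    have t := hs (bf.mapsTo hy) (by linarith [dist_triangle_left (f y) (f x) (f z)])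
    rw [ik.1 hy, ik.1 hx] at t
    linarith [dist_triangle_right z y x]
  refine ⟨δ, d2, fun g h1 h2 h3 => ?_⟩
  have key : ∀ x ∈ Ω, ∀ v, v ≠ 0 → ∃ c, ∀ z ∈ ball x (R x / 4), 0 < ⟪c, fderiv ℝ g z v⟫ :=
    fun x hx v hv => by
    obtain ⟨r0, r1, r2⟩ := hR x hx
    obtain ⟨c, hc, a⟩ := r2 _ (norm_smul_inv_norm (𝕜 := ℝ) hv)
    refine ⟨c, fun z hz => ?_⟩
    have z0 := r1 (ball_subset_ball (by linarith) hz)
    have z1 := mem_ball.1 hz
    have z2 := lip x hx z z0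
    rw [dist_comm] at z2
    have z3 := ((d1 z z0).2 z0).1
    have s : ball z (δ z) ⊆ ball x (R x / 2) := ball_subset_ball' (by linarith)
    have b := h3 z z0 _ c _ (norm_smul_inv_norm (𝕜 := ℝ) hv) hc (s.trans r1)
      fun y hy t ht hy' => a y (s hy) t ht (s hy')
    rw [map_smul, real_inner_smul_right] at b
    exact (mul_pos_iff_of_pos_left (inv_pos.2 (norm_pos_iff.2 hv))).1
      (lt_of_lt_of_le (by linarith) b)
  have inj : ∀ x ∈ Ω, ∀ y ∈ Ω, δ y ≤ δ x → g x = g y → x = y := fun x hx y hy l e => by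
    by_contra n
    obtain ⟨c, a⟩ := key x hx (y - x) (sub_ne_zero.2 (Ne.symm n))
    have r0 := (hR x hx).1
    have b : y ∈ ball x (R x / 4) := mem_ball'.2 (((d1 x hx).2 hx).2.2 y hy (by
      have t := dist_triangle_left (f x) (f y) (g x)
      rw [dist_eq_norm (g x), e, dist_eq_norm (g y), ← e] at t
      have := h2 y hy
      rw [← e] at this
      linarith [h2 x hx]))
    have s := (convex_ball x (R x / 4)).segment_subset (mem_ball_self (by positivity)) b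
    exact ne_of_pos (fun z hz => (h1.contDiffAt (hΩ.mem_nhds ((hR x hx).2.1
      (ball_subset_ball (by linarith) (s hz))))).differentiableAt (by simp))
      (fun z hz => a z (s hz)) e
  obtain ⟨o, d⟩ := diffeo_of hΩ h1 (fun x hx y hy e => (le_total (δ y) (δ x)).elim
    (fun l => inj x hx y hy l e) fun l => (inj y hy x hx l e.symm).symm) fun x hx =>
    (injective_iff_map_eq_zero _).2 fun v e => by
      by_contra n
      obtain ⟨c, a⟩ := key x hx v n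
      simpa [e] using a x (mem_ball_self (by linarith [(hR x hx).1]))
  rwa [onto hΛ hb hc hf h1.continuousOn o fun x hx => (h2 x hx).trans ((d1 x hx).2 hx).2.1] at d

end Vale.Agent.P073
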