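import Vale.Agent.P073.UStm

open MeasureTheory Set Metric Filter
open scoped ContDiff RealInnerProductSpace Topology ENNReal

namespace Vale.Agent.P073

theorem u_ae : U_Ae := by
  intro h Ω L ho hL hB
  constructor
  · choose! r hr hs hl using hB
    obtain ⟨t, ht, htc, hU⟩ := TopologicalSpace.countable_cover_nhdsWithin
      (f := fun x => ball x (r x)) (s := Ω)
      fun x hx => mem_nhdsWithin_of_mem_nhds (ball_mem_nhds x (hr x hx))
    have k : ∀ x ∈ t, ∀ᵐ y ∂(volume : Measure E), y ∈ ball x (r x) → DifferentiableAt ℝ h y := by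
      intro x hx
      have hlip : LipschitzOnWith ⟨L, hL.le⟩ h (ball x (r x)) :=
        LipschitzOnWith.of_dist_le_mul fun y hy z hz => by
          rw [dist_eq_norm, dist_eq_norm]
          exact (hl x (ht hx) y hy z hz).2
      filter_upwards [hlip.ae_differentiableWithinAt_of_mem (μ := volume)] with y hy hyb
      exact (hy hyb).differentiableAt (isOpen_ball.mem_nhds hyb)
    rw [ae_restrict_iff' ho.measurableSet]
    filter_upwards [(ae_ball_iff htc).2 k] with y hy hyΩ
    obtain ⟨x, hx, hyx⟩ := mem_iUnion₂.1 (hU hyΩ)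
    exact hy x hx hyx
  · intro i x hx
    obtain ⟨r, hr, -, hl⟩ := hB x hx
    have h1 : ‖fderiv ℝ h x‖ ≤ L := by
      refine norm_fderiv_le_of_lip' ℝ hL.le ?_
      filter_upwards [ball_mem_nhds x hr] with y hy
      exact (hl y hy x (mem_ball_self hr)).2
    have h2 := (fderiv ℝ h x).le_of_opNorm_le h1 (EuclideanSpace.single i (1 : ℝ))
    simpa [pd] using h2

end Vale.Agent.P073
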