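import Vale.Agent.P073.UStm

/-! P073: composition with a tame homeomorphism. -/

open MeasureTheory Set Metric Filter
open scoped ContDiff RealInnerProductSpace Topology ENNReal

namespace Vale.Agent.P073

theorem u_comp2 (h1 : U_Rad) (h2 : U_PBh) (h3 : U_PBg) (h4 : U_D2) (h5 : U_DC) (h6 : U_Est)
    (h7 : U_Mem) (h8 : U_Lim) (h9 : S_Fin) : U_Comp := by
  intro p Ω Ω' Λ h f G hp hp' hΩ hΩ' ⟨hh, L, L0, hL⟩ hs ha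
  have m := hΩ.1.measurableSet
  have b1 : Bil Ω h L := fun x hx =>
    let ⟨r, r0, a, _, b⟩ := hL x hx
    ⟨r, r0, a, b⟩
  have b3 : Bil Ω h (3 * L) := fun x hx =>
    let ⟨r, r0, a, b⟩ := b1 x hx
    ⟨r, r0, a, fun y hy z hz => ⟨(b y hy z hz).1.trans (by gcongr; linarith),
      (b y hy z hz).2.trans (by gcongr; linarith)⟩⟩
  have L3 : 0 < 3 * L := by positivity
  obtain ⟨sK, bK⟩ := h1 p Ω h L hΩ.1 hΩ.2.2 (hh.2.1.image_eq ▸ hΩ'.2.2) L0 b1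
  have bK' : ∀ i, ∀ x ∈ Ω, ‖pd i h x‖ ≤ 3 * L := fun i x hx => (bK i x hx).trans (by linarith)
  have pb := h2 p Ω Ω' h (3 * L) hp hp' hΩ.1 hΩ'.1 L3 hh b3
  have key : ∀ ε : ℝ≥0∞, ε ≠ 0 → ∃ g, Diffeo Ω Λ g ∧
      eLpNorm (g - f ∘ h) p (volume.restrict Ω) ≤ ε ∧
      ∀ i, eLpNorm (pd i g - Ch (fun i => pd i h) G h i) p (volume.restrict Ω) ≤ ε := fun ε hε => by
    obtain ⟨ρ, r0, η, e0, k⟩ := h6 p Ω Ω' h f (fun i => pd i h) G _ (3 * L) ε hp hp' hΩ.1 hΩ.2.2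
      hΩ'.1 hΩ'.2.2 hh.1 hh.2.1.mapsTo pb (fun i => (sK.2.2 i).1) bK' hs.2.1 hs.2.2 hε
    obtain ⟨u, u1, u2, u3, u4⟩ := ha η (pos_iff_ne_zero.2 e0)
    obtain ⟨g, g1, g2, g3⟩ := h4 p Ω Ω' h _ L ρ η hp hp' hΩ.1 hΩ.2.2 hΩ'.1 hΩ'.2.2 hΩ'.2.1 hh sK
      (fun x hx => let ⟨r, r0, a, b, _⟩ := hL x hx; ⟨r, r0, a, b⟩) L0 b1 r0 e0
    obtain ⟨d1, d2⟩ := h5 Ω Ω' Λ g u hΩ.1 hΩ'.1 g1 u1
    obtain ⟨k1, k2⟩ := k g u (fun i => pd i g) (fun j => pd j u) g1.1.continuousOn g1.2.1.mapsTo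
      (h3 p Ω Ω' g (3 * L) hp hp' hΩ.1 hΩ'.1 L3 g1 fun x hx => (g3 x hx).2.2)
      (fun x hx => (g3 x hx).1) (fun i => (contOn_pd hΩ.1 g1.1 i).aestronglyMeasurable m)
      (fun i x hx => (g3 x hx).2.1 i) g2 u2.2.1 u2.2.2 u3 u4
    exact ⟨u ∘ g, d1, k1, fun i => (eLpNorm_congr_ae ((ae_restrict_mem m).mono fun x hx => by
      simp only [Pi.sub_apply, d2 i x hx])).trans_le (k2 i)⟩
  have m1 : MemLp (f ∘ h) p (volume.restrict Ω) := ⟨(pb f hs.2.1.1).1, (pb f hs.2.1.1).2.trans_lt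
    (ENNReal.mul_lt_top ENNReal.ofReal_lt_top hs.2.1.2)⟩
  have m2 : ∀ i, MemLp (Ch (fun i => pd i h) G h i) p (volume.restrict Ω) := fun i =>
    let ⟨a, b⟩ := h7 p Ω Ω' h (fun i => pd i h) G _ _ hp hΩ.1 pb (fun i => (sK.2.2 i).1) bK'
      (fun j => (hs.2.2 j).1) i
    ⟨a, b.trans_lt (ENNReal.mul_lt_top (ENNReal.mul_lt_top ENNReal.ofReal_lt_top
      ENNReal.ofReal_lt_top) (ENNReal.sum_lt_top.2 fun j _ => (hs.2.2 j).2))⟩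
  have s : Sob p Ω (f ∘ h) (Ch (fun i => pd i h) G h) :=
    ⟨h8 p Ω _ _ hp hΩ.1 hΩ.2.2 m1 m2 fun ε hε =>
      let ⟨g, a, b, c⟩ := key ε hε
      ⟨g, a.1, b, c⟩, m1, m2⟩
  exact ⟨_, s, h9 p Ω Λ _ _ hp hΩ.1 s key⟩

end Vale.Agent.P073
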