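import Vale.Agent.P073.UStm

/-! P073: products of a bounded small factor with a fixed function. -/

open MeasureTheory Set Metric Filter
open scoped ContDiff RealInnerProductSpace Topology ENNReal

namespace Vale.Agent.P073

theorem u_cut : U_Cut := by
  intro p Ω W C ε hp hp' hΩ hW hε
  have m := hΩ.measurableSet
  obtain ⟨e, e0, he⟩ : ∃ e : ℝ≥0∞, e ≠ 0 ∧ ENNReal.ofReal C * e ≤ ε / 2 :=
    ⟨ε / 2 / ENNReal.ofReal C, by simp [hε], ENNReal.mul_div_le⟩
  obtain ⟨V, v1, v2, v3, -⟩ :=
    ((memLp_indicator_iff_restrict m).2 hW).exists_hasCompactSupport_eLpNorm_sub_le hp' e0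
  obtain ⟨M, hM⟩ := v3.bounded_above_of_compact_support v1
  refine ⟨ε / 2 / ENNReal.ofReal M, by simp [hε], fun a j ha hC hρ => ?_⟩
  have hj : AEStronglyMeasurable (fun x => a x j) (volume.restrict Ω) :=
    (EuclideanSpace.proj j : E →L[ℝ] ℝ).continuous.comp_aestronglyMeasurable ha
  have e1 : (fun x => a x j • W x) = (fun x => a x j • (W x - V x)) + fun x => a x j • V x := by
    funext x
    simp only [Pi.add_apply, smul_sub, sub_add_cancel]
  have b1 : eLpNorm (fun x => a x j • (W x - V x)) p (volume.restrict Ω) ≤ ε / 2 := by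
    refine (eLpNorm_le_mul_eLpNorm_of_ae_le_mul (g := Ω.indicator W - V) (c := C) ?_ p).trans
      ((mul_le_mul_right ((eLpNorm_mono_measure _ Measure.restrict_le_self).trans v2) _).trans he)
    filter_upwards [ae_restrict_mem m] with x hx
    rw [norm_smul, Pi.sub_apply, indicator_of_mem hx]
    exact mul_le_mul_of_nonneg_right ((PiLp.norm_apply_le (a x) j).trans (hC x hx)) (norm_nonneg _)
  have b2 : eLpNorm (fun x => a x j • V x) p (volume.restrict Ω) ≤ ε / 2 := by
    refine (eLpNorm_le_mul_eLpNorm_of_ae_le_mul (g := a) (c := M) (ae_of_all _ fun x => ?_) p).trans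
      ((mul_le_mul_right hρ _).trans ENNReal.mul_div_le)
    rw [norm_smul, mul_comm]
    exact mul_le_mul (hM x) (PiLp.norm_apply_le (a x) j) (norm_nonneg _)
      ((norm_nonneg _).trans (hM x))
  rw [e1]
  refine (eLpNorm_add_le (hj.smul (hW.1.sub v3.aestronglyMeasurable))
    (hj.smul v3.aestronglyMeasurable) hp).trans ((add_le_add b1 b2).trans ?_)
  rw [ENNReal.add_halves]

end Vale.Agent.P073
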