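import Vale.Agent.P073.UStm

open MeasureTheory Set Metric Filter
open scoped ContDiff RealInnerProductSpace Topology ENNReal

namespace Vale.Agent.P073

namespace UD1Aux

theorem lipb {Ω : Set E} {β : E → ℝ} {L : ℝ} (h : Adm Ω β L) {x z : E} (hz : z ∈ ball x (β x)) :
    7 / 8 * β x ≤ β z ∧ β z ≤ 9 / 8 * β x := by
  have h1 := abs_le.1 (h.lip z x)
  have h2 : ‖z - x‖ < β x := mem_ball_iff_norm.1 hz
  have h3 := mul_le_mul_of_nonneg_right h.hL (norm_nonneg (z - x))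
  constructor <;> linarith [h1.1, h1.2]

theorem grow {A : E →L[ℝ] E} {v w : E} {m t : ℝ} (hv : ‖v‖ = 1) (h0 : A v ≠ 0) (hm : m ≤ ‖A v‖)
    (ht : 0 ≤ t) (h : ‖w - A (t • v)‖ ≤ m / 2 * ‖t • v‖) :
    ‖A v‖ / 2 * t ≤ ⟪‖A v‖⁻¹ • A v, w⟫ := by
  have u : ‖‖A v‖⁻¹ • A v‖ = 1 := norm_smul_inv_norm (𝕜 := ℝ) h0
  have n := norm_pos_iff.2 h0
  have h1 := (abs_le.1 (abs_real_inner_le_norm (‖A v‖⁻¹ • A v) (w - A (t • v)))).1
  have h2 : ⟪‖A v‖⁻¹ • A v, A (t • v)⟫ = t * ‖A v‖ := by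
    rw [map_smul, real_inner_smul_left, real_inner_smul_right, real_inner_self_eq_norm_sq]
    field_simp
  rw [u, one_mul, inner_sub_right, h2] at h1
  rw [norm_smul, hv, mul_one, Real.norm_of_nonneg ht] at h
  nlinarith [mul_le_mul_of_nonneg_right hm ht]

theorem grow2 {A : E →L[ℝ] E} {v w c : E} {m t : ℝ} (hv : ‖v‖ = 1) (hc : ‖c‖ = 1)
    (hm : m ≤ ‖A v‖) (ht : 0 ≤ t) (h : ‖w - A (t • v)‖ ≤ m / 2 * ‖t • v‖) :
    -(3 / 2 * ‖A v‖) * t ≤ ⟪c, w⟫ := by
  have h1 := (abs_le.1 (abs_real_inner_le_norm c w)).1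
  have h2 := norm_sub_norm_le w (A (t • v))
  have h3 : ‖A (t • v)‖ = t * ‖A v‖ := by
    rw [map_smul, norm_smul, Real.norm_of_nonneg ht]
  rw [hc, one_mul] at h1
  rw [norm_smul, hv, mul_one, Real.norm_of_nonneg ht] at h
  nlinarith [mul_le_mul_of_nonneg_right hm ht]

theorem homog {A D : E →L[ℝ] E} {a b : ℝ} (h : ∀ v : E, ‖v‖ = 1 → a * ‖A v‖ ≤ b * ‖D v‖) (v : E) :
    a * ‖A v‖ ≤ b * ‖D v‖ := by
  by_cases hv : v = 0
  · simp [hv]
  · have n := inv_pos.2 (norm_pos_iff.2 hv)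
    have k := h (‖v‖⁻¹ • v) (norm_smul_inv_norm (𝕜 := ℝ) hv)
    rw [map_smul, map_smul, norm_smul, norm_smul, Real.norm_of_nonneg n.le] at k
    refine le_of_mul_le_mul_left ?_ n
    linarith

end UD1Aux

open UD1Aux in
theorem u_d1 (h1 : U_DF) (h2 : S_Ball) (h3 : S_Dif) : U_D1 := by
  intro p Ω Λ f G γ ε hp hp' hΩ hb hΛ hb' hc hf hs hN hγ hε
  have e2 : ε / 2 ≠ 0 := (ENNReal.half_pos hε).ne'
  obtain ⟨F, H, β, f1, f2, -, f4, ⟨L, hA⟩, f6⟩ :=
    h1 p Ω f G γ (ε / 2) hp hp' hΩ hb hf.1 hs hN hγ e2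
  have bg := fun x hx => (f6 x hx).1
  have b4 := fun x hx => (f6 x hx).2.1
  choose! A v0 n0 m0 mn bp cl aff using fun x hx => (f6 x hx).2.2
  have sp : ∀ x ∈ Ω, ∀ z ∈ sphere x (β x),
      ‖A x (v0 x)‖ * β x * (92 / 100) ≤ ‖f z - f x‖ := by
    intro x hx z hz
    have p0 := hA.pos x hx
    have e : ‖z - x‖ = β x := mem_sphere_iff_norm.1 hz
    have k1 := bp x hx z (mem_ball_iff_norm.2 (by linarith))
    have k2 := mn x hx (z - x)
    have k3 := norm_sub_norm_le (A x (z - x)) (f z - f x)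
    rw [norm_sub_rev (A x (z - x))] at k3
    rw [e] at k2
    linarith
  have b1 : ∀ x ∈ Ω, ball x (β x) ⊆ Ω := fun x hx => ball_subset_closedBall.trans (hA.sub x hx)
  obtain ⟨δ, d1, d2⟩ := gauge (Ω := Ω) (fun z r => z ∈ Ω → r ≤ β z / 2 ∧
      ∀ y ∈ ball z r, 12 * r * ‖y - z‖ ≤ β z * ‖F y - F z‖)
    (fun z r r' _ l a hz => ⟨l.trans (a hz).1, fun y hy =>
      le_trans (by gcongr) ((a hz).2 y (ball_subset_ball l hy))⟩) fun x hx => by
    have p0 := hA.pos x hx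
    have p1 := m0 x hx
    refine ⟨min (β x / 4) (‖A x (v0 x)‖ * β x / 48), by positivity, ?_⟩
    filter_upwards [ball_mem_nhds x p0] with z hz _
    have a := min_le_left (β x / 4) (‖A x (v0 x)‖ * β x / 48)
    have b := min_le_right (β x / 4) (‖A x (v0 x)‖ * β x / 48)
    have c := (lipb hA hz).1
    refine ⟨by linarith, fun y hy => ?_⟩
    have k1 := aff x hx y (ball_subset_ball' (by linarith [mem_ball.1 hz]) hy) z
      (ball_subset_ball (by linarith) hz)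
    have k2 := mn x hx (y - z)
    have k3 := norm_sub_norm_le (A x (y - z)) (F y - F z)
    rw [norm_sub_rev (A x (y - z))] at k3
    have k4 : ‖A x (v0 x)‖ / 2 * ‖y - z‖ ≤ ‖F y - F z‖ := by linarith
    have k5 := mul_le_mul c k4 (by positivity) (by linarith)
    have k6 := mul_le_mul_of_nonneg_right b (norm_nonneg (y - z))
    have k7 : 0 ≤ ‖A x (v0 x)‖ * β x * ‖y - z‖ := by positivity
    nlinarith
  obtain ⟨g, g1, g2, g3, -, g5⟩ := whitney hp hp' hΩ hb f1 f2.1 f2.2.1 f2.2.2 d2 e2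
  have key : ∀ x ∈ Ω, ∀ z ∈ ball x (β x), ball z (δ z) ⊆ ball x (2 * β x) ∧
      ∀ v : E, ‖v‖ = 1 → 8 * δ z ≤ β z * ‖A x v‖ := by
    intro x hx z hz
    have p0 := hA.pos x hx
    have hz' := b1 x hx hz
    obtain ⟨q0, q1⟩ := d1 z hz'
    obtain ⟨q1, q2⟩ := q1 hz'
    have s : ball z (δ z) ⊆ ball x (2 * β x) :=
      ball_subset_ball' (by linarith [mem_ball.1 hz, (lipb hA hz).2])
    refine ⟨s, fun v hv => ?_⟩
    have e : ‖(δ z / 2) • v‖ = δ z / 2 := by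
      rw [norm_smul, hv, mul_one, Real.norm_of_nonneg (by linarith)]
    have hy : z + (δ z / 2) • v ∈ ball z (δ z) := by
      rw [mem_ball_iff_norm, add_sub_cancel_left, e]
      linarith
    have k1 := aff x hx _ (s hy) z (s (mem_ball_self q0))
    have k2 := q2 _ hy
    have k3 := mn x hx v
    have k4 := norm_sub_norm_le (F (z + (δ z / 2) • v) - F z) (A x ((δ z / 2) • v))
    have k5 : ‖A x ((δ z / 2) • v)‖ = δ z / 2 * ‖A x v‖ := by
      rw [map_smul, norm_smul, Real.norm_of_nonneg (by linarith)]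
    rw [add_sub_cancel_left, e] at k1 k2
    rw [hv, mul_one] at k3
    have k6 : ‖F (z + (δ z / 2) • v) - F z‖ ≤ δ z * (3 / 4 * ‖A x v‖) := by
      nlinarith [mul_le_mul_of_nonneg_right k3 q0.le]
    have k7 := k2.trans (mul_le_mul_of_nonneg_left k6 (hA.pos z hz').le)
    refine le_of_mul_le_mul_left ?_ q0
    linarith
  have a : ∀ B C D : E → E, ContinuousOn B Ω → MemLp C p (volume.restrict Ω) →
      MemLp D p (volume.restrict Ω) → eLpNorm (B - C) p (volume.restrict Ω) ≤ ε / 2 →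
      eLpNorm (C - D) p (volume.restrict Ω) ≤ ε / 2 →
      eLpNorm (B - D) p (volume.restrict Ω) ≤ ε := fun B C D h1 h2 h3 h4 h5 => by
    have m := (h1.aestronglyMeasurable (μ := volume) hΩ.measurableSet).sub h2.1
    rw [← sub_add_sub_cancel B C D]
    exact (eLpNorm_add_le m (h2.sub h3).1 hp).trans
      ((add_le_add h4 h5).trans (ENNReal.add_halves ε).le)
  have gf : ∀ x ∈ Ω, ‖g x - f x‖ ≤ ‖A x (v0 x)‖ * β x * (21 / 100) := fun x hx => by
    have p0 := hA.pos x hx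
    have p1 := mul_pos (m0 x hx) p0
    linarith [norm_sub_le_norm_sub_add_norm_sub (g x) (F x) (f x), g2 x hx, cl x hx,
      (key x hx x (mem_ball_self p0)).2 _ (n0 x hx)]
  have low : ∀ x ∈ Ω, ∀ z ∈ ball x (β x), ∀ v : E, ‖v‖ = 1 →
      2 / 5 * ‖A x v‖ ≤ ⟪‖A x v‖⁻¹ • A x v, fderiv ℝ g z v⟫ := fun x hx z hz v u => by
    have p0 := hA.pos x hx
    have k3 := mn x hx v
    rw [u, mul_one] at k3
    have k4 := (m0 x hx).trans_le k3
    obtain ⟨s, k⟩ := key x hx z hz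
    have hz' := b1 x hx hz
    have b := g3 z hz' v _ (‖A x v‖ / 2) u
      (norm_smul_inv_norm (𝕜 := ℝ) (norm_pos_iff.1 k4))
      (s.trans ((ball_subset_ball (by linarith)).trans (b4 x hx))) fun y hy t ht hy' => by
        have c := aff x hx _ (s hy') y (s hy)
        rw [add_sub_cancel_left] at c
        exact grow u (norm_pos_iff.1 k4) k3 ht c
    have k5 := mul_le_mul_of_nonneg_right ((hA.le z hz').trans hA.hL) k4.le
    exact le_trans (by linarith [k v u]) b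
  have upp : ∀ x ∈ Ω, ∀ v : E, ‖v‖ = 1 → 1 * ‖fderiv ℝ g x v‖ ≤ 8 / 5 * ‖A x v‖ :=
    fun x hx v u => by
    have p0 := hA.pos x hx
    have k3 := mn x hx v
    rw [u, mul_one] at k3
    have k4 := (m0 x hx).trans_le k3
    by_cases hD : fderiv ℝ g x v = 0
    · rw [hD, norm_zero]
      linarith
    obtain ⟨s, k⟩ := key x hx x (mem_ball_self p0)
    have uc : ‖-(‖fderiv ℝ g x v‖⁻¹ • fderiv ℝ g x v)‖ = 1 := by
      rw [norm_neg]
      exact norm_smul_inv_norm (𝕜 := ℝ) hD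
    have b := g3 x hx v _ (-(3 / 2 * ‖A x v‖)) u uc
      (s.trans ((ball_subset_ball (by linarith)).trans (b4 x hx))) fun y hy t ht hy' => by
        have c := aff x hx _ (s hy') y (s hy)
        rw [add_sub_cancel_left] at c
        exact grow2 u uc k3 ht c
    have n := norm_pos_iff.2 hD
    have e : ⟪-(‖fderiv ℝ g x v‖⁻¹ • fderiv ℝ g x v), fderiv ℝ g x v⟫ = -‖fderiv ℝ g x v‖ := by
      rw [inner_neg_left, real_inner_smul_left, real_inner_self_eq_norm_sq]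
      field_simp
    rw [e] at b
    have k5 := mul_le_mul_of_nonneg_right ((hA.le x hx).trans hA.hL) k4.le
    linarith [k v u]
  refine ⟨g, h3 Ω Λ f g (fun x => ‖A x (v0 x)‖ * β x * (21 / 100)) β hΩ hΛ hb' hc hf g1
    fun x hx => ?_,
    fun i => a _ _ _ (contOn_pd hΩ g1 i) (f2.2.2 i) (hs.2.2 i) (g5 i) (f4 i), fun x hx => ?_⟩
  · have p0 := hA.pos x hx
    have p1 := mul_pos (m0 x hx) p0
    have bl := h2 Ω Λ f x (β x) _ hΩ hΛ hf p0 (hA.sub x hx) (sp x hx)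
    refine ⟨gf x hx, ?_, p0, b1 x hx, fun y hy l => ?_, fun v hv => ?_⟩
    · have : ‖A x (v0 x)‖ * β x * (92 / 100) ≤ infDist (f x) Λᶜ := by
        refine (le_infDist (ne_compl hb')).2 fun y hy => not_lt.1 fun l => hy ?_
        obtain ⟨w, w1, rfl⟩ := bl (mem_ball'.2 l)
        exact hf.2.1.mapsTo (b1 x hx w1)
      linarith
    · obtain ⟨w, w1, w2⟩ := bl (mem_ball'.2 (show dist (f x) (f y) < _ by linarith))
      rwa [← hf.2.1.injOn (b1 x hx w1) hy w2]
    · have u := norm_smul_inv_norm (𝕜 := ℝ) hv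
      have n := inv_pos.2 (norm_pos_iff.2 hv)
      have k3 := mn x hx (‖v‖⁻¹ • v)
      rw [show ‖‖v‖⁻¹ • v‖ = 1 from u, mul_one] at k3
      have k4 := (m0 x hx).trans_le k3
      refine ⟨‖A x (‖v‖⁻¹ • v)‖⁻¹ • A x (‖v‖⁻¹ • v), fun z hz => ?_⟩
      have b := low x hx z hz (‖v‖⁻¹ • v) u
      rw [(fderiv ℝ g z).map_smul, real_inner_smul_right] at b
      exact (mul_pos_iff_of_pos_left n).1 (lt_of_lt_of_le (by linarith) b)
  · have p0 := hA.pos x hx
    refine ⟨A x, v0 x, β x, p0, bg x hx, n0 x hx, mn x hx, bp x hx, gf x hx, fun v => ⟨?_, ?_⟩⟩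
    · have := homog (A := A x) (D := fderiv ℝ g x) (a := 2 / 5) (b := 1) (fun w u => by
        have k3 := mn x hx w
        rw [u, mul_one] at k3
        have k4 := (m0 x hx).trans_le k3
        have b := low x hx x (mem_ball_self p0) w u
        have c := real_inner_le_norm (‖A x w‖⁻¹ • A x w) (fderiv ℝ g x w)
        rw [show ‖‖A x w‖⁻¹ • A x w‖ = 1 from
          norm_smul_inv_norm (𝕜 := ℝ) (norm_pos_iff.1 k4)] at c
        exact b.trans c) v
      rwa [one_mul] at this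
    · have := homog (A := fderiv ℝ g x) (D := A x) (a := 1) (b := 8 / 5) (upp x hx) v
      rwa [one_mul] at this

end Vale.Agent.P073
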