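import Vale.Agent.P073.UStm

/-! P073: smooth approximation of a bi-Lipschitz homeomorphism with uniform bounds. -/

open MeasureTheory Set Metric Filter
open scoped ContDiff RealInnerProductSpace Topology ENNReal

namespace Vale.Agent.P073

namespace UD2Aux

theorem key {h : E → E} {A : E →L[ℝ] E} {x v0 : E} {b L : ℝ} (hb : 0 < b) (hL : 0 < L)
    (hv0 : ‖v0‖ = 1) (hm : ∀ v, ‖A v0‖ * ‖v‖ ≤ ‖A v‖)
    (ha : ∀ z ∈ ball x (4 * b), ‖h z - h x - A (z - x)‖ ≤ ‖A v0‖ * b * (8 / 100))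
    (hl : ∀ z ∈ ball x (4 * b), ‖z - x‖ ≤ L * ‖h z - h x‖ ∧ ‖h z - h x‖ ≤ L * ‖z - x‖) :
    (∀ v, ‖v‖ = 1 → ‖A v‖ ≤ 25 / 24 * L) ∧ 1 ≤ 104 / 100 * L * ‖A v0‖ := by
  have main : ∀ v : E, ‖v‖ = 1 → ∃ d : ℝ, 2 * b ≤ L * d ∧ d ≤ L * (2 * b) ∧
      2 * b * ‖A v‖ ≤ d + ‖A v0‖ * b * (8 / 100) ∧ d ≤ 2 * b * ‖A v‖ + ‖A v0‖ * b * (8 / 100) := by
    intro v hv
    have e1 : x + (2 * b) • v - x = (2 * b) • v := add_sub_cancel_left _ _
    have e2 : ‖(2 * b) • v‖ = 2 * b := by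
      rw [norm_smul, hv, mul_one, Real.norm_of_nonneg (by linarith)]
    have e3 : ‖A ((2 * b) • v)‖ = 2 * b * ‖A v‖ := by
      rw [map_smul, norm_smul, Real.norm_of_nonneg (by linarith)]
    have hz : x + (2 * b) • v ∈ ball x (4 * b) := by
      rw [mem_ball, dist_eq_norm, e1, e2]
      linarith
    have a1 := ha _ hz
    obtain ⟨a2, a3⟩ := hl _ hz
    rw [e1] at a1 a2 a3
    rw [e2] at a2 a3
    have a4 := abs_norm_sub_norm_le (h (x + (2 * b) • v) - h x) (A ((2 * b) • v))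
    rw [e3] at a4
    obtain ⟨a5, a6⟩ := abs_le.1 (a4.trans a1)
    exact ⟨_, a2, a3, by linarith, by linarith⟩
  constructor
  · intro v hv
    obtain ⟨d, -, d2, d3, -⟩ := main v hv
    have m1 := hm v
    rw [hv, mul_one] at m1
    have m2 : ‖A v0‖ * b ≤ ‖A v‖ * b := mul_le_mul_of_nonneg_right m1 hb.le
    refine le_of_mul_le_mul_left (a := b) ?_ hb
    linarith
  · obtain ⟨d, d1, -, -, d4⟩ := main v0 hv0
    have m2 := mul_le_mul_of_nonneg_left d4 hL.le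
    refine le_of_mul_le_mul_left (a := b) ?_ hb
    linarith

end UD2Aux

theorem u_d2 (h1 : U_D1) : U_D2 := by
  intro p Ω Λ h K L ρ ε hp hp' hΩ hΩb hΛ hΛb hΛc hH hS hN hL hB hρ hε
  obtain ⟨γ, g1, g2⟩ := gauge (Ω := Ω) (fun x r => r ≤ ρ / L ∧ ∀ z ∈ ball x (4 * r),
      ‖z - x‖ ≤ L * ‖h z - h x‖ ∧ ‖h z - h x‖ ≤ L * ‖z - x‖)
    (fun x r r' _ hr hq => ⟨hr.trans hq.1, fun z hz => hq.2 z (ball_subset_ball (by linarith) hz)⟩)
    (fun x hx => by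
      obtain ⟨r, r0, -, hr⟩ := hB x hx
      refine ⟨min (r / 8) (ρ / L), lt_min (by linarith) (div_pos hρ hL), ?_⟩
      filter_upwards [ball_mem_nhds x (half_pos r0)] with y hy
      refine ⟨min_le_right _ _, fun z hz => hr z ?_ y (ball_subset_ball (by linarith) hy)⟩
      rw [mem_ball] at hy hz ⊢
      linarith [dist_triangle z y x, min_le_left (r / 8) (ρ / L)])
  obtain ⟨g, hg, he, hx⟩ := h1 p Ω Λ h K γ ε hp hp' hΩ hΩb hΛ hΛb hΛc hH hS hN g2 hε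
  refine ⟨g, hg, he, fun x hxΩ => ?_⟩
  obtain ⟨A, v0, b, b0, b1, hv0, hm, ha, hd, hf⟩ := hx x hxΩ
  obtain ⟨-, q1, q2⟩ := g1 x hxΩ
  obtain ⟨k1, k2⟩ := UD2Aux.key b0 hL hv0 hm ha fun z hz =>
    q2 z (ball_subset_ball (by linarith) hz)
  refine ⟨?_, fun i => ?_, fun v => ?_⟩
  · have c1 : b * L ≤ ρ := (le_div_iff₀ hL).1 (b1.trans q1)
    have c2 : ‖A v0‖ * b ≤ 25 / 24 * L * b := mul_le_mul_of_nonneg_right (k1 v0 hv0) b0.le
    linarith
  · have c1 := (hf (EuclideanSpace.single i 1)).2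
    have c2 := k1 (EuclideanSpace.single i 1) (by simp)
    unfold pd
    linarith
  · have c1 := mul_le_mul_of_nonneg_left (hf v).1 hL.le
    have c2 := mul_le_mul_of_nonneg_left (hm v) hL.le
    have c3 := mul_le_mul_of_nonneg_right k2 (norm_nonneg v)
    have c4 := mul_nonneg hL.le (norm_nonneg (fderiv ℝ g x v))
    linarith

end Vale.Agent.P073
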