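import Vale.Agent.P073.UStm

/-! P073: compositions of diffeomorphisms and the chain rule. -/

open MeasureTheory Set Metric Filter
open scoped ContDiff RealInnerProductSpace Topology ENNReal

namespace Vale.Agent.P073

theorem u_dC : U_DC := by
  rintro Ω Ω' Λ g u hΩ hΩ' ⟨g1, g2, k1, g3, g4⟩ ⟨u1, u2, k2, u3, u4⟩
  have m : MapsTo k2 Λ Ω' := fun w hw => by
    obtain ⟨y, hy, rfl⟩ := u2.surjOn hw
    rwa [u4.1 hy]
  refine ⟨⟨u1.comp g1 g2.mapsTo, u2.comp g2, k1 ∘ k2, g3.comp u3 m, fun x hx => ?_,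
    fun w hw => ?_⟩, fun i x hx => ?_⟩
  · show k1 (k2 (u (g x))) = x
    rw [u4.1 (g2.mapsTo hx), g4.1 hx]
  · show u (g (k1 (k2 w))) = w
    rw [g4.2 (m hw), u4.2 hw]
  · have d1 := (g1.contDiffAt (hΩ.mem_nhds hx)).differentiableAt (by simp)
    have d2 := (u1.contDiffAt (hΩ'.mem_nhds (g2.mapsTo hx))).differentiableAt (by simp)
    have e : ∀ a : E, a = ∑ j, a j • EuclideanSpace.single j (1 : ℝ) := fun a => by
      simpa using ((EuclideanSpace.basisFun (Fin 3) ℝ).sum_repr a).symm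
    show fderiv ℝ (u ∘ g) x (EuclideanSpace.single i 1) =
      ∑ j, pd i g x j • fderiv ℝ u (g x) (EuclideanSpace.single j 1)
    rw [fderiv_comp x d2 d1]
    show fderiv ℝ u (g x) (pd i g x) = _
    conv_lhs => rw [e (pd i g x), map_sum]
    simp only [map_smul]

end Vale.Agent.P073
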