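import Vale.Agent.P073.UStm

/-! P073: the estimate for compositions. -/

open MeasureTheory Set Metric Filter
open scoped ContDiff RealInnerProductSpace Topology ENNReal

namespace Vale.Agent.P073

namespace UEstAux

theorem coord {μ : Measure E} {a : E → E} (ha : AEStronglyMeasurable a μ) (j : Fin 3) :
    AEStronglyMeasurable (fun x => a x j) μ :=
  (show Continuous fun v : E => v j by fun_prop).comp_aestronglyMeasurable ha

theorem sum3 {μ : Measure E} {p : ℝ≥0∞} (hp : 1 ≤ p) (w : Fin 3 → E → E) (e : ℝ≥0∞)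
    (m : ∀ j, AEStronglyMeasurable (w j) μ) (b : ∀ j, eLpNorm (w j) p μ ≤ e) :
    AEStronglyMeasurable (∑ j, w j) μ ∧ eLpNorm (∑ j, w j) p μ ≤ 3 * e := by
  refine ⟨Finset.aestronglyMeasurable_sum _ fun j _ => m j, ?_⟩
  refine (eLpNorm_sum_le (fun j _ => m j) hp).trans ((Finset.sum_le_sum fun j _ => b j).trans ?_)
  simp

end UEstAux

theorem u_est (h1 : U_Move) (h2 : U_Cut) (h3 : U_Mem) : U_Est := by
  intro p Ω Ω' h f K G C L ε hp hp' hΩ hb hΩ' hb' hc hm hP mK bK hf hG hε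
  obtain ⟨e, e0, he⟩ : ∃ e : ℝ≥0∞, e ≠ 0 ∧ (ENNReal.ofReal L * ENNReal.ofReal C * 3 +
      3 * ENNReal.ofReal L + 3 + (ENNReal.ofReal C + 1)) * e ≤ ε :=
    ⟨ε / _, ENNReal.div_ne_zero.2 ⟨hε, by finiteness⟩, ENNReal.mul_div_le⟩
  have mW : ∀ j, MemLp (fun x => G j (h x)) p (volume.restrict Ω) := fun j =>
    ⟨(hP _ (hG j).1).1, (hP _ (hG j).1).2.trans_lt
      (ENNReal.mul_lt_top ENNReal.ofReal_lt_top (hG j).2)⟩
  obtain ⟨ρ0, r0, s0⟩ := h1 p Ω Ω' h f C e hp hp' hΩ hb hΩ' hb' hc hm hP hf e0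
  choose ρ r1 s1 using fun j => h1 p Ω Ω' h (G j) C e hp hp' hΩ hb hΩ' hb' hc hm hP (hG j) e0
  choose η t1 t2 using fun j => h2 p Ω (fun x => G j (h x)) (2 * L) e hp hp' hΩ (mW j) e0
  obtain ⟨r, q0, q1, q2⟩ : ∃ r > (0 : ℝ), r ≤ ρ0 ∧ ∀ j, r ≤ ρ j :=
    ⟨min ρ0 (Finset.univ.inf' Finset.univ_nonempty ρ),
      lt_min r0 ((Finset.lt_inf'_iff _).2 fun j _ => r1 j), min_le_left _ _,
      fun j => (min_le_right _ _).trans (Finset.inf'_le _ (Finset.mem_univ j))⟩
  obtain ⟨θ, w0, w1, w2⟩ : ∃ θ : ℝ≥0∞, 0 < θ ∧ θ ≤ e ∧ ∀ j, θ ≤ η j :=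
    ⟨min e (Finset.univ.inf' Finset.univ_nonempty η),
      lt_min (pos_iff_ne_zero.2 e0) ((Finset.lt_inf'_iff _).2 fun j _ => pos_iff_ne_zero.2 (t1 j)),
      min_le_left _ _, fun j => (min_le_right _ _).trans (Finset.inf'_le _ (Finset.mem_univ j))⟩
  refine ⟨r, q0, θ, w0.ne', fun g u K' G' gc gm gP gh mK' bK' eK hu hG' eu eG => ⟨?_, fun i => ?_⟩⟩
  · have id1 : u ∘ g - f ∘ h = (fun x => (u - f) (g x)) + fun x => f (g x) - f (h x) := by
      funext x
      simp only [Pi.sub_apply, Pi.add_apply, Function.comp_apply]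
      abel
    have a1 := gP (u - f) (hu.1.sub hf.1)
    have a2 := s0 g gc gm gP fun x hx => (gh x hx).trans q1
    rw [id1]
    refine (eLpNorm_add_le a1.1 ((gP f hf.1).1.sub (hP f hf.1).1) hp).trans ?_
    refine le_trans (add_le_add (a1.2.trans (mul_le_mul_right (eu.trans w1) _)) a2) ?_
    refine le_trans ?_ he
    rw [add_mul _ _ e, add_mul (ENNReal.ofReal C), one_mul]
    exact le_add_self
  · have id2 : Ch K' G' g i - Ch K G h i = Ch K' (fun j => G' j - G j) g i +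
        (∑ j, fun x => K' i x j • (G j (g x) - G j (h x))) +
        ∑ j, fun x => (K' i - K i) x j • G j (h x) := by
      funext x
      simp only [Ch, Pi.sub_apply, Pi.add_apply, Finset.sum_apply, PiLp.sub_apply, smul_sub,
        sub_smul, Finset.sum_sub_distrib]
      abel
    have a1 := h3 p Ω Ω' g K' (fun j => G' j - G j) C L hp hΩ gP mK' bK'
      (fun j => (hG' j).1.sub (hG j).1) i
    have b1 : ∑ j, eLpNorm (G' j - G j) p (volume.restrict Ω') ≤ 3 * e :=
      (Finset.sum_le_sum fun j _ => (eG j).trans w1).trans (by simp)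
    have a2 := UEstAux.sum3 (μ := volume.restrict Ω) hp
      (fun j x => K' i x j • (G j (g x) - G j (h x))) (ENNReal.ofReal L * e)
      (fun j => (UEstAux.coord (mK' i) j).smul ((gP _ (hG j).1).1.sub (mW j).1)) fun j => by
        refine le_trans (eLpNorm_le_mul_eLpNorm_of_ae_le_mul
          (g := fun x => G j (g x) - G j (h x)) (c := L) ?_ p) (mul_le_mul_right
            (s1 j g gc gm gP fun x hx => (gh x hx).trans (q2 j)) _)
        refine (ae_restrict_mem hΩ.measurableSet).mono fun x hx => ?_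
        rw [norm_smul]
        exact mul_le_mul_of_nonneg_right ((PiLp.norm_apply_le _ j).trans (bK' i x hx))
          (norm_nonneg _)
    have a3 := UEstAux.sum3 (μ := volume.restrict Ω) hp
      (fun j x => (K' i - K i) x j • G j (h x)) e
      (fun j => (UEstAux.coord ((mK' i).sub (mK i)) j).smul (mW j).1) fun j =>
        t2 j (K' i - K i) j ((mK' i).sub (mK i)) (fun x hx => (norm_sub_le _ _).trans
          (by linarith [bK' i x hx, bK i x hx])) ((eK i).trans (w2 j))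
    rw [id2]
    refine (eLpNorm_add_le (a1.1.add a2.1) a3.1 hp).trans ?_
    refine le_trans (add_le_add ((eLpNorm_add_le a1.1 a2.1 hp).trans
      (add_le_add (a1.2.trans (mul_le_mul_right b1 _)) a2.2)) a3.2) ?_
    refine le_trans ?_ he
    rw [add_mul _ _ e, add_mul _ _ e, add_mul _ _ e, mul_assoc _ 3 e, mul_assoc 3 _ e]
    exact le_self_add

end Vale.Agent.P073
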