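import Vale.Agent.P073.UStm

/-! P073: integration by parts for locally Lipschitz functions. -/

open MeasureTheory Set Metric Filter
open scoped ContDiff RealInnerProductSpace Topology ENNReal

namespace Vale.Agent.P073

theorem u_ibp : U_Ibp := by
  intro u ψ Ω L i hΩ hu h1 h2 h3
  obtain ⟨K, hK, hK1, hK2⟩ := exists_compact_between h2.isCompact hΩ h3
  have hl : LocallyLipschitzOn K u := by
    intro x hx
    obtain ⟨r, hr, h⟩ := hu x (hK2 hx)
    refine ⟨L.toNNReal, ball x r, mem_nhdsWithin_of_mem_nhds (ball_mem_nhds x hr), ?_⟩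
    refine LipschitzOnWith.of_dist_le_mul fun y hy z hz => ?_
    rw [Real.dist_eq, dist_eq_norm]
    exact (h y hy z hz).trans (mul_le_mul_of_nonneg_right (Real.le_coe_toNNReal L) (norm_nonneg _))
  obtain ⟨C, hC⟩ := hl.exists_lipschitzOnWith_of_compact hK
  obtain ⟨U, hU, hUu⟩ := hC.extend_real
  obtain ⟨D, hD⟩ := ContDiff.lipschitzWith_of_hasCompactSupport h2 h1 (by simp)
  have hev : ∀ x ∈ tsupport ψ, u =ᶠ[𝓝 x] U := fun x hx =>
    hUu.eventuallyEq_of_mem (mem_interior_iff_mem_nhds.1 (hK1 hx))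
  have z1 : ∀ x ∉ tsupport ψ, pd i ψ x = 0 := fun x hx =>
    image_eq_zero_of_notMem_tsupport fun l => hx (tsupport_pd i ψ l)
  have z2 : ∀ x ∉ tsupport ψ, ψ x = 0 := fun x hx => image_eq_zero_of_notMem_tsupport hx
  have k := hU.integral_lineDeriv_mul_eq (μ := volume) hD h2 (EuclideanSpace.single i 1)
  have e1 : ∫ x in Ω, pd i ψ x * u x =
      -∫ x, lineDeriv ℝ ψ x (-EuclideanSpace.single i 1) * U x := by
    rw [setIntegral_eq_integral_of_forall_compl_eq_zero fun x hx => by
      rw [z1 x fun l => hx (h3 l), zero_mul], ← integral_neg]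
    refine integral_congr_ae (ae_of_all _ fun x => ?_)
    dsimp only
    rw [(h1.differentiable (by simp) x).lineDeriv_eq_fderiv, map_neg, neg_mul, neg_neg]
    change pd i ψ x * u x = pd i ψ x * U x
    by_cases hx : x ∈ tsupport ψ
    · rw [(hev x hx).eq_of_nhds]
    · rw [z1 x hx, zero_mul, zero_mul]
  have e2 : ∫ x in Ω, ψ x * pd i u x =
      ∫ x, lineDeriv ℝ U x (EuclideanSpace.single i 1) * ψ x := by
    rw [setIntegral_eq_integral_of_forall_compl_eq_zero fun x hx => by
      rw [z2 x fun l => hx (h3 l), zero_mul]]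
    refine integral_congr_ae ((hU.ae_differentiableAt (μ := volume)).mono fun x hd => ?_)
    dsimp only
    by_cases hx : x ∈ tsupport ψ
    · rw [hd.lineDeriv_eq_fderiv, pd, (hev x hx).fderiv_eq, mul_comm]
    · rw [z2 x hx, zero_mul, mul_zero]
  rw [e1, e2, k]

end Vale.Agent.P073
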