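import Vale.Agent.P073.UStm

/-! P073: the volume of a Lipschitz image. -/

open MeasureTheory Set Metric Filter
open scoped ContDiff RealInnerProductSpace Topology ENNReal

namespace Vale.Agent.P073

theorem u_img : U_Img := by
  intro k s L hL h
  have hl : LipschitzOnWith L.toNNReal k s := LipschitzOnWith.of_dist_le_mul fun y hy z hz => by
    rw [dist_eq_norm, dist_eq_norm, Real.coe_toNNReal _ hL.le]
    exact h y hy z hz
  have h1 := hl.hausdorffMeasure_image_le (d := ((3 : ℕ) : ℝ)) (by positivity)
  have e : ((L.toNNReal : ℝ≥0∞)) ^ ((3 : ℕ) : ℝ) = ENNReal.ofReal (L ^ 3) := by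
    rw [ENNReal.rpow_natCast, ENNReal.ofReal_pow hL.le]
    rfl
  rw [e] at h1
  rw [← EuclideanSpace.euclideanHausdorffMeasure_eq_volume, Measure.euclideanHausdorffMeasure_def]
  simp only [Measure.smul_apply, ENNReal.smul_def, smul_eq_mul]
  rw [mul_left_comm]
  exact mul_le_mul_right h1 _

end Vale.Agent.P073
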