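import Vale.Agent.P073.UStm

/-! P073: the measure of the image under a locally Lipschitz map. -/

open MeasureTheory Set Metric Filter
open scoped ContDiff RealInnerProductSpace Topology ENNReal

namespace Vale.Agent.P073

theorem u_img2 (h1 : U_Img) : U_Img2 := by
  intro k Λ s L hL ms hs hk
  obtain ⟨T, Tc, TS, TU⟩ := TopologicalSpace.isOpen_sUnion_countable
    {U : Set E | IsOpen U ∧ ∀ y ∈ U, ∀ z ∈ U, ‖k y - k z‖ ≤ L * ‖y - z‖} fun U hU => hU.1
  obtain ⟨B, hB⟩ := (Tc.insert ∅).exists_eq_range (insert_nonempty _ _)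
  have pB : ∀ n, IsOpen (B n) ∧ ∀ y ∈ B n, ∀ z ∈ B n, ‖k y - k z‖ ≤ L * ‖y - z‖ := fun n => by
    have : B n ∈ insert ∅ T := hB ▸ mem_range_self n
    rcases this with h | h
    · rw [h]
      exact ⟨isOpen_empty, fun y hy => hy.elim⟩
    · exact TS h
  have cov : s ⊆ ⋃ n, disjointed B n := by
    rw [iUnion_disjointed]
    intro w hw
    obtain ⟨r, r0, hr⟩ := hk w (hs hw)
    have : w ∈ ⋃₀ T := by
      rw [TU]
      exact ⟨ball w r, ⟨isOpen_ball, hr⟩, mem_ball_self r0⟩
    obtain ⟨U, hU, hwU⟩ := this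
    obtain ⟨n, hn⟩ : U ∈ range B := hB ▸ mem_insert_of_mem _ hU
    exact mem_iUnion.2 ⟨n, hn ▸ hwU⟩
  have e : s = ⋃ n, s ∩ disjointed B n := by
    rw [← inter_iUnion, inter_eq_left.2 cov]
  have md : ∀ n, MeasurableSet (s ∩ disjointed B n) := fun n =>
    ms.inter (MeasurableSet.disjointed (fun n => (pB n).1.measurableSet) n)
  have dj : Pairwise (Function.onFun Disjoint fun n => s ∩ disjointed B n) := fun m n hmn =>
    (disjoint_disjointed B hmn).mono inter_subset_right inter_subset_right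
  calc volume (k '' s) = volume (⋃ n, k '' (s ∩ disjointed B n)) := by
        rw [← image_iUnion, ← e]
    _ ≤ ∑' n, volume (k '' (s ∩ disjointed B n)) := measure_iUnion_le _
    _ ≤ ∑' n, ENNReal.ofReal (L ^ 3) * volume (s ∩ disjointed B n) :=
        ENNReal.tsum_le_tsum fun n => h1 k _ L hL fun y hy z hz =>
          (pB n).2 y (disjointed_subset B n hy.2) z (disjointed_subset B n hz.2)
    _ = ENNReal.ofReal (L ^ 3) * volume s := by
        rw [ENNReal.tsum_mul_left, ← measure_iUnion dj md, ← e]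

end Vale.Agent.P073
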