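import Vale.Agent.P073.UStm

/-! P073: a limit of smooth maps in the Sobolev norm has the limit as weak derivative. -/

open MeasureTheory Set Metric Filter
open scoped ContDiff RealInnerProductSpace Topology ENNReal

namespace Vale.Agent.P073.ULimAux

theorem one {p : ℝ≥0∞} (hp : 1 ≤ p) (μ : Measure E) [IsFiniteMeasure μ] {δ : ℝ} (hδ : 0 < δ) :
    ∃ ε : ℝ≥0∞, ε ≠ 0 ∧ ∀ w : E → E, AEStronglyMeasurable w μ → eLpNorm w p μ ≤ ε →
      Integrable w μ ∧ ∫ x, ‖w x‖ ∂μ ≤ δ := by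
  have e0 : 0 ≤ 1 / (1 : ℝ≥0∞).toReal - 1 / p.toReal := by
    rw [ENNReal.toReal_one, div_one, sub_nonneg]
    rcases eq_or_ne p ⊤ with rfl | h
    · simp
    · exact div_le_one_of_le₀ (by simpa using ENNReal.toReal_mono h hp) ENNReal.toReal_nonneg
  have ct := ENNReal.rpow_ne_top_of_nonneg e0 (measure_ne_top μ univ)
  generalize hc : μ univ ^ (1 / (1 : ℝ≥0∞).toReal - 1 / p.toReal) = c at ct
  have c0 : 0 < c.toReal + 1 := by positivity
  refine ⟨ENNReal.ofReal (δ / (c.toReal + 1)), (ENNReal.ofReal_pos.2 (div_pos hδ c0)).ne',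
    fun w m n => ?_⟩
  have a := eLpNorm_le_eLpNorm_mul_rpow_measure_univ (μ := μ) hp m
  rw [hc] at a
  have b : eLpNorm w 1 μ ≤ ENNReal.ofReal δ := by
    refine a.trans ((mul_le_mul' n (ENNReal.ofReal_toReal ct).ge).trans ?_)
    rw [← ENNReal.ofReal_mul (div_pos hδ c0).le]
    refine ENNReal.ofReal_le_ofReal ?_
    rw [div_mul_eq_mul_div, div_le_iff₀ c0]
    nlinarith
  refine ⟨memLp_one_iff_integrable.1 ⟨m, b.trans_lt ENNReal.ofReal_lt_top⟩, ?_⟩
  rw [integral_norm_eq_lintegral_enorm m, ← eLpNorm_one_eq_lintegral_enorm]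
  exact ENNReal.toReal_le_of_le_ofReal hδ.le b

theorem sm {μ : Measure E} (θ : E → ℝ) (C : ℝ) (w : E → E) (c : Continuous θ)
    (n : ∀ x, ‖θ x‖ ≤ C) (hw : Integrable w μ) : Integrable (fun x => θ x • w x) μ ∧
      ‖∫ x, θ x • w x ∂μ‖ ≤ C * ∫ x, ‖w x‖ ∂μ := by
  refine ⟨hw.bdd_smul C c.aestronglyMeasurable (.of_forall n), ?_⟩
  rw [← integral_const_mul]
  refine norm_integral_le_of_norm_le (hw.norm.const_mul C) (.of_forall fun x => ?_)
  rw [norm_smul]
  exact mul_le_mul_of_nonneg_right (n x) (norm_nonneg _)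

end Vale.Agent.P073.ULimAux

namespace Vale.Agent.P073

open ULimAux

theorem u_lim : U_Lim := by
  intro p Ω F H hp hΩ hb hF hH h i ψ p1 p2 p3
  have : IsFiniteMeasure (volume.restrict Ω) := isFiniteMeasure_restrict.2 hb.measure_lt_top.ne
  obtain ⟨M, hM⟩ := p1.continuous.bounded_above_of_compact_support p2
  obtain ⟨N, hN⟩ := (cont_pd p1 i).bounded_above_of_compact_support (cs_pd p2 i)
  have M0 : 0 ≤ M := (norm_nonneg _).trans (hM 0)
  have N0 : 0 ≤ N := (norm_nonneg _).trans (hN 0)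
  have i0 := hF.integrable hp
  have i1 := (hH i).integrable hp
  rw [← add_eq_zero_iff_eq_neg, ← norm_le_zero_iff]
  refine le_of_forall_pos_le_add fun ε hε => ?_
  have K : 0 < N + M + 1 := by positivity
  obtain ⟨η, η0, hη⟩ := one hp (volume.restrict Ω) (div_pos hε K)
  obtain ⟨g, g1, g2, g3⟩ := h η η0
  obtain ⟨a1, a2⟩ := hη (g - F)
    ((g1.continuousOn.aestronglyMeasurable hΩ.measurableSet).sub hF.1) g2
  obtain ⟨b1, b2⟩ := hη (pd i g - H i)
    (((contOn_pd hΩ g1 i).aestronglyMeasurable hΩ.measurableSet).sub (hH i).1) (g3 i)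
  have w := weakD_smooth hΩ g1 i ψ p1 p2 p3
  obtain ⟨u1, u2⟩ := sm _ N _ (cont_pd p1 i) hN a1
  obtain ⟨v1, v2⟩ := sm _ M _ p1.continuous hM b1
  have x1 := (sm _ N _ (cont_pd p1 i) hN i0).1
  have y1 := (sm _ M _ p1.continuous hM i1).1
  have s1 : ∫ x in Ω, pd i ψ x • g x =
      (∫ x in Ω, pd i ψ x • (g - F) x) + ∫ x in Ω, pd i ψ x • F x := by
    rw [← integral_add u1 x1]
    exact integral_congr_ae (.of_forall fun x => by simp [smul_sub])
  have s2 : ∫ x in Ω, ψ x • pd i g x =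
      (∫ x in Ω, ψ x • (pd i g - H i) x) + ∫ x in Ω, ψ x • H i x := by
    rw [← integral_add v1 y1]
    exact integral_congr_ae (.of_forall fun x => by simp [smul_sub])
  simp only [s1, s2] at w
  have fin : N * (ε / (N + M + 1)) + M * (ε / (N + M + 1)) ≤ 0 + ε := by
    have t := mul_div_cancel₀ ε K.ne'
    have := div_pos hε K
    linarith
  refine le_trans (le_of_eq ?_) ((norm_add_le_of_le (u2.trans (mul_le_mul_of_nonneg_left
    a2 N0)) (v2.trans (mul_le_mul_of_nonneg_left b2 M0))).trans fin)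
  rw [← norm_neg, eq_sub_of_add_eq w]
  congr 1
  abel

end Vale.Agent.P073
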