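import Vale.Agent.P073.UStm

/-! P073: the chain rule expression in `L^p`. -/

open MeasureTheory Set Metric Filter
open scoped ContDiff RealInnerProductSpace Topology ENNReal

namespace Vale.Agent.P073

theorem u_mem : U_Mem := by
  intro p Ω Ω' h K G C L hp hΩ hPB hK hL hG i
  have hm : ∀ j, AEStronglyMeasurable (fun x => K i x j • G j (h x)) (volume.restrict Ω) :=
    fun j => ((EuclideanSpace.proj (𝕜 := ℝ) j).continuous.comp_aestronglyMeasurable (hK i)).smul
      (hPB _ (hG j)).1
  have e : Ch K G h i = ∑ j, fun x => K i x j • G j (h x) := by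
    funext x
    rw [Finset.sum_apply]
    rfl
  rw [e]
  refine ⟨Finset.aestronglyMeasurable_sum _ fun j _ => hm j,
    (eLpNorm_sum_le (fun j _ => hm j) hp).trans ?_⟩
  rw [Finset.mul_sum]
  refine Finset.sum_le_sum fun j _ => ?_
  have h1 : ∀ᵐ x ∂volume.restrict Ω, ‖K i x j • G j (h x)‖ ≤ L * ‖G j (h x)‖ := by
    filter_upwards [ae_restrict_mem hΩ.measurableSet] with x hx
    rw [norm_smul]
    exact mul_le_mul_of_nonneg_right ((PiLp.norm_apply_le (K i x) j).trans (hL i x hx))
      (norm_nonneg _)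
  refine (eLpNorm_le_mul_eLpNorm_of_ae_le_mul h1 p).trans ?_
  rw [mul_assoc]
  exact mul_le_mul_right (hPB _ (hG j)).2 _

end Vale.Agent.P073
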