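import Vale.Agent.P073.UStm

/-! P073: continuity of the composition in the inner map. -/

open MeasureTheory Set Metric Filter
open scoped ContDiff RealInnerProductSpace Topology ENNReal

namespace Vale.Agent.P073

theorem u_move : U_Move := by
  intro p Ω Ω' h w C ε hp hp' hO hB hO' _ _ _ hP hw hε
  have hε3 : ε / 3 ≠ 0 := by simp [hε]
  obtain ⟨δ, δ0, hδ⟩ := ENNReal.exists_nnreal_pos_mul_lt (ENNReal.ofReal_ne_top (r := C)) hε3
  have hW : MemLp (Ω'.indicator w) p volume :=
    (memLp_indicator_iff_restrict hO'.measurableSet).2 hw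
  obtain ⟨u, uc, uε, ucont, -⟩ := hW.exists_hasCompactSupport_eLpNorm_sub_le hp'
    (ENNReal.coe_ne_zero.2 δ0.ne')
  have e1 : eLpNorm (fun x => w x - u x) p (volume.restrict Ω') ≤ δ := by
    refine le_trans (le_of_eq (eLpNorm_congr_ae ?_))
      ((eLpNorm_mono_measure _ (Measure.restrict_le_self (s := Ω'))).trans uε)
    filter_upwards [ae_restrict_mem hO'.measurableSet] with x hx
    simp [hx]
  have m1 : AEStronglyMeasurable (fun x => w x - u x) (volume.restrict Ω') :=
    hw.1.sub ucont.aestronglyMeasurable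
  have k : ∀ g : E → E, PB p Ω Ω' g C →
      eLpNorm (fun x => w (g x) - u (g x)) p (volume.restrict Ω) ≤ ε / 3 := fun g hg =>
    (hg _ m1).2.trans ((mul_le_mul_right e1 _).trans (by rw [mul_comm]; exact hδ.le))
  have hfin : (volume.restrict Ω) univ ^ p.toReal⁻¹ ≠ ⊤ := by
    refine ENNReal.rpow_ne_top_of_nonneg (by positivity) ?_
    rw [Measure.restrict_apply_univ]
    exact hB.measure_lt_top.ne
  obtain ⟨η, η0, hη⟩ := ENNReal.exists_nnreal_pos_mul_lt hfin hε3
  obtain ⟨ρ, ρ0, hρ⟩ := Metric.uniformContinuous_iff.1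
    (uc.uniformContinuous_of_continuous ucont) η (by exact_mod_cast η0)
  refine ⟨ρ / 2, half_pos ρ0, fun g _ _ hg hd => ?_⟩
  have m2 : AEStronglyMeasurable (fun x => u (g x) - u (h x)) (volume.restrict Ω) :=
    (hg u ucont.aestronglyMeasurable).1.sub (hP u ucont.aestronglyMeasurable).1
  have e2 : eLpNorm (fun x => u (g x) - u (h x)) p (volume.restrict Ω) ≤ ε / 3 := by
    refine (eLpNorm_le_of_ae_bound (C := η) ?_).trans ?_
    · filter_upwards [ae_restrict_mem hO.measurableSet] with x hx
      rw [← dist_eq_norm]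
      refine (hρ ?_).le
      rw [dist_eq_norm]
      exact (hd x hx).trans_lt (half_lt_self ρ0)
    · rw [ENNReal.ofReal_coe_nnreal, mul_comm]
      exact hη.le
  have e : (fun x => w (g x) - w (h x)) =
      ((fun x => w (g x) - u (g x)) + fun x => u (g x) - u (h x)) - fun x => w (h x) - u (h x) := by
    funext x
    simp only [Pi.add_apply, Pi.sub_apply]
    abel
  rw [e]
  refine (eLpNorm_sub_le ((hg _ m1).1.add m2) (hP _ m1).1 hp).trans ?_
  refine (add_le_add ((eLpNorm_add_le (hg _ m1).1 m2 hp).trans (add_le_add (k g hg) e2))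
    (k h hP)).trans_eq (ENNReal.add_thirds ε)

end Vale.Agent.P073
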