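import Vale.Agent.P073.UStm

open MeasureTheory Set Metric Filter
open scoped ContDiff RealInnerProductSpace Topology ENNReal

namespace Vale.Agent.P073

theorem u_pBh (h1 : U_Pull) : U_PBh := by
  intro p Ω Λ h L hp hp' hΩ hΛ hL hH hB
  obtain ⟨hc, hbij, k, hk, hinv⟩ := hH
  refine h1 p Ω Λ h k L hp hp' hΩ hΛ hL hc hbij.mapsTo (fun x hx => hinv.1 hx) ?_
  intro w hw
  obtain ⟨x, hx, rfl⟩ := hbij.surjOn hw
  obtain ⟨r, hr, -, hb⟩ := hB x hx
  have hkc : ContinuousAt k (h x) := hk.continuousAt (hΛ.mem_nhds hw)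
  have hkx : k (h x) = x := hinv.1 hx
  have h2 : ∀ᶠ y in 𝓝 (h x), k y ∈ ball x r := by
    apply hkc.eventually
    rw [hkx]
    exact ball_mem_nhds x hr
  have h3 : ∀ᶠ y in 𝓝 (h x), y ∈ Λ := hΛ.mem_nhds hw
  obtain ⟨r', hr', hball⟩ := Metric.eventually_nhds_iff_ball.mp (h2.and h3)
  refine ⟨r', hr', fun y hy z hz => ?_⟩
  have hy' := hball y hy
  have hz' := hball z hz
  have := (hb (k y) hy'.1 (k z) hz'.1).1
  rwa [hinv.2 hy'.2, hinv.2 hz'.2] at this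

end Vale.Agent.P073
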