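import Vale.Agent.P073.UStm

open MeasureTheory Set Metric Filter
open scoped ContDiff RealInnerProductSpace Topology ENNReal

namespace Vale.Agent.P073

namespace UPullAux

theorem root {c : ℝ≥0∞} {t : ℝ} (h0 : 0 ≤ t) (h1 : t ≤ 1) : c ^ t ≤ c + 1 := by
  rcases le_total c 1 with h | h
  · exact (ENNReal.rpow_le_one h h0).trans le_add_self
  · refine (ENNReal.rpow_le_rpow_of_exponent_le h h1).trans ?_
    rw [ENNReal.rpow_one]
    exact le_self_add

end UPullAux

theorem u_pull (h1 : U_Img2) : U_Pull := by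
  intro p Ω Λ h k L hp hp' hΩ hΛ hL hc hm hk hlip w hw
  have ha : AEMeasurable h (volume.restrict Ω) := hc.aemeasurable hΩ.measurableSet
  have hle : (volume.restrict Ω).map h ≤ ENNReal.ofReal (L ^ 3) • volume.restrict Λ := by
    refine Measure.le_iff.2 fun t ht => ?_
    rw [Measure.map_apply_of_aemeasurable ha ht, Measure.restrict_apply' hΩ.measurableSet,
      Measure.smul_apply, Measure.restrict_apply ht, smul_eq_mul]
    refine le_trans (measure_mono fun x hx => ?_)
      (h1 k Λ (t ∩ Λ) L hL (ht.inter hΛ.measurableSet) inter_subset_right hlip)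
    exact ⟨h x, ⟨hx.1, hm hx.2⟩, hk x hx.2⟩
  have hw' : AEStronglyMeasurable w ((volume.restrict Ω).map h) :=
    (hw.smul_measure _).mono_measure hle
  refine ⟨hw'.comp_aemeasurable ha, ?_⟩
  have e := eLpNorm_map_measure (p := p) hw' ha
  refine e.symm.le.trans ((eLpNorm_mono_measure w hle).trans ?_)
  rw [eLpNorm_smul_measure_of_ne_top hp', smul_eq_mul,
    ENNReal.ofReal_add (by positivity) zero_le_one, ENNReal.ofReal_one]
  refine mul_le_mul_left (UPullAux.root ENNReal.toReal_nonneg ?_) _
  refine ENNReal.toReal_le_of_le_ofReal zero_le_one ?_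
  rw [ENNReal.ofReal_one, one_div]
  exact ENNReal.inv_le_one.2 hp

end Vale.Agent.P073
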