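import Vale.Agent.P073.UStm

/-! P073: locally bi-Lipschitz maps are Sobolev maps. -/

open MeasureTheory Set Metric Filter
open scoped ContDiff RealInnerProductSpace Topology ENNReal

namespace Vale.Agent.P073

theorem u_rad (h1 : U_Ibp) (h2 : U_Ae) : U_Rad := by
  intro p Ω h L hΩ hb hb' hL hB
  obtain ⟨a1, a2⟩ := h2 h Ω L hΩ hL hB
  have : IsFiniteMeasure (volume.restrict Ω) := isFiniteMeasure_restrict.2 hb.measure_lt_top.ne
  have m := ae_restrict_mem (μ := volume) hΩ.measurableSet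
  have c : ContinuousOn h Ω := fun x hx => by
    obtain ⟨r, r0, -, k⟩ := hB x hx
    refine ContinuousAt.continuousWithinAt (tendsto_iff_norm_sub_tendsto_zero.2 (squeeze_zero'
      (.of_forall fun _ => norm_nonneg _) (mem_of_superset (ball_mem_nhds x r0) fun y hy =>
        (k y hy x (mem_ball_self r0)).2) ?_))
    simpa using (tendsto_norm_sub_self x).const_mul L
  obtain ⟨M, hM⟩ := hb'.exists_norm_le
  have b1 : ∀ q, MemLp h q (volume.restrict Ω) := fun q =>
    MemLp.of_bound (c.aestronglyMeasurable hΩ.measurableSet) M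
      (m.mono fun x hx => hM _ ⟨x, hx, rfl⟩)
  have b2 : ∀ q i, MemLp (pd i h) q (volume.restrict Ω) := fun q i =>
    MemLp.of_bound (measurable_fderiv_apply_const ℝ h _).aestronglyMeasurable L (m.mono (a2 i))
  refine ⟨⟨fun i ψ p1 p2 p3 => ?_, b1 p, b2 p⟩, a2⟩
  ext k
  have e1 := (EuclideanSpace.proj (𝕜 := ℝ) k).integral_comp_comm
    (memLp_one_iff_integrable.1 (memLp_smul (cont_pd p1 i) (cs_pd p2 i) (b1 1)))
  have e2 := (EuclideanSpace.proj (𝕜 := ℝ) k).integral_comp_comm
    (memLp_one_iff_integrable.1 (memLp_smul p1.continuous p2 (b2 1 i)))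
  have e3 := h1 (fun y => h y k) ψ Ω L i hΩ (fun x hx => by
    obtain ⟨r, r0, -, j⟩ := hB x hx
    exact ⟨r, r0, fun y hy z hz => (PiLp.norm_apply_le (h y - h z) k).trans (j y hy z hz).2⟩)
    p1 p2 p3
  refine e1.symm.trans (e3.trans (congrArg Neg.neg (Eq.trans (integral_congr_ae
    (a1.mono fun x hx => ?_)) e2)))
  exact congrArg (fun A : E →L[ℝ] ℝ => ψ x * A (EuclideanSpace.single i 1))
    ((EuclideanSpace.proj (𝕜 := ℝ) k).hasFDerivAt.comp x hx.hasFDerivAt).fderiv

end Vale.Agent.P073
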