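import Vale.Agent.P073.UStm

open MeasureTheory Set Metric Filter
open scoped ContDiff RealInnerProductSpace Topology ENNReal

namespace Vale.Agent.P073

namespace UUniqAux

theorem ae_eq {Ω : Set E} {F : E → E} {H H' : Fin 3 → E → E} (hΩ : IsOpen Ω)
    (h : Sob 1 Ω F H) (h' : Sob 1 Ω F H') (i : Fin 3) : H i =ᵐ[volume.restrict Ω] H' i := by
  have i1 : IntegrableOn (fun x => H i x - H' i x) Ω :=
    (memLp_one_iff_integrable.1 (h.2.2 i)).sub (memLp_one_iff_integrable.1 (h'.2.2 i))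
  have k := hΩ.ae_eq_zero_of_integral_contDiff_smul_eq_zero i1.locallyIntegrableOn
    fun ψ h1 h2 h3 => by
      rw [← setIntegral_eq_integral_of_forall_compl_eq_zero (s := Ω) fun x hx => by
        rw [image_eq_zero_of_notMem_tsupport fun hh => hx (h3 hh), zero_smul]]
      simp only [smul_sub]
      rw [integral_sub (memLp_one_iff_integrable.1 (memLp_smul h1.continuous h2 (h.2.2 i)))
        (memLp_one_iff_integrable.1 (memLp_smul h1.continuous h2 (h'.2.2 i))), sub_eq_zero]
      exact neg_injective ((h.1 i ψ h1 h2 h3).symm.trans (h'.1 i ψ h1 h2 h3))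
  rw [EventuallyEq, ae_restrict_iff' hΩ.measurableSet]
  exact k.mono fun x hx hx' => sub_eq_zero.1 (hx hx')

end UUniqAux

theorem u_uniq : U_Uniq := by
  intro p Ω Λ F H H' hp hΩ hb h h' hA ε hε
  obtain ⟨g, g1, g2, g3, g4⟩ := hA ε hε
  refine ⟨g, g1, g2, g3, fun i => le_trans (le_of_eq (eLpNorm_congr_ae ?_)) (g4 i)⟩
  exact (EventuallyEq.refl _ _).sub (UUniqAux.ae_eq hΩ (h.one hp hb) (h'.one hp hb) i).symm

end Vale.Agent.P073
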