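import Vale.Agent.P073.VStm

/-! P073: continuity of the superposition with a bounded continuous matrix field. -/

open MeasureTheory Set Metric Filter
open scoped ContDiff RealInnerProductSpace Topology ENNReal

namespace Vale.Agent.P073

theorem v_dom (h1 : V_Seq) : V_Dom := by
  intro p Ω Λ T f W L ε hp hp' hΩ hΛ hT hL hf mf hW hε
  by_contra hc
  have hc' : ∀ n : ℕ, ∃ g : E → E, ContinuousOn g Ω ∧ MapsTo g Ω Λ ∧
      eLpNorm (g - f) p (volume.restrict Ω) ≤ (n : ℝ≥0∞)⁻¹ ∧
      ε < eLpNorm (fun x => T (g x) (W x) - T (f x) (W x)) p (volume.restrict Ω) := by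
    intro n
    by_contra k
    refine hc ⟨(n : ℝ≥0∞)⁻¹, ENNReal.inv_ne_zero.2 (ENNReal.natCast_ne_top n), fun g a b c => ?_⟩
    by_contra d
    exact k ⟨g, a, b, c, not_le.1 d⟩
  choose g g1 g2 g3 g4 using hc'
  have hm := hΩ.measurableSet
  have t1 : Tendsto (fun n => eLpNorm (g n - f) p (volume.restrict Ω)) atTop (𝓝 0) :=
    tendsto_of_tendsto_of_tendsto_of_le_of_le tendsto_const_nhds ENNReal.tendsto_inv_nat_nhds_zero
      (fun _ => zero_le) g3
  have t2 : TendstoInMeasure (volume.restrict Ω) g atTop f :=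
    tendstoInMeasure_of_tendsto_eLpNorm (zero_lt_one.trans_le hp).ne'
      (fun n => (g1 n).aestronglyMeasurable hm) (hf.aestronglyMeasurable hm) t1
  obtain ⟨ns, -, t3⟩ := t2.exists_seq_tendsto_ae
  have ms : ∀ k : E → E, ContinuousOn k Ω → MapsTo k Ω Λ →
      AEStronglyMeasurable (fun x => T (k x) (W x)) (volume.restrict Ω) := fun k a b =>
    (isBoundedBilinearMap_apply (𝕜 := ℝ) (E := E) (F := E)).continuous.comp_aestronglyMeasurable
      (((hT.comp a b).aestronglyMeasurable hm).prodMk hW.1)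
  have t4 := h1 p (volume.restrict Ω) (fun n x => T (g (ns n) x) (W x) - T (f x) (W x)) W (2 * L)
    hp hp' hW (fun n => (ms _ (g1 _) (g2 _)).sub (ms _ hf mf))
    (fun n => (ae_restrict_mem hm).mono fun x hx => by
      have a := (T (g (ns n) x)).le_of_opNorm_le (hL _ (g2 _ hx)) (W x)
      have b := (T (f x)).le_of_opNorm_le (hL _ (mf hx)) (W x)
      linarith [norm_sub_le (T (g (ns n) x) (W x)) (T (f x) (W x))])
    (by
      filter_upwards [t3, ae_restrict_mem hm] with x a hx
      have b : Tendsto (fun n => T (g (ns n) x)) atTop (𝓝 (T (f x))) :=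
        (hT.continuousAt (hΛ.mem_nhds (mf hx))).tendsto.comp a
      have c := ((ContinuousLinearMap.apply ℝ E (W x)).continuous.tendsto _).comp b
      exact tendsto_sub_nhds_zero_iff.2 c)
  exact hε (le_antisymm (ge_of_tendsto' t4 fun n => (g4 (ns n)).le) zero_le)

end Vale.Agent.P073
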