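import Vale.Agent.P073.VStm

/-! P073: composition with a bounded continuous map is continuous in `L^p`. -/

open MeasureTheory Set Metric Filter
open scoped ContDiff RealInnerProductSpace Topology ENNReal

namespace Vale.Agent.P073

theorem v_dom0 (h1 : V_Dom) : V_Dom0 := by
  intro p Ω Λ Φ f ε hp hp' hΩ hb hΛ hΦ hbΦ hf hm hε
  have : IsFiniteMeasure (volume.restrict Ω) := isFiniteMeasure_restrict.2 hb.measure_lt_top.ne
  obtain ⟨M, hM⟩ := hbΦ.exists_norm_le
  refine ⟨MemLp.of_bound ((hΦ.comp hf hm).aestronglyMeasurable hΩ.measurableSet) M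
    ((ae_restrict_mem hΩ.measurableSet).mono fun x hx => hM _ ⟨f x, hm hx, rfl⟩), ?_⟩
  let π : E →L[ℝ] ℝ := EuclideanSpace.proj 0
  have hc : ContinuousOn (fun w => π.smulRight (Φ w)) Λ :=
    (ContinuousLinearMap.smulRightL ℝ E E π).continuous.comp_continuousOn hΦ
  obtain ⟨η, hη, H⟩ := h1 p Ω Λ (fun w => π.smulRight (Φ w)) f
    (fun _ => EuclideanSpace.single 0 1) (‖π‖ * M) ε hp hp' hΩ hΛ hc
    (fun w hw => by
      rw [ContinuousLinearMap.norm_smulRight_apply]
      exact mul_le_mul_of_nonneg_left (hM _ ⟨w, hw, rfl⟩) (norm_nonneg _))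
    hf hm (memLp_const _) hε
  refine ⟨η, hη, fun g hg hgm hgf => ?_⟩
  have h2 := H g hg hgm hgf
  have e : (fun x => π.smulRight (Φ (g x)) (EuclideanSpace.single 0 1) -
      π.smulRight (Φ (f x)) (EuclideanSpace.single 0 1)) = Φ ∘ g - Φ ∘ f := by
    funext x
    simp [π]
  rwa [e] at h2

end Vale.Agent.P073
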