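import Vale.Agent.P073.VStm

/-! P073: composition with a diffeomorphism of the target. -/

open MeasureTheory Set Metric Filter
open scoped ContDiff RealInnerProductSpace Topology ENNReal

namespace Vale.Agent.P073

namespace VPostAux

theorem app {μ : Measure E} {A : E → E →L[ℝ] E} {w : E → E} (hA : AEStronglyMeasurable A μ)
    (hw : AEStronglyMeasurable w μ) : AEStronglyMeasurable (fun x => A x (w x)) μ :=
  isBoundedBilinearMap_apply.continuous.comp_aestronglyMeasurable (hA.prodMk hw)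

end VPostAux

theorem v_post (h1 : V_Dom) (h2 : V_Dom0) (h3 : U_DC) (h4 : U_Lim) (h5 : S_Fin) : V_Post := by
  intro p Ω Λ Λ' f Φ G L hp hp' hΩ hb hΛ hb' hf hm hS hA hΦ hL
  have hT : ContinuousOn (fderiv ℝ Φ) Λ := hΦ.1.continuousOn_fderiv_of_isOpen hΛ (by simp)
  have hmeas : ∀ g : E → E, ContinuousOn g Ω → MapsTo g Ω Λ →
      AEStronglyMeasurable (fun x => fderiv ℝ Φ (g x)) (volume.restrict Ω) := fun g c m =>
    (hT.comp c m).aestronglyMeasurable hΩ.measurableSet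
  have hbd : ∀ g w : E → E, MapsTo g Ω Λ →
      ∀ᵐ x ∂(volume.restrict Ω), ‖fderiv ℝ Φ (g x) (w x)‖ ≤ L * ‖w x‖ := fun g w m =>
    ae_restrict_of_forall_mem hΩ.measurableSet fun x hx => ((fderiv ℝ Φ (g x)).le_opNorm _).trans
      (mul_le_mul_of_nonneg_right (hL _ (m hx)) (norm_nonneg _))
  have hH : ∀ i, MemLp (fun x => fderiv ℝ Φ (f x) (G i x)) p (volume.restrict Ω) := fun i =>
    (hS.2.2 i).of_le_mul (VPostAux.app (hmeas f hf hm) (hS.2.2 i).1) (hbd f (G i) hm)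
  have hd0 := fun ε hε => h2 p Ω Λ Φ f ε hp hp' hΩ hb hΛ hΦ.1.continuousOn
    (hΦ.2.1.image_eq.symm ▸ hb') hf hm hε
  have key : ∀ ε : ℝ≥0∞, ε ≠ 0 → ∃ u, Diffeo Ω Λ' u ∧
      eLpNorm (u - Φ ∘ f) p (volume.restrict Ω) ≤ ε ∧
      ∀ i, eLpNorm (pd i u - fun x => fderiv ℝ Φ (f x) (G i x)) p (volume.restrict Ω) ≤ ε := by
    intro ε hε
    have hε2 : ε / 2 ≠ 0 := by simp [hε]
    choose η η0 hη using fun i => h1 p Ω Λ (fderiv ℝ Φ) f (G i) L (ε / 2) hp hp' hΩ hΛ hT hL hf hm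
      (hS.2.2 i) hε2
    obtain ⟨-, θ, θ0, hθ⟩ := hd0 ε hε
    obtain ⟨e, e0, he⟩ : ∃ e : ℝ≥0∞, e ≠ 0 ∧ ENNReal.ofReal L * e ≤ ε / 2 :=
      ⟨ε / 2 / ENNReal.ofReal L, by simp [hε], ENNReal.mul_div_le⟩
    obtain ⟨g, hg, -, a1, a2⟩ := hA (min (min θ e) (Finset.univ.inf η))
      (lt_min (lt_min (pos_iff_ne_zero.2 θ0) (pos_iff_ne_zero.2 e0))
        ((Finset.lt_inf_iff ENNReal.zero_lt_top).2 fun i _ => pos_iff_ne_zero.2 (η0 i)))
    have gc := hg.1.continuousOn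
    have gm := hg.2.1.mapsTo
    refine ⟨Φ ∘ g, (h3 Ω Λ Λ' g Φ hΩ hΛ hg hΦ).1,
      hθ g gc gm (a1.trans ((min_le_left _ _).trans (min_le_left _ _))), fun i => ?_⟩
    have m1 : AEStronglyMeasurable (pd i g - G i) (volume.restrict Ω) :=
      ((contOn_pd hΩ hg.1 i).aestronglyMeasurable hΩ.measurableSet).sub (hS.2.2 i).1
    have e1 : (pd i (Φ ∘ g) - fun x => fderiv ℝ Φ (f x) (G i x)) =ᵐ[volume.restrict Ω]
        (fun x => fderiv ℝ Φ (g x) ((pd i g - G i) x)) +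
          fun x => fderiv ℝ Φ (g x) (G i x) - fderiv ℝ Φ (f x) (G i x) := by
      refine ae_restrict_of_forall_mem hΩ.measurableSet fun x hx => ?_
      have d1 := (hΦ.1.contDiffAt (hΛ.mem_nhds (gm hx))).differentiableAt (by simp)
      have d2 := (hg.1.contDiffAt (hΩ.mem_nhds hx)).differentiableAt (by simp)
      simp only [Pi.sub_apply, Pi.add_apply, pd, fderiv_comp x d1 d2, map_sub,
        ContinuousLinearMap.comp_apply, sub_add_sub_cancel]
    rw [eLpNorm_congr_ae e1, ← ENNReal.add_halves ε]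
    refine (eLpNorm_add_le (VPostAux.app (hmeas g gc gm) m1)
      ((VPostAux.app (hmeas g gc gm) (hS.2.2 i).1).sub (hH i).1) hp).trans (add_le_add ?_
      (hη i g gc gm (a1.trans ((min_le_right _ _).trans (Finset.inf_le (Finset.mem_univ i))))))
    refine (eLpNorm_le_mul_eLpNorm_of_ae_le_mul (hbd g _ gm) p).trans (le_trans ?_ he)
    exact mul_le_mul_right ((a2 i).trans ((min_le_left _ _).trans (min_le_right _ _))) _
  have hF := (hd0 1 one_ne_zero).1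
  have hs : Sob p Ω (Φ ∘ f) fun i x => fderiv ℝ Φ (f x) (G i x) :=
    ⟨h4 p Ω _ _ hp hΩ hb hF hH fun ε hε => (key ε hε).imp fun u hu => ⟨hu.1.1, hu.2⟩, hF, hH⟩
  exact ⟨_, hs, h5 p Ω Λ' _ _ hp hΩ hs key⟩

end Vale.Agent.P073
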