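import Vale.Agent.P073.VStm

open MeasureTheory Set Metric Filter
open scoped ContDiff RealInnerProductSpace Topology ENNReal

namespace Vale.Agent.P073

namespace VSeqAux

theorem pw {ι : Type} {l : Filter ι} {f : ι → ℝ≥0∞} {q : ℝ} (hq : 0 < q)
    (h : Tendsto f l (𝓝 0)) : Tendsto (fun n => f n ^ q) l (𝓝 0) := by
  have k := ((ENNReal.continuous_rpow_const (y := q)).tendsto 0).comp h
  rwa [ENNReal.zero_rpow_of_pos hq] at k

end VSeqAux

open VSeqAux in
theorem v_seq : V_Seq := by
  intro p μ u W C hp hp' hW hu hb hl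
  have hp0 : p ≠ 0 := (zero_lt_one.trans_le hp).ne'
  have hq : 0 < p.toReal := ENNReal.toReal_pos hp0 hp'
  simp only [eLpNorm_eq_lintegral_rpow_enorm_toReal hp0 hp']
  refine pw (by positivity) ?_
  have k := tendsto_lintegral_of_dominated_convergence' (μ := μ)
    (F := fun n x => ‖u n x‖ₑ ^ p.toReal) (f := fun _ => 0) (fun x => ‖(C • W) x‖ₑ ^ p.toReal)
    (fun n => (hu n).enorm.pow_const _) (fun n => ?_)
    (lintegral_rpow_enorm_lt_top_of_eLpNorm_lt_top hp0 hp' (hW.const_smul C).2).ne ?_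
  · simpa using k
  · filter_upwards [hb n] with x hx
    refine ENNReal.rpow_le_rpow ?_ hq.le
    rw [← ofReal_norm_eq_enorm, ← ofReal_norm_eq_enorm]
    refine ENNReal.ofReal_le_ofReal (hx.trans ?_)
    rw [Pi.smul_apply, norm_smul]
    exact mul_le_mul_of_nonneg_right (le_abs_self C) (norm_nonneg _)
  · filter_upwards [hl] with x hx
    refine pw hq ?_
    simpa using hx.enorm

end Vale.Agent.P073
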