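import Vale.Agent.P073.TAll
import Vale.Agent.P073.UAe
import Vale.Agent.P073.UCmp
import Vale.Agent.P073.UCut
import Vale.Agent.P073.UD1
import Vale.Agent.P073.UD2
import Vale.Agent.P073.UDC
import Vale.Agent.P073.UDF
import Vale.Agent.P073.UEst
import Vale.Agent.P073.UIbp
import Vale.Agent.P073.UImg
import Vale.Agent.P073.UImg2
import Vale.Agent.P073.ULim
import Vale.Agent.P073.UMem
import Vale.Agent.P073.UMove
import Vale.Agent.P073.UPBg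
import Vale.Agent.P073.UPBh
import Vale.Agent.P073.UPull
import Vale.Agent.P073.URad
import Vale.Agent.P073.UUniq
import Vale.Agent.P073.VDom
import Vale.Agent.P073.VDom0
import Vale.Agent.P073.VPost
import Vale.Agent.P073.VSeq

/-! P073: compositions, assembled. -/

open MeasureTheory Set Metric Filter
open scoped ContDiff RealInnerProductSpace Topology ENNReal

namespace Vale.Agent.P073

theorem a_pull : U_Pull := u_pull (u_img2 u_img)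

theorem a_comp : U_Comp :=
  u_comp2 (u_rad u_ibp u_ae) (u_pBh a_pull) (u_pBg a_pull)
    (u_d2 (u_d1 (u_dF a_av t_avC t_beta t_nu a_loc t_ga) t_ball t_dif)) u_dC
    (u_est u_move u_cut u_mem) u_mem u_lim t_fin

theorem a_post : V_Post := v_post (v_dom v_seq) (v_dom0 (v_dom v_seq)) u_dC u_lim t_fin

theorem a_fac : U_Fac := by
  intro p Ω Ω' Λ h f G hp hp' hF
  induction hF with
  | base Ω hΩ => exact fun h1 h2 => ⟨hΩ, G, h1, h2⟩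
  | step Ω Ω₁ Ω₂ h k hΩ ht _ ih =>
    intro h1 h2
    obtain ⟨d, H, a, b⟩ := ih h1 h2
    exact ⟨hΩ, a_comp p Ω Ω₁ Λ h (f ∘ k) H hp hp' hΩ d ht a b⟩

variable {p : ℝ≥0∞} {Ω Λ : Set E} {f g : E → E} {G : Fin 3 → E → E}

theorem Fac.dom (h : Fac Ω Λ f) : Dom Λ := by
  induction h with
  | base Ω hΩ => exact hΩ
  | step _ _ _ _ _ _ _ _ ih => exact ih

theorem Sob.congr (m : MeasurableSet Ω) (h : Sob p Ω f G) (e : EqOn f g Ω) : Sob p Ω g G :=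
  ⟨fun i ψ h1 h2 h3 => (setIntegral_congr_fun m fun x hx => by simp only [e hx]).trans
    (h.1 i ψ h1 h2 h3), h.2.1.ae_eq ((ae_restrict_mem m).mono e), h.2.2⟩

theorem Approx.congr (m : MeasurableSet Ω) (h : Approx p Ω Λ f G) (e : EqOn f g Ω) :
    Approx p Ω Λ g G := fun ε hε =>
  let ⟨u, a, b, c, d⟩ := h ε hε
  ⟨u, a, b, (eLpNorm_congr_ae ((ae_restrict_mem m).mono fun x hx => by
    simp only [Pi.sub_apply, e hx])).trans_le c, d⟩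

theorem approx_id (hΩ : Dom Ω) : Sob p Ω id (fun i => pd i id) ∧ Approx p Ω Ω id fun i => pd i id :=
  have a := sob_smooth (p := p) hΩ.1 hΩ.2.2 (contDiff_id (𝕜 := ℝ) (E := E))
  ⟨a, fun _ _ => ⟨id, ⟨contDiffOn_id, bijOn_id _, id, contDiffOn_id, invOn_id _⟩, a, by simp,
    fun i => by simp⟩⟩

theorem approx_fac (hp : 1 ≤ p) (hp' : p ≠ ⊤) (h : Fac Ω Λ g) (e : EqOn g f Ω) (hs : Sob p Ω f G) :
    Approx p Ω Λ f G := by
  obtain ⟨a, b⟩ := approx_id (p := p) h.dom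
  obtain ⟨d, H, c1, c2⟩ := a_fac p Ω Λ Λ g id _ hp hp' h a b
  exact u_uniq p Ω Λ f H G hp d.1 d.2.2 (c1.congr d.1.measurableSet e) hs
    (c2.congr d.1.measurableSet e)

theorem approx_comp (hp : 1 ≤ p) (hp' : p ≠ ⊤) (hΩ : Dom Ω) (hΛ : Dom Λ) (hf : Homeo Ω Λ f)
    (hs : Sob p Ω f G) (ha : Approx p Ω Λ f G) {Ω' Λ' : Set E} {h Φ : E → E} {L : ℝ}
    (hh : Fac Ω' Ω h) (hb : Dom Λ') (hΦ : Diffeo Λ Λ' Φ) (hL : ∀ w ∈ Λ, ‖fderiv ℝ Φ w‖ ≤ L) :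
    (∃ H, Sob p Ω' (Φ ∘ f ∘ h) H) ∧
      ∀ H, Sob p Ω' (Φ ∘ f ∘ h) H → Approx p Ω' Λ' (Φ ∘ f ∘ h) H := by
  obtain ⟨K, a, b⟩ := a_post p Ω Λ Λ' f Φ G L hp hp' hΩ.1 hΩ.2.2 hΛ.1 hb.2.2 hf.1 hf.2.1.mapsTo hs
    ha hΦ hL
  obtain ⟨d, H, c1, c2⟩ := a_fac p Ω' Ω Λ' h (Φ ∘ f) K hp hp' hh a b
  exact ⟨⟨H, c1⟩, fun H' k => u_uniq p Ω' Λ' _ H H' hp d.1 d.2.2 c1 k c2⟩

end Vale.Agent.P073
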