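import Vale.Agent.P073.UStm

open MeasureTheory Set Metric Filter
open scoped ContDiff RealInnerProductSpace Topology ENNReal

namespace Vale.Agent.P073

theorem u_comp (h1 : U_Rad) (h2 : U_PBh) (h3 : U_PBg) (h4 : U_D2) (h5 : U_DC) (h6 : U_Est)
    (h7 : U_Mem) (h8 : U_Lim) (h9 : S_Fin) : U_Comp := by
  intro p Ω Ω' Λ h f G hp hp' hD hD' hT hS hA
  obtain ⟨hO, -, hB⟩ := hD
  obtain ⟨hO', hC', hB'⟩ := hD'
  obtain ⟨hH, L, hL, hloc⟩ := hT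
  have hL3 : 0 < 3 * L := by positivity
  have hbil : Bil Ω h L := fun x hx => by
    obtain ⟨r, hr, a, -, b⟩ := hloc x hx
    exact ⟨r, hr, a, b⟩
  have hbil3 : Bil Ω h (3 * L) := fun x hx => by
    obtain ⟨r, hr, a, -, b⟩ := hloc x hx
    refine ⟨r, hr, a, fun y hy z hz => ?_⟩
    have c := b y hy z hz
    have c1 := mul_nonneg hL.le (norm_nonneg (h y - h z))
    have c2 := mul_nonneg hL.le (norm_nonneg (y - z))
    constructor <;> linarith [c.1, c.2]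
  have hna : ∀ x ∈ Ω, ∃ r > 0, ball x r ⊆ Ω ∧ NearAff h (ball x r) := fun x hx => by
    obtain ⟨r, hr, a, b, -⟩ := hloc x hx
    exact ⟨r, hr, a, b⟩
  have him : Bornology.IsBounded (h '' Ω) := by
    rw [hH.2.1.image_eq]
    exact hB'
  obtain ⟨hK, hKb⟩ := h1 p Ω h (3 * L) hO hB him hL3 hbil3
  have hPB := h2 p Ω Ω' h (3 * L) hp hp' hO hO' hL3 hH hbil3
  have hKm : ∀ i, AEStronglyMeasurable (pd i h) (volume.restrict Ω) := fun i => (hK.2.2 i).1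
  have key : ∀ ε : ℝ≥0∞, ε ≠ 0 → ∃ g, Diffeo Ω Λ g ∧
      eLpNorm (g - f ∘ h) p (volume.restrict Ω) ≤ ε ∧
      ∀ i, eLpNorm (pd i g - Ch (fun i => pd i h) G h i) p (volume.restrict Ω) ≤ ε := by
    intro ε hε
    obtain ⟨ρ, hρ, η, hη, hE⟩ := h6 p Ω Ω' h f (fun i => pd i h) G ((3 * L) ^ 3 + 1) (3 * L) ε
      hp hp' hO hB hO' hB' hH.1 hH.2.1.mapsTo hPB hKm hKb hS.2.1 hS.2.2 hε
    obtain ⟨u, hu, huS, hu1, hu2⟩ := hA η (pos_iff_ne_zero.2 hη)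
    obtain ⟨g, hg, hg1, hg2⟩ := h4 p Ω Ω' h (fun i => pd i h) L ρ η hp hp' hO hB hO' hB' hC' hH
      hK hna hL hbil hρ hη
    have hPg := h3 p Ω Ω' g (3 * L) hp hp' hO hO' hL3 hg fun x hx => (hg2 x hx).2.2
    obtain ⟨hd, hd1⟩ := h5 Ω Ω' Λ g u hO hO' hg hu
    obtain ⟨e1, e2⟩ := hE g u (fun i => pd i g) (fun j => pd j u) hg.1.continuousOn hg.2.1.mapsTo
      hPg (fun x hx => (hg2 x hx).1)
      (fun i => (contOn_pd hO hg.1 i).aestronglyMeasurable hO.measurableSet)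
      (fun i x hx => (hg2 x hx).2.1 i) hg1 huS.2.1 huS.2.2 hu1 hu2
    refine ⟨u ∘ g, hd, e1, fun i => ?_⟩
    refine le_trans (le_of_eq (eLpNorm_congr_ae ?_)) (e2 i)
    filter_upwards [ae_restrict_mem hO.measurableSet] with x hx
    simp only [Pi.sub_apply, hd1 i x hx]
  have m1 : MemLp (f ∘ h) p (volume.restrict Ω) := by
    obtain ⟨a, b⟩ := hPB f hS.2.1.1
    exact ⟨a, lt_of_le_of_lt b (ENNReal.mul_lt_top ENNReal.ofReal_lt_top hS.2.1.2)⟩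
  have m2 : ∀ i, MemLp (Ch (fun i => pd i h) G h i) p (volume.restrict Ω) := by
    intro i
    obtain ⟨a, b⟩ := h7 p Ω Ω' h (fun i => pd i h) G ((3 * L) ^ 3 + 1) (3 * L) hp hO hPB hKm hKb
      (fun j => (hS.2.2 j).1) i
    exact ⟨a, lt_of_le_of_lt b (ENNReal.mul_lt_top
      (ENNReal.mul_lt_top ENNReal.ofReal_lt_top ENNReal.ofReal_lt_top)
      (ENNReal.sum_lt_top.2 fun j _ => (hS.2.2 j).2))⟩
  have w : WeakD Ω (f ∘ h) (Ch (fun i => pd i h) G h) :=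
    h8 p Ω _ _ hp hO hB m1 m2 fun ε hε => by
      obtain ⟨g, a, b, c⟩ := key ε hε
      exact ⟨g, a.1, b, c⟩
  exact ⟨_, ⟨w, m1, m2⟩, h9 p Ω Λ _ _ hp hO ⟨w, m1, m2⟩ key⟩

end Vale.Agent.P073
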