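import Vale.Agent.P073.UStm

/-! P073: composition with a diffeomorphism whose inverse has bounded derivative. -/

open MeasureTheory Set Metric Filter
open scoped ContDiff RealInnerProductSpace Topology ENNReal

namespace Vale.Agent.P073

theorem u_pBg (h1 : U_Pull) : U_PBg := by
  intro p Ω Λ g L hp hp' hΩ hΛ hL hg hd
  obtain ⟨hg, hb, k, hk, hi⟩ := hg
  have km : ∀ w ∈ Λ, k w ∈ Ω := by
    intro w hw
    obtain ⟨x, hx, rfl⟩ := hb.surjOn hw
    rw [hi.1 hx]
    exact hx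
  have dk : ∀ w ∈ Λ, DifferentiableAt ℝ k w := fun w hw =>
    (hk.contDiffAt (hΛ.mem_nhds hw)).differentiableAt (by simp)
  have dg : ∀ x ∈ Ω, DifferentiableAt ℝ g x := fun x hx =>
    (hg.contDiffAt (hΩ.mem_nhds hx)).differentiableAt (by simp)
  have nk : ∀ w ∈ Λ, ‖fderiv ℝ k w‖ ≤ L := by
    intro w hw
    refine ContinuousLinearMap.opNorm_le_bound _ hL.le fun v => ?_
    have e1 : g ∘ k =ᶠ[𝓝 w] id := by
      filter_upwards [hΛ.mem_nhds hw] with y hy using hi.2 hy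
    have e2 := e1.fderiv_eq (𝕜 := ℝ)
    rw [fderiv_comp w (dg _ (km w hw)) (dk w hw), fderiv_id] at e2
    have e3 : fderiv ℝ g (k w) (fderiv ℝ k w v) = v := DFunLike.congr_fun e2 v
    have e4 := hd _ (km w hw) (fderiv ℝ k w v)
    rwa [e3] at e4
  refine h1 p Ω Λ g k L hp hp' hΩ hΛ hL hg.continuousOn hb.mapsTo (fun x hx => hi.1 hx) ?_
  intro w hw
  obtain ⟨r, hr, hs⟩ := Metric.isOpen_iff.1 hΛ w hw
  exact ⟨r, hr, fun y hy z hz => (convex_ball w r).norm_image_sub_le_of_norm_fderiv_le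
    (fun x hx => dk x (hs hx)) (fun x hx => nk x (hs hx)) hz hy⟩

end Vale.Agent.P073
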