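import Vale.Agent.P073.TStm
import Vale.Agent.P073.Defs3

/-! P073: composition with tame homeomorphisms, the statements. -/

open MeasureTheory Set Metric Filter
open scoped ContDiff RealInnerProductSpace Topology ENNReal

namespace Vale.Agent.P073

/-- composition with `h` is bounded on `L^p` -/
def PB (p : ℝ≥0∞) (Ω Ω' : Set E) (h : E → E) (C : ℝ) : Prop :=
  ∀ w : E → E, AEStronglyMeasurable w (volume.restrict Ω') →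
    AEStronglyMeasurable (fun x => w (h x)) (volume.restrict Ω) ∧
    eLpNorm (fun x => w (h x)) p (volume.restrict Ω) ≤
      ENNReal.ofReal C * eLpNorm w p (volume.restrict Ω')

/-- `h` is `L`-bi-Lipschitz near every point of `Ω` -/
def Bil (Ω : Set E) (h : E → E) (L : ℝ) : Prop :=
  ∀ x ∈ Ω, ∃ r > 0, ball x r ⊆ Ω ∧
    ∀ y ∈ ball x r, ∀ z ∈ ball x r, ‖y - z‖ ≤ L * ‖h y - h z‖ ∧ ‖h y - h z‖ ≤ L * ‖y - z‖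

/-- the chain rule expression -/
noncomputable def Ch (K G : Fin 3 → E → E) (h : E → E) (i : Fin 3) (x : E) : E :=
  ∑ j, K i x j • G j (h x)

def U_Img : Prop := ∀ (k : E → E) (s : Set E) (L : ℝ), 0 < L →
  (∀ y ∈ s, ∀ z ∈ s, ‖k y - k z‖ ≤ L * ‖y - z‖) → volume (k '' s) ≤ ENNReal.ofReal (L ^ 3) * volume s

def U_Img2 : Prop := ∀ (k : E → E) (Λ s : Set E) (L : ℝ), 0 < L → MeasurableSet s → s ⊆ Λ →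
  (∀ w ∈ Λ, ∃ r > 0, ∀ y ∈ ball w r, ∀ z ∈ ball w r, ‖k y - k z‖ ≤ L * ‖y - z‖) →
  volume (k '' s) ≤ ENNReal.ofReal (L ^ 3) * volume s

def U_Pull : Prop := ∀ (p : ℝ≥0∞) (Ω Λ : Set E) (h k : E → E) (L : ℝ), 1 ≤ p → p ≠ ⊤ → IsOpen Ω →
  IsOpen Λ → 0 < L → ContinuousOn h Ω → MapsTo h Ω Λ → (∀ x ∈ Ω, k (h x) = x) →
  (∀ w ∈ Λ, ∃ r > 0, ∀ y ∈ ball w r, ∀ z ∈ ball w r, ‖k y - k z‖ ≤ L * ‖y - z‖) →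
  PB p Ω Λ h (L ^ 3 + 1)

def U_PBh : Prop := ∀ (p : ℝ≥0∞) (Ω Λ : Set E) (h : E → E) (L : ℝ), 1 ≤ p → p ≠ ⊤ → IsOpen Ω →
  IsOpen Λ → 0 < L → Homeo Ω Λ h → Bil Ω h L → PB p Ω Λ h (L ^ 3 + 1)

def U_PBg : Prop := ∀ (p : ℝ≥0∞) (Ω Λ : Set E) (g : E → E) (L : ℝ), 1 ≤ p → p ≠ ⊤ → IsOpen Ω →
  IsOpen Λ → 0 < L → Diffeo Ω Λ g → (∀ x ∈ Ω, ∀ v, ‖v‖ ≤ L * ‖fderiv ℝ g x v‖) →
  PB p Ω Λ g (L ^ 3 + 1)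

def U_Ibp : Prop := ∀ (u ψ : E → ℝ) (Ω : Set E) (L : ℝ) (i : Fin 3), IsOpen Ω →
  (∀ x ∈ Ω, ∃ r > 0, ∀ y ∈ ball x r, ∀ z ∈ ball x r, |u y - u z| ≤ L * ‖y - z‖) →
  ContDiff ℝ ∞ ψ → HasCompactSupport ψ → tsupport ψ ⊆ Ω →
  ∫ x in Ω, pd i ψ x * u x = -∫ x in Ω, ψ x * pd i u x

def U_Ae : Prop := ∀ (h : E → E) (Ω : Set E) (L : ℝ), IsOpen Ω → 0 < L → Bil Ω h L →
  (∀ᵐ x ∂volume.restrict Ω, DifferentiableAt ℝ h x) ∧ ∀ i, ∀ x ∈ Ω, ‖pd i h x‖ ≤ L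

def U_Rad : Prop := ∀ (p : ℝ≥0∞) (Ω : Set E) (h : E → E) (L : ℝ), IsOpen Ω →
  Bornology.IsBounded Ω → Bornology.IsBounded (h '' Ω) → 0 < L → Bil Ω h L →
  Sob p Ω h (fun i => pd i h) ∧ ∀ i, ∀ x ∈ Ω, ‖pd i h x‖ ≤ L

def U_DF : Prop := ∀ (p : ℝ≥0∞) (Ω : Set E) (f : E → E) (G : Fin 3 → E → E) (γ : E → ℝ)
  (ε : ℝ≥0∞), 1 ≤ p → p ≠ ⊤ → IsOpen Ω → Bornology.IsBounded Ω → ContinuousOn f Ω → Sob p Ω f G →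
  (∀ x ∈ Ω, ∃ r > 0, ball x r ⊆ Ω ∧ NearAff f (ball x r)) → Ga Ω γ → ε ≠ 0 →
  ∃ (F : E → E) (H : Fin 3 → E → E) (β : E → ℝ), ContinuousOn F Ω ∧ Sob p Ω F H ∧
    eLpNorm (F - f) p (volume.restrict Ω) ≤ ε ∧
    (∀ i, eLpNorm (H i - G i) p (volume.restrict Ω) ≤ ε) ∧ (∃ L, Adm Ω β L) ∧
    ∀ x ∈ Ω, β x ≤ γ x ∧ ball x (4 * β x) ⊆ Ω ∧ ∃ (A : E →L[ℝ] E) (v0 : E), ‖v0‖ = 1 ∧
      0 < ‖A v0‖ ∧ (∀ v, ‖A v0‖ * ‖v‖ ≤ ‖A v‖) ∧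
      (∀ z ∈ ball x (4 * β x), ‖f z - f x - A (z - x)‖ ≤ ‖A v0‖ * β x * (8 / 100)) ∧
      ‖F x - f x‖ ≤ ‖A v0‖ * β x * (8 / 100) ∧ ∀ z ∈ ball x (2 * β x), ∀ z' ∈ ball x (2 * β x),
        ‖F z - F z' - A (z - z')‖ ≤ ‖A v0‖ / 2 * ‖z - z'‖

def U_D1 : Prop := ∀ (p : ℝ≥0∞) (Ω Λ : Set E) (f : E → E) (G : Fin 3 → E → E) (γ : E → ℝ)
  (ε : ℝ≥0∞), 1 ≤ p → p ≠ ⊤ → IsOpen Ω → Bornology.IsBounded Ω → IsOpen Λ →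
  Bornology.IsBounded Λ → IsConnected Λ → Homeo Ω Λ f → Sob p Ω f G →
  (∀ x ∈ Ω, ∃ r > 0, ball x r ⊆ Ω ∧ NearAff f (ball x r)) → Ga Ω γ → ε ≠ 0 →
  ∃ g : E → E, Diffeo Ω Λ g ∧ (∀ i, eLpNorm (pd i g - G i) p (volume.restrict Ω) ≤ ε) ∧
    ∀ x ∈ Ω, ∃ (A : E →L[ℝ] E) (v0 : E) (b : ℝ), 0 < b ∧ b ≤ γ x ∧ ‖v0‖ = 1 ∧
      (∀ v, ‖A v0‖ * ‖v‖ ≤ ‖A v‖) ∧
      (∀ z ∈ ball x (4 * b), ‖f z - f x - A (z - x)‖ ≤ ‖A v0‖ * b * (8 / 100)) ∧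
      ‖g x - f x‖ ≤ ‖A v0‖ * b * (21 / 100) ∧
      ∀ v, 2 / 5 * ‖A v‖ ≤ ‖fderiv ℝ g x v‖ ∧ ‖fderiv ℝ g x v‖ ≤ 8 / 5 * ‖A v‖

def U_D2 : Prop := ∀ (p : ℝ≥0∞) (Ω Λ : Set E) (h : E → E) (K : Fin 3 → E → E) (L ρ : ℝ)
  (ε : ℝ≥0∞), 1 ≤ p → p ≠ ⊤ → IsOpen Ω → Bornology.IsBounded Ω → IsOpen Λ →
  Bornology.IsBounded Λ → IsConnected Λ → Homeo Ω Λ h → Sob p Ω h K →
  (∀ x ∈ Ω, ∃ r > 0, ball x r ⊆ Ω ∧ NearAff h (ball x r)) → 0 < L → Bil Ω h L → 0 < ρ → ε ≠ 0 →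
  ∃ g : E → E, Diffeo Ω Λ g ∧ (∀ i, eLpNorm (pd i g - K i) p (volume.restrict Ω) ≤ ε) ∧
    ∀ x ∈ Ω, ‖g x - h x‖ ≤ ρ ∧ (∀ i, ‖pd i g x‖ ≤ 3 * L) ∧ ∀ v, ‖v‖ ≤ 3 * L * ‖fderiv ℝ g x v‖

def U_DC : Prop := ∀ (Ω Ω' Λ : Set E) (g u : E → E), IsOpen Ω → IsOpen Ω' → Diffeo Ω Ω' g →
  Diffeo Ω' Λ u → Diffeo Ω Λ (u ∘ g) ∧
    ∀ i, ∀ x ∈ Ω, pd i (u ∘ g) x = Ch (fun i => pd i g) (fun j => pd j u) g i x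

def U_Move : Prop := ∀ (p : ℝ≥0∞) (Ω Ω' : Set E) (h w : E → E) (C : ℝ) (ε : ℝ≥0∞), 1 ≤ p → p ≠ ⊤ →
  IsOpen Ω → Bornology.IsBounded Ω → IsOpen Ω' → Bornology.IsBounded Ω' → ContinuousOn h Ω →
  MapsTo h Ω Ω' → PB p Ω Ω' h C → MemLp w p (volume.restrict Ω') → ε ≠ 0 →
  ∃ ρ > 0, ∀ g : E → E, ContinuousOn g Ω → MapsTo g Ω Ω' → PB p Ω Ω' g C →
    (∀ x ∈ Ω, ‖g x - h x‖ ≤ ρ) →
    eLpNorm (fun x => w (g x) - w (h x)) p (volume.restrict Ω) ≤ ε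

def U_Cut : Prop := ∀ (p : ℝ≥0∞) (Ω : Set E) (W : E → E) (C : ℝ) (ε : ℝ≥0∞), 1 ≤ p → p ≠ ⊤ →
  IsOpen Ω → MemLp W p (volume.restrict Ω) → ε ≠ 0 → ∃ ρ : ℝ≥0∞, ρ ≠ 0 ∧ ∀ (a : E → E) (j : Fin 3),
    AEStronglyMeasurable a (volume.restrict Ω) → (∀ x ∈ Ω, ‖a x‖ ≤ C) →
    eLpNorm a p (volume.restrict Ω) ≤ ρ →
    eLpNorm (fun x => a x j • W x) p (volume.restrict Ω) ≤ ε

def U_Lim : Prop := ∀ (p : ℝ≥0∞) (Ω : Set E) (F : E → E) (H : Fin 3 → E → E), 1 ≤ p → IsOpen Ω →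
  Bornology.IsBounded Ω → MemLp F p (volume.restrict Ω) → (∀ i, MemLp (H i) p (volume.restrict Ω)) →
  (∀ ε : ℝ≥0∞, ε ≠ 0 → ∃ u, ContDiffOn ℝ ∞ u Ω ∧ eLpNorm (u - F) p (volume.restrict Ω) ≤ ε ∧
    ∀ i, eLpNorm (pd i u - H i) p (volume.restrict Ω) ≤ ε) → WeakD Ω F H

def U_Uniq : Prop := ∀ (p : ℝ≥0∞) (Ω Λ : Set E) (F : E → E) (H H' : Fin 3 → E → E), 1 ≤ p →
  IsOpen Ω → Bornology.IsBounded Ω → Sob p Ω F H → Sob p Ω F H' → Approx p Ω Λ F H →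
  Approx p Ω Λ F H'

def U_Mem : Prop := ∀ (p : ℝ≥0∞) (Ω Ω' : Set E) (h : E → E) (K G : Fin 3 → E → E) (C L : ℝ),
  1 ≤ p → IsOpen Ω → PB p Ω Ω' h C → (∀ i, AEStronglyMeasurable (K i) (volume.restrict Ω)) →
  (∀ i, ∀ x ∈ Ω, ‖K i x‖ ≤ L) → (∀ j, AEStronglyMeasurable (G j) (volume.restrict Ω')) → ∀ i,
  AEStronglyMeasurable (Ch K G h i) (volume.restrict Ω) ∧
  eLpNorm (Ch K G h i) p (volume.restrict Ω) ≤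
    ENNReal.ofReal L * ENNReal.ofReal C * ∑ j, eLpNorm (G j) p (volume.restrict Ω')

def U_Est : Prop := ∀ (p : ℝ≥0∞) (Ω Ω' : Set E) (h f : E → E) (K G : Fin 3 → E → E) (C L : ℝ)
  (ε : ℝ≥0∞), 1 ≤ p → p ≠ ⊤ → IsOpen Ω → Bornology.IsBounded Ω → IsOpen Ω' →
  Bornology.IsBounded Ω' → ContinuousOn h Ω → MapsTo h Ω Ω' → PB p Ω Ω' h C →
  (∀ i, AEStronglyMeasurable (K i) (volume.restrict Ω)) → (∀ i, ∀ x ∈ Ω, ‖K i x‖ ≤ L) →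
  MemLp f p (volume.restrict Ω') → (∀ j, MemLp (G j) p (volume.restrict Ω')) → ε ≠ 0 →
  ∃ ρ > (0 : ℝ), ∃ η : ℝ≥0∞, η ≠ 0 ∧ ∀ (g u : E → E) (K' G' : Fin 3 → E → E), ContinuousOn g Ω →
    MapsTo g Ω Ω' → PB p Ω Ω' g C → (∀ x ∈ Ω, ‖g x - h x‖ ≤ ρ) →
    (∀ i, AEStronglyMeasurable (K' i) (volume.restrict Ω)) → (∀ i, ∀ x ∈ Ω, ‖K' i x‖ ≤ L) →
    (∀ i, eLpNorm (K' i - K i) p (volume.restrict Ω) ≤ η) → MemLp u p (volume.restrict Ω') →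
    (∀ j, MemLp (G' j) p (volume.restrict Ω')) → eLpNorm (u - f) p (volume.restrict Ω') ≤ η →
    (∀ j, eLpNorm (G' j - G j) p (volume.restrict Ω') ≤ η) →
    eLpNorm (u ∘ g - f ∘ h) p (volume.restrict Ω) ≤ ε ∧
    ∀ i, eLpNorm (Ch K' G' g i - Ch K G h i) p (volume.restrict Ω) ≤ ε

def U_Comp : Prop := ∀ (p : ℝ≥0∞) (Ω Ω' Λ : Set E) (h f : E → E) (G : Fin 3 → E → E), 1 ≤ p →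
  p ≠ ⊤ → Dom Ω → Dom Ω' → Tame Ω Ω' h → Sob p Ω' f G → Approx p Ω' Λ f G →
  ∃ H, Sob p Ω (f ∘ h) H ∧ Approx p Ω Λ (f ∘ h) H

def U_Fac : Prop := ∀ (p : ℝ≥0∞) (Ω Ω' Λ : Set E) (h f : E → E) (G : Fin 3 → E → E), 1 ≤ p →
  p ≠ ⊤ → Fac Ω Ω' h → Sob p Ω' f G → Approx p Ω' Λ f G →
  Dom Ω ∧ ∃ H, Sob p Ω (f ∘ h) H ∧ Approx p Ω Λ (f ∘ h) H

end Vale.Agent.P073
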