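import Vale.Agent.P073.UStm

/-! P073: composition with a diffeomorphism of the target, the statements. -/

open MeasureTheory Set Metric Filter
open scoped ContDiff RealInnerProductSpace Topology ENNReal

namespace Vale.Agent.P073

def V_Seq : Prop := ∀ (p : ℝ≥0∞) (μ : Measure E) (u : ℕ → E → E) (W : E → E) (C : ℝ), 1 ≤ p →
  p ≠ ⊤ → MemLp W p μ → (∀ n, AEStronglyMeasurable (u n) μ) → (∀ n, ∀ᵐ x ∂μ, ‖u n x‖ ≤ C * ‖W x‖) →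
  (∀ᵐ x ∂μ, Tendsto (fun n => u n x) atTop (𝓝 0)) →
  Tendsto (fun n => eLpNorm (u n) p μ) atTop (𝓝 0)

def V_Dom : Prop := ∀ (p : ℝ≥0∞) (Ω Λ : Set E) (T : E → E →L[ℝ] E) (f W : E → E) (L : ℝ)
  (ε : ℝ≥0∞), 1 ≤ p → p ≠ ⊤ → IsOpen Ω → IsOpen Λ → ContinuousOn T Λ → (∀ w ∈ Λ, ‖T w‖ ≤ L) →
  ContinuousOn f Ω → MapsTo f Ω Λ → MemLp W p (volume.restrict Ω) → ε ≠ 0 →
  ∃ η : ℝ≥0∞, η ≠ 0 ∧ ∀ g : E → E, ContinuousOn g Ω → MapsTo g Ω Λ →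
    eLpNorm (g - f) p (volume.restrict Ω) ≤ η →
    eLpNorm (fun x => T (g x) (W x) - T (f x) (W x)) p (volume.restrict Ω) ≤ ε

def V_Dom0 : Prop := ∀ (p : ℝ≥0∞) (Ω Λ : Set E) (Φ f : E → E) (ε : ℝ≥0∞), 1 ≤ p → p ≠ ⊤ →
  IsOpen Ω → Bornology.IsBounded Ω → IsOpen Λ → ContinuousOn Φ Λ → Bornology.IsBounded (Φ '' Λ) →
  ContinuousOn f Ω → MapsTo f Ω Λ → ε ≠ 0 → MemLp (Φ ∘ f) p (volume.restrict Ω) ∧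
  ∃ η : ℝ≥0∞, η ≠ 0 ∧ ∀ g : E → E, ContinuousOn g Ω → MapsTo g Ω Λ →
    eLpNorm (g - f) p (volume.restrict Ω) ≤ η →
    eLpNorm (Φ ∘ g - Φ ∘ f) p (volume.restrict Ω) ≤ ε

def V_Post : Prop := ∀ (p : ℝ≥0∞) (Ω Λ Λ' : Set E) (f Φ : E → E) (G : Fin 3 → E → E) (L : ℝ),
  1 ≤ p → p ≠ ⊤ → IsOpen Ω → Bornology.IsBounded Ω → IsOpen Λ → Bornology.IsBounded Λ' →
  ContinuousOn f Ω → MapsTo f Ω Λ → Sob p Ω f G → Approx p Ω Λ f G → Diffeo Λ Λ' Φ →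
  (∀ w ∈ Λ, ‖fderiv ℝ Φ w‖ ≤ L) → ∃ H, Sob p Ω (Φ ∘ f) H ∧ Approx p Ω Λ' (Φ ∘ f) H

end Vale.Agent.P073
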