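import Vale.Agent.P073.TBil
import Vale.Agent.P073.Defs3

/-! P073: examples of tame homeomorphisms. -/

open Set Metric Filter
open scoped Topology

namespace Vale.Agent.P073

variable {Ω Λ : Set E} {h : E → E} {L : ℝ}

theorem tame_c1 (hΩ : IsOpen Ω) (hh : Homeo Ω Λ h) (h1 : ContDiffOn ℝ 1 h Ω) (hL : 0 < L)
    (h2 : ∀ x ∈ Ω, ∀ v, ‖v‖ ≤ L * ‖fderiv ℝ h x v‖ ∧ ‖fderiv ℝ h x v‖ ≤ L * ‖v‖) : Tame Ω Λ h := by
  refine ⟨hh, 2 * L + 1 / L, by positivity, fun x hx => ?_⟩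
  have s := (h1.contDiffAt (hΩ.mem_nhds hx)).hasStrictFDerivAt one_ne_zero
  have m0 : 0 < 1 / L := by positivity
  obtain ⟨r, r0, hr⟩ := Metric.eventually_nhds_iff_ball.1 ((s.isLittleO.def
    (show 0 < 1 / L / 100 by positivity)).and ((continuous_fst.tendsto (x, x)).eventually
      (hΩ.mem_nhds hx)))
  rw [← ball_prod_same] at hr
  have k : ∀ y ∈ ball x r, ∀ z ∈ ball x r,
      ‖h y - h z - fderiv ℝ h x (y - z)‖ ≤ 1 / L / 100 * ‖y - z‖ :=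
    fun y hy z hz => (hr (y, z) ⟨hy, hz⟩).1
  have lo : ∀ v, 1 / L * ‖v‖ ≤ ‖fderiv ℝ h x v‖ := fun v => by
    rw [div_mul_eq_mul_div, div_le_iff₀ hL]
    linarith [(h2 x hx v).1]
  refine ⟨r, r0, fun y hy => (hr (y, y) ⟨hy, hy⟩).2, fun y s s0 hs => ⟨fderiv ℝ h x,
    h y - fderiv ℝ h x y, 1 / L, m0, lo, fun z hz => ?_⟩, fun y hy z hz => ?_⟩
  · have a := k z (hs hz) y (hs (mem_ball_self s0))
    rw [map_sub] at a
    rw [show h z - (h y - fderiv ℝ h x y + fderiv ℝ h x z) =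
      h z - h y - (fderiv ℝ h x z - fderiv ℝ h x y) by abel]
    nlinarith [mem_ball_iff_norm.1 hz]
  · have a := k y hy z hz
    have b := norm_sub_norm_le (h y - h z) (fderiv ℝ h x (y - z))
    have c := norm_sub_norm_le (fderiv ℝ h x (y - z)) (h y - h z)
    rw [norm_sub_rev (fderiv ℝ h x (y - z))] at c
    have d := h2 x hx (y - z)
    have e : L * (1 / L / 100 * ‖y - z‖) = ‖y - z‖ / 100 := by field_simp
    have n := norm_nonneg (y - z)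
    have n' := norm_nonneg (h y - h z)
    constructor <;> nlinarith [mul_le_mul_of_nonneg_left a hL.le, mul_le_mul_of_nonneg_left c hL.le,
      mul_nonneg m0.le n, mul_nonneg m0.le n', mul_nonneg hL.le n, mul_nonneg hL.le n']

theorem tame_iso (hh : Homeo Ω Λ h) (hL : 0 < L) (h1 : ∀ x ∈ Ω, ∃ r > 0, ball x r ⊆ Ω ∧
    ∃ a, 1 ≤ L * a ∧ a ≤ L ∧ ∀ y ∈ ball x r, ∀ z ∈ ball x r,
      a * ‖y - z‖ ≤ ‖h y - h z‖ ∧ ‖h y - h z‖ ≤ 2001 / 2000 * a * ‖y - z‖) : Tame Ω Λ h := by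
  refine ⟨hh, 2 * L, by positivity, fun x hx => ?_⟩
  obtain ⟨r, r0, s, a, a1, a2, k⟩ := h1 x hx
  have a0 : 0 < a := (mul_pos_iff_of_pos_left hL).1 (zero_lt_one.trans_le a1)
  refine ⟨r, r0, s, t_bil h _ a a0 k, fun y hy z hz => ?_⟩
  obtain ⟨b, c⟩ := k y hy z hz
  have n := norm_nonneg (y - z)
  have n' := norm_nonneg (h y - h z)
  constructor <;> nlinarith [mul_le_mul_of_nonneg_left b hL.le, mul_le_mul_of_nonneg_right a1 n,
    mul_le_mul_of_nonneg_right a2 n, mul_nonneg hL.le n', mul_nonneg hL.le n]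

end Vale.Agent.P073
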