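import Vale.Agent.P073.Pou

/-! P073: smooth approximation in the strong topology. -/

open MeasureTheory Set Metric Filter
open scoped ContDiff RealInnerProductSpace Topology

namespace Vale.Agent.P073

variable {Ω : Set E}

theorem sum_Lp {p : ENNReal} (hp : 1 ≤ p) (m : MeasurableSet Ω) {A : E → E} {a : ℕ → E → E}
    {b : ℕ → ENNReal} (h : ∀ x ∈ Ω, ∀ᶠ n in atTop, A x = ∑ k ∈ Finset.range n, a k x)
    (h1 : ∀ k, AEStronglyMeasurable (a k) (volume.restrict Ω))
    (h2 : ∀ k, eLpNorm (a k) p (volume.restrict Ω) ≤ b k) :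
    eLpNorm A p (volume.restrict Ω) ≤ ∑' k, b k := by
  refine (Lp.eLpNorm_lim_le_liminf_eLpNorm (f := fun n => ∑ k ∈ Finset.range n, a k)
    (fun n => Finset.aestronglyMeasurable_sum _ fun k _ => h1 k) A
    ((ae_restrict_mem m).mono fun x hx => tendsto_const_nhds.congr' ((h x hx).mono fun n hn =>
      hn.trans (Finset.sum_apply ..).symm))).trans (liminf_le_of_frequently_le' (.of_forall fun n => ?_))
  exact (eLpNorm_sum_le (fun k _ => h1 k) hp).trans
    ((Finset.sum_le_sum fun k _ => h2 k).trans (ENNReal.sum_le_tsum _))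

theorem whitney {p : ENNReal} (hp : 1 ≤ p) (hp' : p ≠ ⊤) (hΩ : IsOpen Ω)
    (hb : Bornology.IsBounded Ω) {f : E → E} {G : Fin 3 → E → E} (hf : ContinuousOn f Ω)
    (hw : WeakD Ω f G) (h1 : MemLp f p (volume.restrict Ω))
    (h2 : ∀ i, MemLp (G i) p (volume.restrict Ω)) {δ : E → ℝ}
    (hδ : ∀ K, IsCompact K → K ⊆ Ω → ∃ c > 0, ∀ x ∈ K, c ≤ δ x) {ε : ENNReal} (hε : ε ≠ 0) :
    ∃ g : E → E, ContDiffOn ℝ ∞ g Ω ∧ (∀ x ∈ Ω, ‖g x - f x‖ ≤ δ x) ∧
      (∀ x ∈ Ω, ∀ (v c : E) (κ : ℝ), ‖v‖ = 1 → ‖c‖ = 1 → ball x (δ x) ⊆ Ω →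
        (∀ y ∈ ball x (δ x), ∀ t : ℝ, 0 ≤ t → y + t • v ∈ ball x (δ x) →
          κ * t ≤ ⟪c, f (y + t • v) - f y⟫) → κ - δ x ≤ ⟪c, fderiv ℝ g x v⟫) ∧
      eLpNorm (fun x => g x - f x) p (volume.restrict Ω) ≤ ε ∧
      ∀ i, eLpNorm (fun x => pd i g x - G i x) p (volume.restrict Ω) ≤ ε := by
  have m := hΩ.measurableSet
  have hL := ((memLp_indicator_iff_restrict m).2 h1).locallyIntegrable hp
  obtain ⟨χ, hχ, hm⟩ := pou hΩ hb
  obtain ⟨b, b0, b1⟩ := ENNReal.exists_pos_sum_of_countable hε ℕ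
  choose c c0 c1 using fun k => hδ _ (hχ k).2.1 (hχ k).2.2.1
  choose φ f0 f1 f2 f3 using fun k => piece hp hp' hΩ hf hw h1 h2 (hχ k).1 (hχ k).2.1 (hχ k).2.2.1
    (a := c k / 2 / 2 ^ k) (by have := c0 k; positivity) (b := b k) (by simpa using (b0 k).ne')
  obtain ⟨u, hu⟩ : ∃ u : ℕ → E → E, ∀ k, u k = mol (φ k) (Ω.indicator f) := ⟨_, fun _ => rfl⟩
  simp only [← hu] at f1 f2 f3
  have su : ∀ k, ContDiff ℝ ∞ (u k) := fun k => hu k ▸ mol_smooth hL
  have dχ := fun k x => (hχ k).1.differentiable (by simp) x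
  have du := fun k x => (su k).differentiable (by simp) x
  obtain ⟨g, hg⟩ : ∃ g : E → E, ∀ x, g x = ∑' k, χ k x • u k x := ⟨_, fun _ => rfl⟩
  have loc : ∀ x ∈ Ω, ∀ᶠ n in atTop, (g =ᶠ[𝓝 x] fun y => ∑ k ∈ Finset.range n, χ k y • u k y) ∧
      (fun y => ∑ k ∈ Finset.range n, χ k y) =ᶠ[𝓝 x] fun _ => 1 := fun x hx => by
    obtain ⟨n0, h⟩ := hm x hx
    refine (eventually_ge_atTop n0).mono fun n hn => ⟨h.mono fun y hy => ?_, h.mono fun y hy => ?_⟩
    · rw [hg, tsum_eq_sum fun k hk => by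
        rw [hy.1 k (hn.trans (not_lt.1 fun l => hk (Finset.mem_range.2 l))), zero_smul]]
    · exact (Finset.sum_subset (Finset.range_mono hn) fun k _ hk =>
        hy.1 k (not_lt.1 fun l => hk (Finset.mem_range.2 l))).symm.trans hy.2
  have key : ∀ x ∈ Ω, ∀ᶠ n in atTop, ∑ k ∈ Finset.range n, χ k x = 1 ∧
      g x - f x = ∑ k ∈ Finset.range n, χ k x • (u k x - f x) ∧
      ∀ v w, fderiv ℝ g x v - w = ∑ k ∈ Finset.range n,
        (χ k x • (fderiv ℝ (u k) x v - w) + fderiv ℝ (χ k) x v • (u k x - f x)) := fun x hx =>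
    (loc x hx).mono fun n ⟨e1, e2⟩ => by
    have s1 : ∑ k ∈ Finset.range n, χ k x = 1 := e2.eq_of_nhds
    refine ⟨s1, ?_, fun v w => ?_⟩
    · simp only [smul_sub, Finset.sum_sub_distrib, ← Finset.sum_smul, s1, one_smul, e1.eq_of_nhds]
    · have s2 : ∑ k ∈ Finset.range n, fderiv ℝ (χ k) x v = 0 := by
        rw [← _root_.sum_apply, ← fderiv_fun_sum fun k _ => dχ k x, e2.fderiv_eq]
        simp
      rw [e1.fderiv_eq, fderiv_fun_sum fun k _ => (dχ k x).fun_smul (du k x),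
        _root_.sum_apply]
      simp only [fderiv_fun_smul (dχ _ x) (du _ x), smul_sub, Finset.sum_sub_distrib,
        Finset.sum_add_distrib, ← Finset.sum_smul, s1, s2, one_smul, zero_smul, sub_zero,
        _root_.add_apply, _root_.smul_apply,
        ContinuousLinearMap.smulRight_apply]
      abel
  have d0 : ∀ x ∈ Ω, 0 < δ x := fun x hx => by
    obtain ⟨a, a0, a1⟩ := hδ {x} isCompact_singleton (singleton_subset_iff.2 hx)
    exact a0.trans_le (a1 x rfl)
  have cd : ∀ k, ∀ x ∈ tsupport (χ k), c k / 2 / 2 ^ k ≤ δ x / 2 / 2 ^ k ∧ c k / 2 / 2 ^ k ≤ δ x :=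
    fun k x hx => ⟨by gcongr; exact c1 k x hx, ((div_le_self (half_pos (c0 k)).le
      (one_le_pow₀ one_le_two)).trans (half_le_self (c0 k).le)).trans (c1 k x hx)⟩
  refine ⟨g, fun x hx => ?_, fun x hx => ?_, fun x hx v e κ hv he hs h => ?_, ?_, fun i => ?_⟩
  · obtain ⟨n, e1, -⟩ := (loc x hx).exists
    exact ((ContDiff.sum fun k _ => (hχ k).1.smul (su k)).contDiffAt.congr_of_eventuallyEq
      e1).contDiffWithinAt
  · obtain ⟨n, s1, s2, -⟩ := (key x hx).exists
    rw [s2, ← one_mul (δ x), ← s1, Finset.sum_mul]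
    refine norm_sum_le_of_le _ fun k _ => ?_
    rw [norm_smul, Real.norm_of_nonneg ((hχ k).2.2.2 x)]
    by_cases hk : x ∈ tsupport (χ k)
    · refine mul_le_mul_of_nonneg_left ?_ ((hχ k).2.2.2 x)
      nlinarith [f1 k x hk, (cd k x hk).2, norm_nonneg (fderiv ℝ (χ k) x),
        norm_nonneg (u k x - f x)]
    · simp [image_eq_zero_of_notMem_tsupport hk]
  · obtain ⟨n, s1, -, s2⟩ := (key x hx).exists
    have t := (summable_geometric_two' (δ x)).sum_le_tsum (Finset.range n)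
      fun k _ => by have := d0 x hx; positivity
    rw [tsum_geometric_two'] at t
    rw [← sub_zero (fderiv ℝ g x v), s2, inner_sum]
    refine le_trans ?_ (Finset.sum_le_sum (f := fun k => χ k x * κ - δ x / 2 / 2 ^ k) fun k _ => ?_)
    · rw [Finset.sum_sub_distrib, ← Finset.sum_mul, s1]
      linarith
    rw [inner_add_right, real_inner_smul_right, sub_zero]
    by_cases hk : x ∈ tsupport (χ k)
    · have a1 : κ ≤ ⟪e, fderiv ℝ (u k) x v⟫ := hu k ▸ mol_mono hL hv ((f0 k).trans_le (cd k x hk).2)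
        fun y hy t ht hy' => by
          rw [indicator_of_mem (hs hy), indicator_of_mem (hs hy')]; exact h y hy t ht hy'
      have a2 := abs_real_inner_le_norm e (fderiv ℝ (χ k) x v • (u k x - f x))
      have a3 := (fderiv ℝ (χ k) x).le_opNorm v
      rw [he, one_mul, norm_smul] at a2
      rw [hv, mul_one] at a3
      nlinarith [f1 k x hk, (cd k x hk).1, norm_nonneg (u k x - f x), (abs_le.1 a2).1,
        mul_le_mul_of_nonneg_left a1 ((hχ k).2.2.2 x),
        mul_le_mul_of_nonneg_right a3 (norm_nonneg (u k x - f x))]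
    · have a1 : fderiv ℝ (χ k) x = 0 :=
        image_eq_zero_of_notMem_tsupport fun l => hk (tsupport_fderiv_subset ℝ l)
      have := d0 x hx
      simp only [image_eq_zero_of_notMem_tsupport hk, a1, zero_mul, zero_sub, zero_add,
        _root_.zero_apply, zero_smul, inner_zero_right, neg_nonpos]
      positivity
  · exact (sum_Lp hp m (fun x hx => (key x hx).mono fun n h => h.2.1) (fun k =>
      (hχ k).1.continuous.aestronglyMeasurable.smul
        ((su k).continuous.aestronglyMeasurable.sub h1.1)) f2).trans b1.le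
  · refine (sum_Lp hp m (fun x hx => (key x hx).mono fun n h => h.2.2 _ _) (fun k => ?_)
      fun k => f3 k i).trans b1.le
    exact ((hχ k).1.continuous.aestronglyMeasurable.smul
      ((((su k).continuous_fderiv (by simp)).clm_apply continuous_const).aestronglyMeasurable.sub
        (h2 i).1)).add
      ((((hχ k).1.continuous_fderiv (by simp)).clm_apply continuous_const).aestronglyMeasurable.smul
        ((su k).continuous.aestronglyMeasurable.sub h1.1))

end Vale.Agent.P073
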